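import Crest.Agent.R95.Basic
import Crest.Prelude.Def_VNFactor

/-! The tracial model of a von Neumann algebra with a faithful tracial vector state.
Author: helper25. -/

set_option autoImplicit false

namespace Crest.Agent.R95

open scoped InnerProductSpace ComplexConjugate Topology ENNReal
open Filter Complex Crest.OpAlg

variable {H : Type*} [NormedAddCommGroup H] [InnerProductSpace ℂ H] [CompleteSpace H]

instance vnClosed (M : VonNeumannAlgebra H) :
    IsClosed ((M.toStarSubalgebra : StarSubalgebra ℂ (H →L[ℂ] H)) : Set (H →L[ℂ] H)) := by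
  rw [VonNeumannAlgebra.coe_toStarSubalgebra, ← M.centralizer_centralizer]
  exact Set.isClosed_centralizer _

/-- an operator leaving a closed subspace invariant together with its adjoint commutes with the
orthogonal projection -/
theorem concrete_proj_comm {E : Type*} [NormedAddCommGroup E] [InnerProductSpace ℂ E]
    (K : Submodule ℂ E) [K.HasOrthogonalProjection] (a a' : E →L[ℂ] E)
    (haa : ∀ v w, ⟪a' v, w⟫_ℂ = ⟪v, a w⟫_ℂ) (h1 : ∀ v ∈ K, a v ∈ K) (h2 : ∀ v ∈ K, a' v ∈ K)
    (v : E) : K.starProjection (a v) = a (K.starProjection v) := by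
  refine Submodule.eq_starProjection_of_mem_orthogonal (h1 _ (K.starProjection_apply_mem v)) ?_
  intro w hw
  rw [← map_sub, ← haa]
  exact K.sub_starProjection_mem_orthogonal v _ (h2 w hw)

theorem concrete_closure_inv {E : Type*} [NormedAddCommGroup E] [InnerProductSpace ℂ E]
    (D : Submodule ℂ E) (a : E →L[ℂ] E) (h : ∀ v ∈ D, a v ∈ D) :
    ∀ v ∈ D.topologicalClosure, a v ∈ D.topologicalClosure := by
  intro v hv
  have : Set.MapsTo a (D : Set E) (D : Set E) := h
  exact this.closure a.continuous hv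

/-- amplification of an operator -/
noncomputable def concreteAmp (a : H →L[ℂ] H) :
    lp (fun _ : ℕ => H) 2 →L[ℂ] lp (fun _ : ℕ => H) 2 :=
  lp.mapCLM 2 (fun _ => a) (norm_nonneg a) (fun _ => le_rfl)

omit [CompleteSpace H] in
theorem concreteAmp_apply (a : H →L[ℂ] H) (f : lp (fun _ : ℕ => H) 2) (n : ℕ) :
    concreteAmp a f n = a (f n) := rfl

omit [CompleteSpace H] in
theorem concreteAmp_norm_le (a : H →L[ℂ] H) (f : lp (fun _ : ℕ => H) 2) :
    ‖concreteAmp a f‖ ≤ ‖a‖ * ‖f‖ :=
  (concreteAmp a).le_of_opNorm_le (lp.norm_mapCLM_le _ _ _ _) f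

theorem concreteAmp_inner (a : H →L[ℂ] H) (f g : lp (fun _ : ℕ => H) 2) :
    ⟪concreteAmp (star a) f, g⟫_ℂ = ⟪f, concreteAmp a g⟫_ℂ := by
  rw [lp.inner_eq_tsum, lp.inner_eq_tsum]
  refine tsum_congr fun n => ?_
  rw [concreteAmp_apply, concreteAmp_apply, ContinuousLinearMap.star_eq_adjoint,
    ContinuousLinearMap.adjoint_inner_left]

omit [CompleteSpace H] in
theorem concreteAmp_single (a : H →L[ℂ] H) (m : ℕ) (v : H) :
    concreteAmp a (lp.single 2 m v) = lp.single 2 m (a v) := by
  ext n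
  rw [concreteAmp_apply]
  by_cases h : n = m
  · subst h; rw [lp.single_apply_self, lp.single_apply_self]
  · rw [lp.single_apply_ne _ _ _ h, lp.single_apply_ne _ _ _ h, map_zero]

omit [InnerProductSpace ℂ H] [CompleteSpace H] in
theorem concrete_norm_sq (f : lp (fun _ : ℕ => H) 2) : ‖f‖ ^ 2 = ∑' n, ‖f n‖ ^ 2 := by
  have h := lp.norm_rpow_eq_tsum (p := 2) (by norm_num) f
  simpa using h

/-- the vectors `y (ξ n)`, `y` in the commutant, span a dense subspace -/
theorem concrete_dense {M : VonNeumannAlgebra H} {ξ : ℕ → H}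
    (hξ : ∀ x ∈ M, (∀ n, x (ξ n) = 0) → x = 0) (S : Submodule ℂ H) (hS : IsClosed (S : Set H))
    (h : ∀ y ∈ M.commutant, ∀ n, y (ξ n) ∈ S) (v : H) : v ∈ S := by
  set D : Submodule ℂ H := Submodule.span ℂ {w | ∃ y ∈ M.commutant, ∃ n, w = y (ξ n)} with hD
  have hDS : D.topologicalClosure ≤ S := by
    refine Submodule.topologicalClosure_minimal _ ?_ hS
    rw [hD, Submodule.span_le]
    rintro w ⟨y, hy, n, rfl⟩
    exact h y hy n
  have hinv : ∀ y ∈ M.commutant, ∀ w ∈ D.topologicalClosure, y w ∈ D.topologicalClosure := by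
    intro y hy
    refine concrete_closure_inv D y fun w hw => ?_
    induction hw using Submodule.span_induction with
    | mem w hw =>
      obtain ⟨y', hy', n, rfl⟩ := hw
      exact Submodule.subset_span ⟨y * y', mul_mem hy hy', n, rfl⟩
    | zero => rw [map_zero]; exact zero_mem _
    | add a b _ _ ha hb => rw [map_add]; exact add_mem ha hb
    | smul c a _ ha => rw [map_smul]; exact Submodule.smul_mem _ _ ha
  set q : H →L[ℂ] H := D.topologicalClosure.starProjection with hq
  have hqM : q ∈ M := by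
    rw [← M.commutant_commutant, VonNeumannAlgebra.mem_commutant_iff]
    intro y hy
    ext w
    exact (concrete_proj_comm D.topologicalClosure y (star y) (fun v w => by
      rw [ContinuousLinearMap.star_eq_adjoint, ContinuousLinearMap.adjoint_inner_left])
      (hinv y hy) (hinv _ (star_mem hy)) w).symm
  have h1 : 1 - q = 0 := by
    refine hξ _ (sub_mem (one_mem _) hqM) fun n => ?_
    have : ξ n ∈ D.topologicalClosure :=
      D.le_topologicalClosure (Submodule.subset_span ⟨1, one_mem _, n, rfl⟩)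
    rw [sub_apply, hq, Submodule.starProjection_eq_self_iff.2 this]
    simp
  have h2 : q v = v := by
    rw [← sub_eq_zero.1 h1]; rfl
  exact hDS (h2 ▸ D.topologicalClosure.starProjection_apply_mem v)

/-- a bounded family in `M` that is null on the `ξ n` is pointwise null -/
theorem concrete_ptwise {M : VonNeumannAlgebra H} {ξ : ℕ → H}
    (hξ : ∀ x ∈ M, (∀ n, x (ξ n) = 0) → x = 0) {ι : Type*} {l : Filter ι}
    (x : ι → H →L[ℂ] H) (hx : ∀ i, x i ∈ M) (C : ℝ) (hC : ∀ i, ‖x i‖ ≤ C)
    (h0 : ∀ n, Tendsto (fun i => x i (ξ n)) l (𝓝 0)) (v : H) :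
    Tendsto (fun i => x i v) l (𝓝 0) := by
  let S : Submodule ℂ H :=
    { carrier := {v | Tendsto (fun i => x i v) l (𝓝 0)}
      add_mem' := fun {a b} ha hb => by
        simpa [map_add] using Tendsto.add ha hb
      zero_mem' := by simpa using (tendsto_const_nhds : Tendsto (fun _ : ι => (0 : H)) l (𝓝 0))
      smul_mem' := fun c a ha => by
        simpa [map_smul] using Tendsto.const_smul ha c }
  have hS : IsClosed (S : Set H) := by
    refine isClosed_of_closure_subset fun w hw => ?_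
    change Tendsto (fun i => x i w) l (𝓝 0)
    rw [Metric.tendsto_nhds]
    intro ε hε
    have hC1 : 0 < |C| + 1 := by positivity
    obtain ⟨w', hw', hd⟩ := Metric.mem_closure_iff.1 hw (ε / 2 / (|C| + 1)) (by positivity)
    have h1 : Tendsto (fun i => x i w') l (𝓝 0) := hw'
    filter_upwards [Metric.tendsto_nhds.1 h1 (ε / 2) (by positivity)] with i hi
    rw [dist_zero_right] at hi ⊢
    rw [dist_eq_norm, lt_div_iff₀ hC1] at hd
    have h2 : x i w = x i (w - w') + x i w' := by rw [map_sub]; abel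
    have h3 : ‖x i (w - w')‖ ≤ |C| * ‖w - w'‖ :=
      (x i).le_of_opNorm_le ((hC i).trans (le_abs_self C)) _
    have h4 := norm_add_le (x i (w - w')) (x i w')
    rw [h2]
    nlinarith [norm_nonneg (w - w')]
  refine concrete_dense hξ S hS (fun y hy n => ?_) v
  change Tendsto (fun i => x i (y (ξ n))) l (𝓝 0)
  have h1 : ∀ i, x i (y (ξ n)) = y (x i (ξ n)) := fun i =>
    congrArg (fun z : H →L[ℂ] H => z (ξ n)) (VonNeumannAlgebra.mem_commutant_iff.1 hy _ (hx i))
  simp only [h1]
  have h2 := (y.continuous.tendsto 0).comp (h0 n)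
  rw [map_zero] at h2
  exact h2

omit [InnerProductSpace ℂ H] [CompleteSpace H] in
theorem concrete_tendsto_apply {ι : Type*} {l : Filter ι} {f : ι → lp (fun _ : ℕ => H) 2}
    {g : lp (fun _ : ℕ => H) 2} (h : Tendsto f l (𝓝 g)) (n : ℕ) :
    Tendsto (fun i => f i n) l (𝓝 (g n)) :=
  ((lp.lipschitzWith_one_eval (E := fun _ : ℕ => H) 2 n).continuous.tendsto g).comp h

theorem exists_model (M : VonNeumannAlgebra H) (ξ : ℕ → H)
    (hξ : IsFaithfulTracialVectorState M ξ) :
    ∃ T : TrModel M.toStarSubalgebra (lp (fun _ : ℕ => H) 2),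
      ∀ (x : M.toStarSubalgebra) (n : ℕ), T.ι x n = (x : H →L[ℂ] H) (ξ n) := by
  obtain ⟨hsum, htr, hfaith⟩ := hξ
  have hmem : Memℓp (fun n => ξ n : ∀ _ : ℕ, H) 2 := by
    refine memℓp_gen ?_
    simpa using hsum.summable
  let ξ0 : lp (fun _ : ℕ => H) 2 := ⟨fun n => ξ n, hmem⟩
  let ι : M.toStarSubalgebra →ₗ[ℂ] lp (fun _ : ℕ => H) 2 :=
    { toFun := fun x => concreteAmp (x : H →L[ℂ] H) ξ0
      map_add' := fun x y => by ext n; rfl
      map_smul' := fun c x => by ext n; rfl }
  have hι : ∀ (x : M.toStarSubalgebra) (n : ℕ), ι x n = (x : H →L[ℂ] H) (ξ n) := fun _ _ => rfl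
  have hmul : ∀ a b : M.toStarSubalgebra, ι (a * b) = concreteAmp (a : H →L[ℂ] H) (ι b) := by
    intro a b; ext n; rfl
  have hτ : ∀ a : M.toStarSubalgebra, ⟪ι 1, ι a⟫_ℂ = vectorState ξ (a : H →L[ℂ] H) := by
    intro a
    rw [lp.inner_eq_tsum]
    rfl
  refine ⟨⟨ι, ?_, ?_, ?_, ?_, ?_, ?_⟩, hι⟩
  · have h1 : ‖ι 1‖ ^ 2 = 1 := by
      rw [concrete_norm_sq]
      exact hsum.tsum_eq
    exact (sq_eq_sq₀ (norm_nonneg _) zero_le_one).1 (by rw [h1]; norm_num)
  · intro a b c
    rw [hmul, hmul, ← concreteAmp_inner]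
    congr 2
    simp
  · intro a b
    rw [hτ, hτ]
    exact htr _ a.2 _ b.2
  · intro a b
    rw [hmul]
    exact concreteAmp_norm_le _ _
  · rw [injective_iff_map_eq_zero]
    intro a ha
    refine Subtype.ext (hfaith _ a.2 fun n => ?_)
    rw [← hι, ha]; rfl
  · intro x C hC hcau
    obtain ⟨z, hz⟩ := cauchySeq_tendsto_of_complete hcau
    have hc2 : ∀ v : H, CauchySeq fun k => (x k : H →L[ℂ] H) v := by
      intro v
      rw [cauchySeq_iff_tendsto_dist_atTop_0]
      have h1 := concrete_ptwise (l := (atTop : Filter (ℕ × ℕ))) hfaith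
        (fun p => (x p.1 : H →L[ℂ] H) - (x p.2 : H →L[ℂ] H))
        (fun p => sub_mem (x p.1).2 (x p.2).2) (C + C)
        (fun p => (norm_sub_le _ _).trans (add_le_add (hC _) (hC _))) (fun n => by
          have h2 : CauchySeq fun k => (x k : H →L[ℂ] H) (ξ n) :=
            (concrete_tendsto_apply hz n).cauchySeq
          rw [cauchySeq_iff_tendsto_dist_atTop_0] at h2
          rw [tendsto_zero_iff_norm_tendsto_zero]
          simp only [dist_eq_norm] at h2
          exact h2) v
      rw [tendsto_zero_iff_norm_tendsto_zero] at h1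
      simp only [dist_eq_norm]
      exact h1
    choose L hL using fun v => cauchySeq_tendsto_of_complete (hc2 v)
    let y : H →L[ℂ] H :=
      continuousLinearMapOfTendsto (l := atTop) (fun k => (x k : H →L[ℂ] H)) (f := L)
        (tendsto_pi_nhds.2 hL)
    have hy : ∀ v, Tendsto (fun k => (x k : H →L[ℂ] H) v) atTop (𝓝 (y v)) := hL
    have hyM : y ∈ M := by
      rw [← M.commutant_commutant, VonNeumannAlgebra.mem_commutant_iff]
      intro g hg
      ext v
      have h1 : ∀ k, (x k : H →L[ℂ] H) (g v) = g ((x k : H →L[ℂ] H) v) := fun k =>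
        congrArg (fun z : H →L[ℂ] H => z v) (VonNeumannAlgebra.mem_commutant_iff.1 hg _ (x k).2)
      have h2 := hy (g v)
      simp only [h1] at h2
      exact tendsto_nhds_unique ((g.continuous.tendsto _).comp (hy v)) h2
    have hC0 : 0 ≤ C := (norm_nonneg _).trans (hC 0)
    refine ⟨⟨y, hyM⟩, ?_, ?_⟩
    · refine ContinuousLinearMap.opNorm_le_bound y hC0 fun v => ?_
      exact le_of_tendsto' (hy v).norm fun k =>
        (x k : H →L[ℂ] H).le_of_opNorm_le (hC k) v
    · have : ι ⟨y, hyM⟩ = z := by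
        ext n
        exact tendsto_nhds_unique (hy (ξ n)) (concrete_tendsto_apply hz n)
      rw [this]; exact hz

section model
variable {M : VonNeumannAlgebra H} {ξ : ℕ → H}
  (T : TrModel M.toStarSubalgebra (lp (fun _ : ℕ => H) 2))
  (hT : ∀ (x : M.toStarSubalgebra) (n : ℕ), T.ι x n = (x : H →L[ℂ] H) (ξ n))
include hT

theorem model_norm_sq (x : M.toStarSubalgebra) :
    ‖T.ι x‖ ^ 2 = traceNormSq ξ (x : H →L[ℂ] H) := by
  rw [concrete_norm_sq]
  simp only [hT]
  rfl

theorem model_τ (x : M.toStarSubalgebra) : T.τ x = vectorState ξ (x : H →L[ℂ] H) := by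
  rw [TrModel.τ_apply, lp.inner_eq_tsum]
  simp only [hT]
  rfl

omit hT in
theorem model_sep [TopologicalSpace.SeparableSpace H] : T.Sep := by
  have h1 : TopologicalSpace.IsSeparable
      (⋃ n : ℕ, Set.range fun v : H => (lp.single 2 n v : lp (fun _ : ℕ => H) 2)) :=
    TopologicalSpace.IsSeparable.iUnion fun n =>
      TopologicalSpace.isSeparable_range (lp.isometry_single (E := fun _ : ℕ => H) n).continuous
  refine (h1.span (R := ℂ)).closure.mono fun f _ => ?_
  refine mem_closure_of_tendsto (lp.hasSum_single (by norm_num) f) (Eventually.of_forall fun s => ?_)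
  exact Submodule.sum_mem _ fun n _ => Submodule.subset_span (Set.mem_iUnion.2 ⟨n, f n, rfl⟩)

omit hT in
theorem concrete_coe_res {c : M.toStarSubalgebra} (hc : IsSelfAdjoint c) :
    ((res c : M.toStarSubalgebra) : H →L[ℂ] H) = res (c : H →L[ℂ] H) := by
  have hc' : IsSelfAdjoint (c : H →L[ℂ] H) := congrArg Subtype.val hc.star_eq
  have h1 : (1 - I • (c : H →L[ℂ] H)) * ((res c : M.toStarSubalgebra) : H →L[ℂ] H) = 1 :=
    congrArg Subtype.val (mul_res hc)
  calc ((res c : M.toStarSubalgebra) : H →L[ℂ] H)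
      = (res (c : H →L[ℂ] H) * (1 - I • (c : H →L[ℂ] H))) *
          ((res c : M.toStarSubalgebra) : H →L[ℂ] H) := by rw [res_mul hc', one_mul]
    _ = res (c : H →L[ℂ] H) := by rw [mul_assoc, h1, mul_one]

theorem concrete_sa_commute (hξ : IsFaithfulTracialVectorState M ξ)
    (B : StarSubalgebra ℂ M.toStarSubalgebra) (y : H →L[ℂ] H)
    (hy : ∀ b ∈ B, y * (b : H →L[ℂ] H) = (b : H →L[ℂ] H) * y)
    {x : M.toStarSubalgebra} (hx : IsSelfAdjoint x) (hxB : x ∈ T.cl2 B) :
    y * (x : H →L[ℂ] H) = (x : H →L[ℂ] H) * y := by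
  have h1 : ∀ m : ℕ, ∃ c ∈ B, IsSelfAdjoint c ∧ ‖T.ι (c - x)‖ ≤ 1 / ((m : ℝ) + 1) := by
    intro m
    obtain ⟨b, hb, hxb⟩ := T.mem_cl2.1 hxB (1 / ((m : ℝ) + 1)) (by positivity)
    refine ⟨(2 : ℂ)⁻¹ • (b + star b), B.smul_mem (add_mem hb (star_mem hb)) _, ?_, ?_⟩
    · rw [IsSelfAdjoint, star_smul, star_add, star_star, add_comm]
      simp
    · have h2 : (2 : ℂ)⁻¹ • (b + star b) - x = -((2 : ℂ)⁻¹ • ((x - b) + star (x - b))) := by
        rw [star_sub, hx.star_eq]
        module
      rw [h2, map_neg, norm_neg, map_smul, norm_smul, map_add]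
      have h3 := norm_add_le (T.ι (x - b)) (T.ι (star (x - b)))
      rw [T.norm_star] at h3
      simp only [norm_inv, Complex.norm_ofNat]
      linarith
  choose c hcB hcs hcx using h1
  have hx' : IsSelfAdjoint (x : H →L[ℂ] H) := congrArg Subtype.val hx.star_eq
  have hcs' : ∀ m, IsSelfAdjoint (c m : H →L[ℂ] H) := fun m => congrArg Subtype.val (hcs m).star_eq
  have h2 : Tendsto (fun m => T.ι (res (c m) - res x)) atTop (𝓝 0) := by
    rw [tendsto_zero_iff_norm_tendsto_zero]
    exact squeeze_zero (fun _ => norm_nonneg _)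
      (fun m => (T.norm_res_sub_res_le hx (hcs m)).trans (hcx m))
      tendsto_one_div_add_atTop_nhds_zero_nat
  have h3 : ∀ v, Tendsto (fun m => ((res (c m) - res x : M.toStarSubalgebra) : H →L[ℂ] H) v)
      atTop (𝓝 0) := by
    refine concrete_ptwise hξ.2.2 _ (fun m => (res (c m) - res x).2) 2 (fun m => ?_) fun n => ?_
    · have := norm_sub_le (res (c m)) (res x)
      have h4 := norm_res_le (hcs m)
      have h5 := norm_res_le hx
      change ‖res (c m) - res x‖ ≤ 2
      linarith
    · have := concrete_tendsto_apply h2 n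
      simp only [hT] at this
      exact this
  have h4 : ∀ v, Tendsto (fun m => res (c m : H →L[ℂ] H) v) atTop (𝓝 (res (x : H →L[ℂ] H) v)) := by
    intro v
    rw [← tendsto_sub_nhds_zero_iff]
    refine (h3 v).congr fun m => ?_
    rw [← concrete_coe_res (hcs m), ← concrete_coe_res hx]
    rfl
  refine commute_of_commute_res hx' ?_
  ext v
  have h5 : ∀ m, res (c m : H →L[ℂ] H) (y v) = y (res (c m : H →L[ℂ] H) v) := fun m =>
    (congrArg (fun z : H →L[ℂ] H => z v) (commute_res (hcs' m) (hy _ (hcB m)))).symm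
  have h6 := h4 (y v)
  simp only [h5] at h6
  exact tendsto_nhds_unique ((y.continuous.tendsto _).comp (h4 v)) h6

/-- von Neumann's bicommutant theorem in the 2-norm form -/
theorem model_mem_cl2_iff (hξ : IsFaithfulTracialVectorState M ξ) (S : Set M.toStarSubalgebra)
    (x : M.toStarSubalgebra) :
    x ∈ T.cl2 (StarAlgebra.adjoin ℂ S) ↔
      ∀ N : VonNeumannAlgebra H, (∀ s ∈ S, (s : H →L[ℂ] H) ∈ N) → (x : H →L[ℂ] H) ∈ N := by
  set B : StarSubalgebra ℂ M.toStarSubalgebra := StarAlgebra.adjoin ℂ S with hB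
  constructor
  · intro hx N hN
    have hBN : B ≤ N.toStarSubalgebra.comap M.toStarSubalgebra.subtype :=
      StarAlgebra.adjoin_le fun s hs => hN s hs
    rw [← N.commutant_commutant, VonNeumannAlgebra.mem_commutant_iff]
    intro y hy
    have hy' : ∀ b ∈ B, y * (b : H →L[ℂ] H) = (b : H →L[ℂ] H) * y := fun b hb =>
      (VonNeumannAlgebra.mem_commutant_iff.1 hy _ (hBN hb)).symm
    have h1 : IsSelfAdjoint (x + star x) := by
      rw [IsSelfAdjoint, star_add, star_star, add_comm]
    have h2 : IsSelfAdjoint (I • (x - star x)) := by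
      rw [IsSelfAdjoint, star_smul, star_sub, star_star, ← neg_sub x (star x), smul_neg,
        ← neg_smul]
      simp
    have h3 := concrete_sa_commute T hT hξ B y hy' h1 (add_mem hx (star_mem hx))
    have h4 := concrete_sa_commute T hT hξ B y hy' h2
      ((T.cl2 B).smul_mem (sub_mem hx (star_mem hx)) I)
    have h5 : x = (2 : ℂ)⁻¹ • ((x + star x) - I • (I • (x - star x))) := by
      rw [smul_smul, I_mul_I]
      module
    have h6 : (x : H →L[ℂ] H) = (2 : ℂ)⁻¹ • (((x + star x : M.toStarSubalgebra) : H →L[ℂ] H) -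
        I • ((I • (x - star x) : M.toStarSubalgebra) : H →L[ℂ] H)) :=
      congrArg Subtype.val h5
    rw [h6, mul_smul_comm, smul_mul_assoc, mul_sub, sub_mul, mul_smul_comm, smul_mul_assoc, h3, h4]
  · intro hx
    let N0 : VonNeumannAlgebra H :=
      ⟨StarSubalgebra.centralizer ℂ (Subtype.val '' (B : Set M.toStarSubalgebra)), by simp⟩
    have hN0 : ∀ g : H →L[ℂ] H,
        (∀ b ∈ B, (b : H →L[ℂ] H) * g = g * (b : H →L[ℂ] H)) → g ∈ N0 := by
      intro g hg
      change g ∈ StarSubalgebra.centralizer ℂ (Subtype.val '' (B : Set M.toStarSubalgebra))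
      rw [StarSubalgebra.mem_centralizer_iff]
      rintro _ ⟨b, hb, rfl⟩
      exact ⟨hg b hb, hg (star b) (star_mem hb)⟩
    have hxN : (x : H →L[ℂ] H) ∈ N0.commutant := by
      refine hx _ fun s hs => ?_
      rw [VonNeumannAlgebra.mem_commutant_iff]
      intro g hg
      have hg' : g ∈ StarSubalgebra.centralizer ℂ (Subtype.val '' (B : Set M.toStarSubalgebra)) :=
        hg
      rw [StarSubalgebra.mem_centralizer_iff] at hg'
      exact (hg' _ ⟨s, StarAlgebra.subset_adjoin ℂ S hs, rfl⟩).1.symm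
    have hmul : ∀ a b : M.toStarSubalgebra,
        T.ι (a * b) = concreteAmp (a : H →L[ℂ] H) (T.ι b) := by
      intro a b; ext n; rw [concreteAmp_apply, hT, hT]; rfl
    set D : Submodule ℂ (lp (fun _ : ℕ => H) 2) :=
      (Subalgebra.toSubmodule B.toSubalgebra).map T.ι with hD
    have hinv : ∀ b ∈ B, ∀ w ∈ D.topologicalClosure,
        concreteAmp (b : H →L[ℂ] H) w ∈ D.topologicalClosure := by
      intro b hb
      refine concrete_closure_inv D _ ?_
      rintro _ ⟨c, hc, rfl⟩
      exact ⟨b * c, B.mul_mem hb hc, hmul b c⟩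
    set q := D.topologicalClosure.starProjection with hq
    have hqb : ∀ b ∈ B, ∀ w, q (concreteAmp (b : H →L[ℂ] H) w) =
        concreteAmp (b : H →L[ℂ] H) (q w) := fun b hb w =>
      concrete_proj_comm D.topologicalClosure _ (concreteAmp (star (b : H →L[ℂ] H)))
        (concreteAmp_inner _) (hinv b hb) (hinv (star b) (star_mem hb)) w
    have hent : ∀ (n m : ℕ) (v : H), (x : H →L[ℂ] H) (q (lp.single 2 m v) n) =
        q (lp.single 2 m ((x : H →L[ℂ] H) v)) n := by
      intro n m v
      let g : H →L[ℂ] H := (lp.evalCLM ℂ (fun _ : ℕ => H) 2 n).comp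
        (q.comp (lp.singleContinuousLinearMap ℂ (fun _ : ℕ => H) 2 m))
      have hg : ∀ w, g w = q (lp.single 2 m w) n := fun _ => rfl
      have hgN : g ∈ N0 := by
        refine hN0 g fun b hb => ?_
        ext w
        change (b : H →L[ℂ] H) (g w) = g ((b : H →L[ℂ] H) w)
        rw [hg, hg, ← concreteAmp_single, hqb b hb, concreteAmp_apply]
      exact (congrArg (fun z : H →L[ℂ] H => z v)
        (VonNeumannAlgebra.mem_commutant_iff.1 hxN g hgN)).symm
    have hxq : (concreteAmp (x : H →L[ℂ] H)).comp q = q.comp (concreteAmp (x : H →L[ℂ] H)) := by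
      refine lp.ext_continuousLinearMap (by norm_num) fun m => ?_
      ext v n
      change concreteAmp (x : H →L[ℂ] H) (q (lp.single 2 m v)) n =
        q (concreteAmp (x : H →L[ℂ] H) (lp.single 2 m v)) n
      rw [concreteAmp_apply, concreteAmp_single, hent]
    have h1 : T.ι 1 ∈ D.topologicalClosure := D.le_topologicalClosure ⟨1, one_mem B, rfl⟩
    have h2 : T.ι x ∈ D.topologicalClosure := by
      have h3 : concreteAmp (x : H →L[ℂ] H) (q (T.ι 1)) = q (concreteAmp (x : H →L[ℂ] H) (T.ι 1)) :=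
        congrArg (fun z : lp (fun _ : ℕ => H) 2 →L[ℂ] lp (fun _ : ℕ => H) 2 => z (T.ι 1)) hxq
      rw [hq, Submodule.starProjection_eq_self_iff.2 h1, ← hmul, mul_one] at h3
      rw [h3]
      exact D.topologicalClosure.starProjection_apply_mem _
    rw [T.mem_cl2]
    intro ε hε
    obtain ⟨_, ⟨b, hb, rfl⟩, hd⟩ := Metric.mem_closure_iff.1 h2 ε hε
    exact ⟨b, hb, by rwa [map_sub, ← dist_eq_norm]⟩

end model

theorem isFactorAlg_of_isFactor {M : VonNeumannAlgebra H} (hM : IsFactor M) :
    IsFactorAlg M.toStarSubalgebra := by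
  intro y hy
  obtain ⟨c, hc⟩ := hM y y.2 fun v hv => (congrArg Subtype.val (hy ⟨v, hv⟩)).symm
  exact ⟨c, Subtype.ext hc⟩

end Crest.Agent.R95
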