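import Crest.Agent.R95.Basic

/-! Baire category on 2-norm closed sets of unitaries and the energy decrement. -/

set_option autoImplicit false

namespace Crest.Agent.R95

open scoped InnerProductSpace ComplexConjugate Topology
open Filter Complex

variable {A : Type*} [CStarAlgebra A] {K : Type*} [NormedAddCommGroup K] [InnerProductSpace ℂ K]

/-- `D` is sequentially closed for the 2-norm -/
def TrModel.BClosed (T : TrModel A K) (D : Set A) : Prop :=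
  ∀ (x : ℕ → A) (a : A), (∀ n, x n ∈ D) →
    Tendsto (fun n => T.ι (x n)) atTop (𝓝 (T.ι a)) → a ∈ D

theorem baire (T : TrModel A K) {D : Set A} (hDu : D ⊆ unitary A) (hD : T.BClosed D)
    (O : ℕ → Set A)
    (hopen : ∀ k, ∀ u ∈ D, u ∈ O k → ∃ δ : ℝ, 0 < δ ∧ ∀ v ∈ D, ‖T.ι (v - u)‖ < δ → v ∈ O k)
    (hdense : ∀ k, ∀ u ∈ D, ∀ ε : ℝ, 0 < ε → ∃ v ∈ D, v ∈ O k ∧ ‖T.ι (v - u)‖ < ε) :
    ∀ u ∈ D, ∀ ε : ℝ, 0 < ε → ∃ v ∈ D, (∀ k, v ∈ O k) ∧ ‖T.ι (v - u)‖ < ε := by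
  haveI : CompleteSpace (T.ι '' D) := by
    refine Metric.complete_of_cauchySeq_tendsto fun p hp => ?_
    choose x hx hxp using fun n => (p n).2
    have hc : CauchySeq fun n => T.ι (x n) := by
      simp only [hxp]
      exact uniformContinuous_subtype_val.comp_cauchySeq hp
    obtain ⟨y, -, hy⟩ := T.complete x 1 (fun n => norm_unitary_le (hDu (hx n))) hc
    refine ⟨⟨T.ι y, y, hD x y hx hy, rfl⟩, ?_⟩
    rw [tendsto_subtype_rng]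
    simpa only [hxp] using hy
  let O' : ℕ → Set (T.ι '' D) := fun k => {p | ∃ v ∈ D, v ∈ O k ∧ T.ι v = p}
  have h1 : ∀ k, IsOpen (O' k) := by
    intro k
    rw [Metric.isOpen_iff]
    rintro p ⟨v, hv, hvO, hvp⟩
    obtain ⟨δ, hδ, h⟩ := hopen k v hv hvO
    refine ⟨δ, hδ, ?_⟩
    rintro ⟨_, v', hv', rfl⟩ hq
    refine ⟨v', hv', h v' hv' ?_, rfl⟩
    rw [Metric.mem_ball, Subtype.dist_eq, ← hvp, dist_eq_norm] at hq
    rwa [map_sub]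
  have h2 : ∀ k, Dense (O' k) := by
    intro k
    rw [Metric.dense_iff]
    rintro ⟨_, v, hv, rfl⟩ ε hε
    obtain ⟨v', hv', hO, hd⟩ := hdense k v hv ε hε
    refine ⟨⟨T.ι v', v', hv', rfl⟩, ?_, v', hv', hO, rfl⟩
    rw [Metric.mem_ball, Subtype.dist_eq, dist_eq_norm]
    rwa [map_sub] at hd
  intro u hu ε hε
  obtain ⟨⟨_, v, hv, rfl⟩, hq, hq'⟩ :=
    Metric.dense_iff.1 (dense_iInter_of_isOpen h1 h2) ⟨T.ι u, u, hu, rfl⟩ ε hε
  refine ⟨v, hv, fun k => ?_, ?_⟩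
  · obtain ⟨v', -, hO, h⟩ := Set.mem_iInter.1 hq' k
    rwa [← T.inj h]
  · rw [Metric.mem_ball, Subtype.dist_eq, dist_eq_norm] at hq
    rwa [map_sub]

theorem adjoin_lsc (T : TrModel A K) (S₀ : Set A) {u : A} (hu : u ∈ unitary A) {b : A}
    (hb : b ∈ StarAlgebra.adjoin ℂ (S₀ ∪ {u})) {ε : ℝ} (hε : 0 < ε) :
    ∃ δ : ℝ, 0 < δ ∧ ∀ v ∈ unitary A, ‖T.ι (v - u)‖ < δ →
      ∃ b' ∈ StarAlgebra.adjoin ℂ (S₀ ∪ {v}), ‖T.ι (b' - b)‖ < ε := by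
  suffices h : ∃ C : ℝ, 0 < C ∧ ∀ ε : ℝ, 0 < ε → ∃ δ : ℝ, 0 < δ ∧ ∀ v ∈ unitary A,
      ‖T.ι (v - u)‖ < δ → ∃ b' ∈ StarAlgebra.adjoin ℂ (S₀ ∪ {v}), ‖b'‖ ≤ C ∧
        ‖T.ι (b' - b)‖ < ε by
    obtain ⟨C, -, h⟩ := h
    obtain ⟨δ, hδ, h⟩ := h ε hε
    refine ⟨δ, hδ, fun v hv hvu => ?_⟩
    obtain ⟨b', h1, -, h2⟩ := h v hv hvu
    exact ⟨b', h1, h2⟩
  clear hε ε
  induction hb using StarAlgebra.adjoin_induction with
  | mem x hx =>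
    rcases hx with hx | hx
    · exact ⟨‖x‖ + 1, by positivity, fun ε hε => ⟨1, one_pos, fun v _ _ =>
        ⟨x, StarAlgebra.subset_adjoin ℂ _ (Or.inl hx), by linarith, by simpa using hε⟩⟩⟩
    · rw [Set.mem_singleton_iff.1 hx]
      exact ⟨1, one_pos, fun ε hε => ⟨ε, hε, fun v hv hvu =>
        ⟨v, StarAlgebra.subset_adjoin ℂ _ (Or.inr rfl), norm_unitary_le hv, hvu⟩⟩⟩
  | algebraMap r =>
    exact ⟨‖algebraMap ℂ A r‖ + 1, by positivity, fun ε hε => ⟨1, one_pos, fun v _ _ =>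
      ⟨algebraMap ℂ A r, StarSubalgebra.algebraMap_mem _ r, by linarith, by simpa using hε⟩⟩⟩
  | add x y _ _ hx hy =>
    obtain ⟨C1, hC1, h1⟩ := hx
    obtain ⟨C2, hC2, h2⟩ := hy
    refine ⟨C1 + C2, by positivity, fun ε hε => ?_⟩
    obtain ⟨δ1, hδ1, h1⟩ := h1 (ε / 2) (by positivity)
    obtain ⟨δ2, hδ2, h2⟩ := h2 (ε / 2) (by positivity)
    refine ⟨min δ1 δ2, lt_min hδ1 hδ2, fun v hv hvu => ?_⟩
    obtain ⟨b1, m1, n1, d1⟩ := h1 v hv (hvu.trans_le (min_le_left _ _))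
    obtain ⟨b2, m2, n2, d2⟩ := h2 v hv (hvu.trans_le (min_le_right _ _))
    refine ⟨b1 + b2, add_mem m1 m2, (norm_add_le _ _).trans (add_le_add n1 n2), ?_⟩
    rw [show b1 + b2 - (x + y) = (b1 - x) + (b2 - y) by abel, map_add]
    linarith [norm_add_le (T.ι (b1 - x)) (T.ι (b2 - y))]
  | mul x y _ _ hx hy =>
    obtain ⟨C1, hC1, h1⟩ := hx
    obtain ⟨C2, hC2, h2⟩ := hy
    refine ⟨C1 * C2, by positivity, fun ε hε => ?_⟩
    obtain ⟨δ1, hδ1, h1⟩ := h1 (ε / (2 * (‖y‖ + 1))) (by positivity)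
    obtain ⟨δ2, hδ2, h2⟩ := h2 (ε / (2 * C1)) (by positivity)
    refine ⟨min δ1 δ2, lt_min hδ1 hδ2, fun v hv hvu => ?_⟩
    obtain ⟨b1, m1, n1, d1⟩ := h1 v hv (hvu.trans_le (min_le_left _ _))
    obtain ⟨b2, m2, n2, d2⟩ := h2 v hv (hvu.trans_le (min_le_right _ _))
    refine ⟨b1 * b2, mul_mem m1 m2, (norm_mul_le _ _).trans (by gcongr), ?_⟩
    rw [show b1 * b2 - x * y = b1 * (b2 - y) + (b1 - x) * y by noncomm_ring, map_add]
    have a1 : ‖T.ι (b1 * (b2 - y))‖ < ε / 2 := by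
      refine (T.norm_mul_le _ _).trans_lt ?_
      rw [lt_div_iff₀ (by positivity)] at d2
      nlinarith [norm_nonneg (T.ι (b2 - y))]
    have a2 : ‖T.ι ((b1 - x) * y)‖ < ε / 2 := by
      refine (T.norm_mul_le' _ _).trans_lt ?_
      rw [lt_div_iff₀ (by positivity)] at d1
      nlinarith [norm_nonneg y, norm_nonneg (T.ι (b1 - x))]
    linarith [norm_add_le (T.ι (b1 * (b2 - y))) (T.ι ((b1 - x) * y))]
  | star x _ hx =>
    obtain ⟨C1, hC1, h1⟩ := hx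
    refine ⟨C1, hC1, fun ε hε => ?_⟩
    obtain ⟨δ1, hδ1, h1⟩ := h1 ε hε
    refine ⟨δ1, hδ1, fun v hv hvu => ?_⟩
    obtain ⟨b1, m1, n1, d1⟩ := h1 v hv hvu
    exact ⟨star b1, star_mem m1, by rwa [norm_star], by rwa [← star_sub, T.norm_star]⟩

lemma baire_Ex_norm_sub_sq {Ω : Type*} [Fintype Ω] [Nonempty Ω] (p : K) (q : Ω → K) :
    Ex (fun ω => ‖p - q ω‖ ^ 2) ≤ ‖p‖ ^ 2 + 2 * ‖p‖ * ‖Ex q‖ + Ex (fun ω => ‖q ω‖ ^ 2) := by
  have h1 : Ex (fun ω => ‖p - q ω‖ ^ 2) =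
      ‖p‖ ^ 2 - 2 * (⟪p, Ex q⟫_ℂ).re + Ex (fun ω => ‖q ω‖ ^ 2) := by
    rw [inner_Ex_right, re_Ex, ← Ex_const_mul, ← Ex_const (Ω := Ω) (‖p‖ ^ 2), ← Ex_sub, ← Ex_add]
    exact Ex_congr fun ω => by rw [@norm_sub_sq ℂ]; rfl
  have h2 : -(⟪p, Ex q⟫_ℂ).re ≤ ‖p‖ * ‖Ex q‖ :=
    (neg_le_abs _).trans ((Complex.abs_re_le_norm _).trans (norm_inner_le_norm _ _))
  rw [h1]
  linarith

lemma baire_le_of_sq {a b : ℝ} (hb : 0 ≤ b) (h : a ^ 2 ≤ b ^ 2) : a ≤ b :=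
  (abs_le_of_sq_le_sq' h hb).2

theorem dense_of_keyProp (T : TrModel A K) {D S₀ : Set A} (hDu : D ⊆ unitary A) {x : A}
    (hx : T.KeyProp D S₀ x) :
    ∀ r : ℝ, 0 < r → ∀ u ∈ D, ∀ ε : ℝ, 0 < ε → ∃ v ∈ D,
      (∃ b ∈ StarAlgebra.adjoin ℂ (S₀ ∪ {v}), ‖T.ι (x - b)‖ < r) ∧ ‖T.ι (v - u)‖ < ε := by
  intro r hr u hu ε hε
  by_contra hcon
  have hlow : ∀ v ∈ D, ‖T.ι (v - u)‖ < ε → ∀ b ∈ StarAlgebra.adjoin ℂ (S₀ ∪ {v}),
      r ≤ ‖T.ι (x - b)‖ := by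
    intro v hv hvu b hb
    by_contra h
    exact hcon ⟨v, hv, ⟨b, hb, not_le.1 h⟩, hvu⟩
  obtain ⟨C0, hC⟩ := hx
  set C := |C0| + 1 with hCdef
  have hC0 : C0 ≤ C := (le_abs_self _).trans (by linarith)
  have hCpos : 0 < C := by positivity
  set N := ‖T.ι x‖ with hN
  have hN0 : 0 ≤ N := norm_nonneg _
  set κ := min 1 (r ^ 2 / (8 * (N + 1) * C)) with hκ
  have hκ0 : 0 < κ := lt_min one_pos (by positivity)
  have hκ1 : κ ≤ 1 := min_le_left _ _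
  have hκ2 : 2 * N * C * κ ≤ r ^ 2 / 4 := by
    have : κ ≤ r ^ 2 / (8 * (N + 1) * C) := min_le_right _ _
    rw [le_div_iff₀ (by positivity)] at this
    nlinarith [mul_pos hκ0 hCpos]
  set t := min 1 (κ * r ^ 2 / (4 * (2 * C + 2 * N ^ 2))) with ht
  have ht0 : 0 < t := lt_min one_pos (by positivity)
  have ht1 : t ≤ 1 := min_le_left _ _
  have ht2 : t * (2 * C + 2 * N ^ 2) ≤ κ * r ^ 2 / 4 := by
    have : t ≤ κ * r ^ 2 / (4 * (2 * C + 2 * N ^ 2)) := min_le_right _ _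
    rw [le_div_iff₀ (by positivity)] at this
    linarith
  set c := t * κ * r ^ 2 / 2 with hc
  have hc0 : 0 < c := by positivity
  have htκ0 : 0 < t * κ := mul_pos ht0 hκ0
  have htκ1 : t * κ ≤ 1 := mul_le_one₀ ht1 hκ0.le hκ1
  set η := min 1 (c / (4 * (2 * N + 1))) with hη
  have hη0 : 0 < η := lt_min one_pos (by positivity)
  have hη2 : 2 * η * N + η ^ 2 ≤ c / 4 := by
    have h1 : η ≤ 1 := min_le_left _ _
    have h2 : η ≤ c / (4 * (2 * N + 1)) := min_le_right _ _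
    rw [le_div_iff₀ (by positivity)] at h2
    nlinarith
  have step : ∀ v ∈ D, ‖T.ι (v - u)‖ < ε → ∀ b ∈ StarAlgebra.adjoin ℂ (S₀ ∪ {v}),
      ‖T.ι (x - b)‖ ≤ N → ∃ v' ∈ D, ‖T.ι (v' - u)‖ < ε ∧
        ∃ b' ∈ StarAlgebra.adjoin ℂ (S₀ ∪ {v'}),
          ‖T.ι (x - b')‖ ^ 2 ≤ ‖T.ι (x - b)‖ ^ 2 - c / 2 := by
    intro v hv hvu b hb hbN
    have hrd := hlow v hv hvu b hb
    set d := ‖T.ι (x - b)‖ with hd
    obtain ⟨δ, hδ, hlsc⟩ := adjoin_lsc T S₀ (hDu hv) hb hη0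
    set δ' := min δ (ε - ‖T.ι (v - u)‖) with hδ'
    have hδ'0 : 0 < δ' := lt_min hδ (by linarith)
    set L := (N ^ 2 + 1) / δ' ^ 2 with hL
    have hL0 : 0 < L := by positivity
    obtain ⟨Ω, _, _, u', F, hu', hF, e1, e2, e3⟩ :=
      hC v hv κ hκ0 hκ1 (c / (4 * L)) (by positivity)
    set p : K := ((1 - t * κ : ℝ) : ℂ) • T.ι (x - b) with hp
    set q : Ω → K := fun ω => (t : ℂ) • T.ι (F ω - (κ : ℂ) • x) with hq
    have np : ‖p‖ = (1 - t * κ) * d := by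
      rw [hp, norm_smul, Complex.norm_real, Real.norm_of_nonneg (by linarith)]
    have nq : ‖Ex q‖ ≤ t * (C * κ ^ 2) := by
      rw [hq, Ex_smul, ← Ex_clm, Ex_sub, Ex_const, norm_smul, Complex.norm_real,
        Real.norm_of_nonneg ht0.le]
      refine mul_le_mul_of_nonneg_left (e1.trans ?_) ht0.le
      gcongr
    have nq2 : Ex (fun ω => ‖q ω‖ ^ 2) ≤ t ^ 2 * (2 * C + 2 * N ^ 2) := by
      have h1 : ∀ ω, ‖q ω‖ ^ 2 ≤ t ^ 2 * (2 * ‖T.ι (F ω)‖ ^ 2 + 2 * N ^ 2) := by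
        intro ω
        rw [hq]
        simp only
        rw [norm_smul, Complex.norm_real, Real.norm_of_nonneg ht0.le, mul_pow]
        refine mul_le_mul_of_nonneg_left ?_ (sq_nonneg _)
        have h2 : ‖T.ι (F ω - (κ : ℂ) • x)‖ ≤ ‖T.ι (F ω)‖ + N := by
          rw [map_sub, map_smul]
          refine (norm_sub_le _ _).trans ?_
          rw [norm_smul, Complex.norm_real, Real.norm_of_nonneg hκ0.le]
          nlinarith
        have h3 := norm_nonneg (T.ι (F ω - (κ : ℂ) • x))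
        nlinarith [sq_nonneg (‖T.ι (F ω)‖ - N), norm_nonneg (T.ι (F ω))]
      refine (Ex_mono h1).trans ?_
      rw [Ex_const_mul, Ex_add, Ex_const_mul, Ex_const]
      refine mul_le_mul_of_nonneg_left ?_ (sq_nonneg _)
      linarith
    have hd0 : 0 ≤ d := norm_nonneg _
    have hval : Ex (fun ω => ‖p - q ω‖ ^ 2) ≤ d ^ 2 - c := by
      refine (baire_Ex_norm_sub_sq p q).trans ?_
      have a1 : ‖p‖ ^ 2 ≤ d ^ 2 - t * κ * r ^ 2 := by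
        rw [np, mul_pow]
        have b1 : (1 - t * κ) ^ 2 ≤ 1 - t * κ := by nlinarith
        have b2 : r ^ 2 ≤ d ^ 2 := by gcongr
        nlinarith [sq_nonneg d]
      have a2 : 2 * ‖p‖ * ‖Ex q‖ ≤ t * κ * r ^ 2 / 4 := by
        have b1 : ‖p‖ ≤ N := by rw [np]; nlinarith
        calc 2 * ‖p‖ * ‖Ex q‖ ≤ 2 * N * (t * (C * κ ^ 2)) := by gcongr
          _ = (t * κ) * (2 * N * C * κ) := by ring
          _ ≤ (t * κ) * (r ^ 2 / 4) := by gcongr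
          _ = _ := by ring
      have a3 : t ^ 2 * (2 * C + 2 * N ^ 2) ≤ t * κ * r ^ 2 / 4 := by
        calc t ^ 2 * (2 * C + 2 * N ^ 2) = t * (t * (2 * C + 2 * N ^ 2)) := by ring
          _ ≤ t * (κ * r ^ 2 / 4) := by gcongr
          _ = _ := by ring
      linarith
    obtain ⟨ω, hω⟩ := exists_le_Ex (fun ω => ‖p - q ω‖ ^ 2 + L * ‖T.ι (u' ω - v)‖ ^ 2)
    rw [Ex_add, Ex_const_mul] at hω
    have hL3 : L * Ex (fun ω => ‖T.ι (u' ω - v)‖ ^ 2) ≤ c / 4 := by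
      calc _ ≤ L * (c / (4 * L)) := by gcongr
        _ = c / 4 := by field_simp
    have hdN : d ^ 2 ≤ N ^ 2 := by gcongr
    have hnear : ‖T.ι (u' ω - v)‖ < δ' := by
      have h1 : L * ‖T.ι (u' ω - v)‖ ^ 2 < N ^ 2 + 1 := by
        nlinarith [sq_nonneg ‖p - q ω‖]
      rw [hL, div_mul_eq_mul_div, div_lt_iff₀ (by positivity)] at h1
      have h2 : ‖T.ι (u' ω - v)‖ ^ 2 < δ' ^ 2 := lt_of_mul_lt_mul_left h1 (by positivity)
      exact lt_of_pow_lt_pow_left₀ 2 hδ'0.le h2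
    have hpq : ‖p - q ω‖ ^ 2 ≤ d ^ 2 - 3 * c / 4 := by
      have : 0 ≤ L * ‖T.ι (u' ω - v)‖ ^ 2 := by positivity
      linarith
    obtain ⟨b', hb', hbb⟩ := hlsc (u' ω) (hDu (hu' ω)) (hnear.trans_le (min_le_left _ _))
    refine ⟨u' ω, hu' ω, ?_, ((1 - t * κ : ℝ) : ℂ) • b' + (t : ℂ) • F ω,
      add_mem (SMulMemClass.smul_mem _ hb') (SMulMemClass.smul_mem _ (hF ω)), ?_⟩
    · have h1 : δ' ≤ ε - ‖T.ι (v - u)‖ := min_le_right _ _
      rw [show u' ω - u = (u' ω - v) + (v - u) by abel, map_add]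
      linarith [norm_add_le (T.ι (u' ω - v)) (T.ι (v - u))]
    · have h1 : T.ι (x - (((1 - t * κ : ℝ) : ℂ) • b' + (t : ℂ) • F ω)) =
          (p - q ω) - ((1 - t * κ : ℝ) : ℂ) • T.ι (b' - b) := by
        simp only [hp, hq, map_sub, map_add, map_smul]
        push_cast
        module
      have h2 : ‖((1 - t * κ : ℝ) : ℂ) • T.ι (b' - b)‖ ≤ η := by
        rw [norm_smul, Complex.norm_real, Real.norm_of_nonneg (by linarith)]
        nlinarith [norm_nonneg (T.ι (b' - b))]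
      have h3 : ‖p - q ω‖ ≤ N :=
        baire_le_of_sq hN0 (by linarith)
      have h4 := (norm_sub_le _ _).trans (add_le_add le_rfl h2) (a := ‖(p - q ω) -
        ((1 - t * κ : ℝ) : ℂ) • T.ι (b' - b)‖)
      rw [h1]
      have h5 : ‖(p - q ω) - ((1 - t * κ : ℝ) : ℂ) • T.ι (b' - b)‖ ^ 2 ≤ (‖p - q ω‖ + η) ^ 2 := by
        gcongr
      nlinarith
  have iter : ∀ n : ℕ, ∃ v ∈ D, ‖T.ι (v - u)‖ < ε ∧ ∃ b ∈ StarAlgebra.adjoin ℂ (S₀ ∪ {v}),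
      ‖T.ι (x - b)‖ ^ 2 ≤ N ^ 2 - n * (c / 2) := by
    intro n
    induction n with
    | zero => exact ⟨u, hu, by simpa using hε, 0, zero_mem _, by simp [hN]⟩
    | succ n ih =>
      obtain ⟨v, hv, hvu, b, hb, h⟩ := ih
      have h1 : 0 ≤ (n : ℝ) * (c / 2) := by positivity
      obtain ⟨v', hv', hvu', b', hb', h'⟩ := step v hv hvu b hb
        (baire_le_of_sq hN0 (by linarith))
      refine ⟨v', hv', hvu', b', hb', ?_⟩
      push_cast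
      linarith
  obtain ⟨n, hn⟩ := exists_nat_gt (N ^ 2 / (c / 2))
  obtain ⟨v, -, -, b, -, h⟩ := iter n
  rw [div_lt_iff₀ (by positivity)] at hn
  nlinarith [sq_nonneg ‖T.ι (x - b)‖]

theorem generic_dense (T : TrModel A K) (hsep : T.Sep) {D S₀ : Set A} (hDu : D ⊆ unitary A)
    (hD : T.BClosed D) (E : Set A) (hE : ∀ x ∈ E, T.KeyProp D S₀ x) :
    ∀ u ∈ D, ∀ ε : ℝ, 0 < ε → ∃ v ∈ D,
      (∀ x ∈ E, x ∈ T.cl2 (StarAlgebra.adjoin ℂ (S₀ ∪ {v}))) ∧ ‖T.ι (v - u)‖ < ε := by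
  rcases E.eq_empty_or_nonempty with rfl | hne
  · exact fun u hu ε hε => ⟨u, hu, fun x hx => hx.elim, by simpa using hε⟩
  obtain ⟨z, hzE, hz⟩ := T.exists_dense_seq hsep E hne
  intro u hu ε hε
  obtain ⟨v, hv, hO, hvu⟩ := baire T hDu hD
    (fun k => {v | ∃ b ∈ StarAlgebra.adjoin ℂ (S₀ ∪ {v}),
      ‖T.ι (z k.unpair.1 - b)‖ < 1 / ((k.unpair.2 : ℝ) + 1)})
    (by
      rintro k v hv ⟨b, hb, hlt⟩
      obtain ⟨δ, hδ, h⟩ := adjoin_lsc T S₀ (hDu hv) hb (sub_pos.2 hlt)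
      refine ⟨δ, hδ, fun v' hv' hvv => ?_⟩
      obtain ⟨b', hb', hbb⟩ := h v' (hDu hv') hvv
      refine ⟨b', hb', ?_⟩
      rw [show z k.unpair.1 - b' = (z k.unpair.1 - b) - (b' - b) by abel, map_sub]
      linarith [norm_sub_le (T.ι (z k.unpair.1 - b)) (T.ι (b' - b))])
    (fun k v hv ε hε => dense_of_keyProp T hDu (hE _ (hzE _)) _ (by positivity) v hv ε hε)
    u hu ε hε
  refine ⟨v, hv, fun x hx => T.mem_cl2.2 fun η hη => ?_, hvu⟩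
  obtain ⟨n, hn⟩ := hz x hx (η / 2) (by positivity)
  obtain ⟨l, hl⟩ := exists_nat_one_div_lt (show 0 < η / 2 by positivity)
  obtain ⟨b, hb, h⟩ := hO (Nat.pair n l)
  rw [Nat.unpair_pair] at h
  refine ⟨b, hb, ?_⟩
  rw [show x - b = (x - z n) + (z n - b) by abel, map_add]
  simp only at h
  linarith [norm_add_le (T.ι (x - z n)) (T.ι (z n - b))]

end Crest.Agent.R95
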