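import Crest.Agent.R95.Ex

/-! Abstract finite von Neumann algebras: a C⋆-algebra with a faithful trace given by a map
into an inner product space, complete for the 2-norm on bounded sets. -/

set_option autoImplicit false

namespace Crest.Agent.R95

open scoped InnerProductSpace ComplexConjugate Topology
open Filter Complex

/-- A tracial model: `ι a` is the image of `a` in `L²(A, τ)`, `τ a = ⟪ι 1, ι a⟫`. -/
structure TrModel (A : Type*) [CStarAlgebra A] (K : Type*) [NormedAddCommGroup K]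
    [InnerProductSpace ℂ K] where
  ι : A →ₗ[ℂ] K
  norm_one : ‖ι 1‖ = 1
  inner_mul : ∀ a b c : A, ⟪ι (a * b), ι c⟫_ℂ = ⟪ι b, ι (star a * c)⟫_ℂ
  trace : ∀ a b : A, ⟪ι 1, ι (a * b)⟫_ℂ = ⟪ι 1, ι (b * a)⟫_ℂ
  norm_mul_le : ∀ a b : A, ‖ι (a * b)‖ ≤ ‖a‖ * ‖ι b‖
  inj : Function.Injective ι
  complete : ∀ (x : ℕ → A) (C : ℝ), (∀ n, ‖x n‖ ≤ C) → CauchySeq (fun n => ι (x n)) →
    ∃ y : A, ‖y‖ ≤ C ∧ Tendsto (fun n => ι (x n)) atTop (𝓝 (ι y))

variable {A : Type*} [CStarAlgebra A] {K : Type*} [NormedAddCommGroup K] [InnerProductSpace ℂ K]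

namespace TrModel

variable (T : TrModel A K)

/-- the trace -/
noncomputable def τ : A →ₗ[ℂ] ℂ := (innerₛₗ ℂ (T.ι 1)).comp T.ι

lemma τ_apply (a : A) : T.τ a = ⟪T.ι 1, T.ι a⟫_ℂ := rfl

lemma inner_eq (a b : A) : ⟪T.ι a, T.ι b⟫_ℂ = T.τ (star a * b) := by
  rw [τ_apply, ← T.inner_mul, mul_one]

lemma τ_comm (a b : A) : T.τ (a * b) = T.τ (b * a) := T.trace a b

@[simp] lemma τ_one : T.τ 1 = 1 := by
  rw [τ_apply, inner_self_eq_norm_sq_to_K, T.norm_one]; simp

lemma τ_star (a : A) : T.τ (star a) = conj (T.τ a) := by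
  rw [τ_apply T a, inner_conj_symm, T.inner_eq, mul_one]

lemma τ_star_mul_self (a : A) : T.τ (star a * a) = ((‖T.ι a‖ ^ 2 : ℝ) : ℂ) := by
  rw [← T.inner_eq, inner_self_eq_norm_sq_to_K]; simp

lemma norm_sq_eq (a : A) : ‖T.ι a‖ ^ 2 = (T.τ (star a * a)).re := by
  rw [τ_star_mul_self, ofReal_re]

@[simp] lemma norm_star (a : A) : ‖T.ι (star a)‖ = ‖T.ι a‖ := by
  have : ‖T.ι (star a)‖ ^ 2 = ‖T.ι a‖ ^ 2 := by
    rw [norm_sq_eq, norm_sq_eq, star_star, T.τ_comm]
  exact (sq_eq_sq₀ (norm_nonneg _) (norm_nonneg _)).1 this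

lemma norm_mul_le' (a b : A) : ‖T.ι (a * b)‖ ≤ ‖T.ι a‖ * ‖b‖ := by
  rw [← T.norm_star, star_mul, mul_comm, ← T.norm_star a, ← _root_.norm_star b]
  exact T.norm_mul_le _ _

lemma norm_le (a : A) : ‖T.ι a‖ ≤ ‖a‖ := by
  simpa [T.norm_one] using T.norm_mul_le a 1

lemma norm_mul_mul_le (a b c : A) : ‖T.ι (a * b * c)‖ ≤ ‖a‖ * ‖T.ι b‖ * ‖c‖ :=
  (T.norm_mul_le' _ _).trans (mul_le_mul_of_nonneg_right (T.norm_mul_le _ _) (norm_nonneg _))

lemma norm_mul_le_of_left {a : A} (ha : ‖a‖ ≤ 1) (b : A) : ‖T.ι (a * b)‖ ≤ ‖T.ι b‖ :=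
  (T.norm_mul_le a b).trans (mul_le_of_le_one_left (norm_nonneg _) ha)

lemma norm_mul_le_of_right (a : A) {b : A} (hb : ‖b‖ ≤ 1) : ‖T.ι (a * b)‖ ≤ ‖T.ι a‖ :=
  (T.norm_mul_le' a b).trans (mul_le_of_le_one_right (norm_nonneg _) hb)

lemma norm_τ_mul_le (a b : A) : ‖T.τ (a * b)‖ ≤ ‖T.ι a‖ * ‖T.ι b‖ := by
  rw [← T.norm_star a]
  have := T.inner_eq (star a) b
  rw [star_star] at this
  rw [← this]
  exact norm_inner_le_norm _ _

lemma norm_τ_le (a : A) : ‖T.τ a‖ ≤ ‖T.ι a‖ := by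
  simpa [T.norm_one] using T.norm_τ_mul_le 1 a

lemma eq_zero_of_norm {a : A} (h : ‖T.ι a‖ = 0) : a = 0 :=
  T.inj (by rw [norm_eq_zero.1 h, map_zero])

lemma eq_zero_of_forall_norm_le {a : A} (h : ∀ ε : ℝ, 0 < ε → ‖T.ι a‖ ≤ ε) : a = 0 :=
  T.eq_zero_of_norm (le_antisymm (le_of_forall_pos_le_add (by simpa using h)) (norm_nonneg _))

include T in
lemma nontrivial : Nontrivial A := by
  refine ⟨⟨1, 0, fun h => ?_⟩⟩
  have := T.norm_one
  rw [h, map_zero, norm_zero] at this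
  exact zero_ne_one this

end TrModel

lemma norm_unitary_le {u : A} (hu : u ∈ unitary A) : ‖u‖ ≤ 1 := by
  rcases subsingleton_or_nontrivial A with h | h
  · rw [Subsingleton.elim u 0]; simp
  · exact (CStarRing.norm_of_mem_unitary hu).le

lemma norm_one_le' : ‖(1 : A)‖ ≤ 1 := norm_unitary_le (one_mem _)

lemma norm_mul_le_one {a b : A} (ha : ‖a‖ ≤ 1) (hb : ‖b‖ ≤ 1) : ‖a * b‖ ≤ 1 :=
  (norm_mul_le a b).trans (mul_le_one₀ ha (norm_nonneg _) hb)

namespace TrModel
variable (T : TrModel A K)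

lemma norm_unitary_mul {u : A} (hu : u ∈ unitary A) (a : A) : ‖T.ι (u * a)‖ = ‖T.ι a‖ := by
  refine le_antisymm (T.norm_mul_le_of_left (norm_unitary_le hu) a) ?_
  conv_lhs => rw [show a = star u * (u * a) by rw [← mul_assoc, hu.1, one_mul]]
  exact T.norm_mul_le_of_left (norm_unitary_le (Unitary.star_mem hu)) _

lemma norm_mul_unitary (a : A) {u : A} (hu : u ∈ unitary A) : ‖T.ι (a * u)‖ = ‖T.ι a‖ := by
  rw [← T.norm_star, star_mul, T.norm_unitary_mul (Unitary.star_mem hu), T.norm_star]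

lemma norm_unitary {u : A} (hu : u ∈ unitary A) : ‖T.ι u‖ = 1 := by
  simpa [T.norm_one] using T.norm_unitary_mul hu 1

lemma τ_conj {u : A} (hu : u ∈ unitary A) (a : A) : T.τ (u * a * star u) = T.τ a := by
  rw [T.τ_comm, ← mul_assoc, hu.1, one_mul]

lemma τ_conj' {u : A} (hu : u ∈ unitary A) (a : A) : T.τ (star u * a * u) = T.τ a := by
  rw [T.τ_comm, ← mul_assoc, hu.2, one_mul]

lemma norm_sub_one_sq {u : A} (hu : u ∈ unitary A) :
    ‖T.ι (u - 1)‖ ^ 2 = 2 - 2 * (T.τ u).re := by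
  rw [T.norm_sq_eq, star_sub, star_one, sub_mul, mul_sub, mul_sub, hu.1, mul_one, one_mul, one_mul]
  simp only [map_sub, T.τ_one, T.τ_star, sub_re, one_re, conj_re]
  ring

/-- multiplication is jointly 2-norm continuous along bounded sequences -/
lemma tendsto_mul {x y : ℕ → A} {a b : A} {C : ℝ} (hC : ∀ n, ‖x n‖ ≤ C)
    (hx : Tendsto (fun n => T.ι (x n)) atTop (𝓝 (T.ι a)))
    (hy : Tendsto (fun n => T.ι (y n)) atTop (𝓝 (T.ι b))) :
    Tendsto (fun n => T.ι (x n * y n)) atTop (𝓝 (T.ι (a * b))) := by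
  rw [tendsto_iff_norm_sub_tendsto_zero] at hx hy ⊢
  have h : Tendsto (fun n => C * ‖T.ι (y n) - T.ι b‖ + ‖T.ι (x n) - T.ι a‖ * ‖b‖) atTop (𝓝 0) := by
    simpa using (hy.const_mul C).add (hx.mul_const ‖b‖)
  refine squeeze_zero (fun n => norm_nonneg _) (fun n => ?_) h
  rw [← map_sub, ← map_sub, ← map_sub,
    show x n * y n - a * b = x n * (y n - b) + (x n - a) * b by noncomm_ring, map_add]
  refine (norm_add_le _ _).trans (add_le_add ?_ (T.norm_mul_le' _ _))
  exact (T.norm_mul_le _ _).trans (mul_le_mul_of_nonneg_right (hC n) (norm_nonneg _))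

lemma tendsto_star {x : ℕ → A} {a : A}
    (hx : Tendsto (fun n => T.ι (x n)) atTop (𝓝 (T.ι a))) :
    Tendsto (fun n => T.ι (star (x n))) atTop (𝓝 (T.ι (star a))) := by
  rw [tendsto_iff_norm_sub_tendsto_zero] at hx ⊢
  refine hx.congr fun n => ?_
  rw [← map_sub, ← map_sub, ← star_sub, T.norm_star]

lemma tendsto_unique {x : ℕ → A} {a b : A}
    (ha : Tendsto (fun n => T.ι (x n)) atTop (𝓝 (T.ι a)))
    (hb : Tendsto (fun n => T.ι (x n)) atTop (𝓝 (T.ι b))) : a = b :=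
  T.inj (tendsto_nhds_unique ha hb)

/-- a 2-norm limit of unitaries is unitary -/
lemma mem_unitary_of_tendsto {x : ℕ → A} {a : A} (hu : ∀ n, x n ∈ unitary A)
    (hx : Tendsto (fun n => T.ι (x n)) atTop (𝓝 (T.ι a))) : a ∈ unitary A := by
  have h1 := T.tendsto_mul (fun n => norm_unitary_le (Unitary.star_mem (hu n)))
    (T.tendsto_star hx) hx
  have h2 := T.tendsto_mul (fun n => norm_unitary_le (hu n)) hx (T.tendsto_star hx)
  simp only [(hu _).1, (hu _).2] at h1 h2
  exact ⟨T.tendsto_unique h1 tendsto_const_nhds, T.tendsto_unique h2 tendsto_const_nhds⟩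

/-- a 2-norm limit of a sequence commuting with `b` commutes with `b` -/
lemma commute_of_tendsto {x : ℕ → A} {a b : A} (hb : ∀ n, b * x n = x n * b)
    (hx : Tendsto (fun n => T.ι (x n)) atTop (𝓝 (T.ι a))) : b * a = a * b := by
  have h1 := T.tendsto_mul (x := fun _ => b) (fun _ => le_rfl) tendsto_const_nhds hx
  have h2 := T.tendsto_star (T.tendsto_mul (x := fun _ => star b) (fun _ => le_rfl)
    tendsto_const_nhds (T.tendsto_star hx))
  simp only [star_mul, star_star, ← hb] at h2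
  exact T.tendsto_unique h1 h2

/-- the 2-norm closure of a ⋆-subalgebra -/
def cl2 (B : StarSubalgebra ℂ A) : StarSubalgebra ℂ A where
  carrier := {x | ∀ ε : ℝ, 0 < ε → ∃ b ∈ B, ‖T.ι (x - b)‖ < ε}
  mul_mem' := by
    intro x y hx hy ε hε
    obtain ⟨b, hb, hxb⟩ := hx (ε / (2 * (‖y‖ + 1))) (by positivity)
    obtain ⟨c, hc, hyc⟩ := hy (ε / (2 * (‖b‖ + 1))) (by positivity)
    refine ⟨b * c, mul_mem hb hc, ?_⟩
    rw [show x * y - b * c = (x - b) * y + b * (y - c) by noncomm_ring, map_add]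
    have h1 : ‖T.ι ((x - b) * y)‖ < ε / 2 := by
      refine (T.norm_mul_le' _ _).trans_lt ?_
      rw [lt_div_iff₀ (by positivity)] at hxb
      nlinarith [norm_nonneg y, norm_nonneg (T.ι (x - b))]
    have h2 : ‖T.ι (b * (y - c))‖ < ε / 2 := by
      refine (T.norm_mul_le _ _).trans_lt ?_
      rw [lt_div_iff₀ (by positivity)] at hyc
      nlinarith [norm_nonneg b, norm_nonneg (T.ι (y - c))]
    linarith [norm_add_le (T.ι ((x - b) * y)) (T.ι (b * (y - c)))]
  add_mem' := by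
    intro x y hx hy ε hε
    obtain ⟨b, hb, hxb⟩ := hx (ε / 2) (by positivity)
    obtain ⟨c, hc, hyc⟩ := hy (ε / 2) (by positivity)
    refine ⟨b + c, add_mem hb hc, ?_⟩
    rw [show x + y - (b + c) = (x - b) + (y - c) by abel, map_add]
    linarith [norm_add_le (T.ι (x - b)) (T.ι (y - c))]
  algebraMap_mem' := fun r ε hε => ⟨algebraMap ℂ A r, B.algebraMap_mem r, by simpa using hε⟩
  star_mem' := by
    intro x hx ε hε
    obtain ⟨b, hb, hxb⟩ := hx ε hε
    exact ⟨star b, star_mem hb, by rwa [← star_sub, T.norm_star]⟩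

lemma mem_cl2 {B : StarSubalgebra ℂ A} {x : A} :
    x ∈ T.cl2 B ↔ ∀ ε : ℝ, 0 < ε → ∃ b ∈ B, ‖T.ι (x - b)‖ < ε := Iff.rfl

lemma le_cl2 (B : StarSubalgebra ℂ A) : B ≤ T.cl2 B :=
  fun x hx ε hε => ⟨x, hx, by simpa using hε⟩

lemma cl2_le_of_le_cl2 {B C : StarSubalgebra ℂ A} (h : B ≤ T.cl2 C) : T.cl2 B ≤ T.cl2 C := by
  intro x hx ε hε
  obtain ⟨b, hb, hxb⟩ := hx (ε / 2) (by positivity)
  obtain ⟨c, hc, hbc⟩ := h hb (ε / 2) (by positivity)
  refine ⟨c, hc, ?_⟩
  rw [show x - c = (x - b) + (b - c) by abel, map_add]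
  linarith [norm_add_le (T.ι (x - b)) (T.ι (b - c))]

lemma cl2_mono {B C : StarSubalgebra ℂ A} (h : B ≤ C) : T.cl2 B ≤ T.cl2 C :=
  T.cl2_le_of_le_cl2 (h.trans (T.le_cl2 C))

/-- `L²` is separable -/
def Sep : Prop := TopologicalSpace.IsSeparable (Set.range T.ι)

/-- every nonempty subset of a separable model has a 2-norm dense sequence -/
lemma exists_dense_seq (hsep : T.Sep) (D : Set A) (hD : D.Nonempty) :
    ∃ z : ℕ → A, (∀ n, z n ∈ D) ∧ ∀ x ∈ D, ∀ ε : ℝ, 0 < ε → ∃ n, ‖T.ι (x - z n)‖ < ε := by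
  have h1 : TopologicalSpace.IsSeparable (T.ι '' D) := hsep.mono (Set.image_subset_range _ _)
  obtain ⟨t, ht, htc, hcl⟩ := h1.exists_countable_dense_subset
  have hne : t.Nonempty := by
    obtain ⟨d, hd⟩ := hD
    exact closure_nonempty_iff.1 ⟨_, hcl (Set.mem_image_of_mem _ hd)⟩
  obtain ⟨f, hf⟩ := htc.exists_eq_range hne
  have hf' : ∀ n, ∃ d ∈ D, T.ι d = f n := fun n => ht (hf ▸ Set.mem_range_self n)
  choose z hz hzf using hf'
  refine ⟨z, hz, fun x hx ε hε => ?_⟩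
  obtain ⟨k, hk, hd⟩ := Metric.mem_closure_iff.1 (hcl (Set.mem_image_of_mem _ hx)) ε hε
  rw [hf] at hk
  obtain ⟨n, rfl⟩ := hk
  exact ⟨n, by rwa [map_sub, hzf, ← dist_eq_norm]⟩

end TrModel

/-- only scalars commute with all unitaries of `P` -/
def Irr (P : StarSubalgebra ℂ A) : Prop :=
  ∀ y : A, (∀ v ∈ P, v ∈ unitary A → v * y = y * v) → ∃ c : ℂ, y = c • (1 : A)

/-- `P` holds arbitrarily long orthonormal families of unitaries -/
def TrModel.Spread (T : TrModel A K) (P : StarSubalgebra ℂ A) : Prop :=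
  ∀ r : ℕ, ∃ s : Fin r → A, (∀ j, s j ∈ P ∧ s j ∈ unitary A) ∧
    ∀ i j, i ≠ j → T.τ (star (s i) * s j) = 0

/-- `A` is a factor -/
def IsFactorAlg (A : Type*) [CStarAlgebra A] : Prop :=
  ∀ y : A, (∀ v : A, v * y = y * v) → ∃ c : ℂ, y = c • (1 : A)

lemma IsFactorAlg.irr (h : IsFactorAlg A) : Irr (⊤ : StarSubalgebra ℂ A) := by
  intro y hy
  refine h y fun v => ?_
  obtain ⟨u, c, rfl, -⟩ := CStarAlgebra.exists_sum_four_unitary v
  simp only [Finset.sum_mul, Finset.mul_sum, smul_mul_assoc, mul_smul_comm]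
  exact Finset.sum_congr rfl fun i _ => by rw [hy _ StarSubalgebra.mem_top (u i).2]

/-! ### Resolvent and Cayley transform -/

lemma isUnit_one_sub_I_smul {S : A} (hS : IsSelfAdjoint S) : IsUnit (1 - I • S) := by
  have h : (-I) ∉ spectrum ℂ S := fun h => by
    have := hS.mem_spectrum_eq_re h
    simp at this
  rw [spectrum.notMem_iff] at h
  have h2 : (1 : A) - I • S = I • (algebraMap ℂ A (-I) - S) := by
    rw [smul_sub, Algebra.algebraMap_eq_smul_one, smul_smul]; simp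
  rw [h2, Algebra.smul_def]
  exact ((IsUnit.mk0 I I_ne_zero).map (algebraMap ℂ A)).mul h

/-- the resolvent `(1 - i S)⁻¹` -/
noncomputable def res (S : A) : A := Ring.inverse (1 - I • S)

/-- the Cayley transform `(1 + i S) (1 - i S)⁻¹` -/
noncomputable def cay (S : A) : A := (2 : ℂ) • res S - 1

section cay
variable {S : A}

lemma res_mul (hS : IsSelfAdjoint S) : res S * (1 - I • S) = 1 :=
  Ring.inverse_mul_cancel _ (isUnit_one_sub_I_smul hS)

lemma mul_res (hS : IsSelfAdjoint S) : (1 - I • S) * res S = 1 :=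
  Ring.mul_inverse_cancel _ (isUnit_one_sub_I_smul hS)

lemma res_sub_one (hS : IsSelfAdjoint S) : res S - 1 = I • (S * res S) := by
  have := mul_res hS
  rw [sub_mul, one_mul, smul_mul_assoc] at this
  rw [sub_eq_iff_eq_add'] at this ⊢
  exact this.trans (add_comm _ _)

lemma res_sub_one' (hS : IsSelfAdjoint S) : res S - 1 = I • (res S * S) := by
  have := res_mul hS
  rw [mul_sub, mul_one, mul_smul_comm] at this
  rw [sub_eq_iff_eq_add'] at this ⊢
  exact this.trans (add_comm _ _)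

/-- whatever commutes with `S` commutes with its resolvent -/
lemma commute_res (hS : IsSelfAdjoint S) {y : A} (h : y * S = S * y) : y * res S = res S * y := by
  have h1 : y * (1 - I • S) = (1 - I • S) * y := by
    rw [mul_sub, sub_mul, mul_smul_comm, smul_mul_assoc, h, mul_one, one_mul]
  calc y * res S = res S * (1 - I • S) * y * res S := by rw [res_mul hS, one_mul]
    _ = res S * y * ((1 - I • S) * res S) := by rw [mul_assoc (res S), ← h1]; noncomm_ring
    _ = res S * y := by rw [mul_res hS, mul_one]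

/-- whatever commutes with the resolvent of `S` commutes with `S` -/
lemma commute_of_commute_res (hS : IsSelfAdjoint S) {y : A} (h : y * res S = res S * y) :
    y * S = S * y := by
  have h1 : y * (1 - I • S) = (1 - I • S) * y := by
    calc y * (1 - I • S) = (1 - I • S) * res S * y * (1 - I • S) := by rw [mul_res hS, one_mul]
      _ = (1 - I • S) * y * (res S * (1 - I • S)) := by rw [mul_assoc _ (res S), ← h]; noncomm_ring
      _ = (1 - I • S) * y := by rw [res_mul hS, mul_one]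
  rw [mul_sub, sub_mul, mul_smul_comm, smul_mul_assoc, mul_one, one_mul, sub_right_inj] at h1
  exact smul_right_injective A I_ne_zero h1

lemma star_res_mul_res (hS : IsSelfAdjoint S) :
    (2 : ℂ) • (star (res S) * res S) = res S + star (res S) := by
  have h1 := mul_res hS
  have h2 := congrArg star h1
  rw [star_mul, star_one, star_sub, star_one, star_smul, hS.star_eq] at h2
  have h3 : star (res S) * ((1 - star I • S) + (1 - I • S)) * res S = res S + star (res S) := by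
    rw [mul_add, add_mul, h2, one_mul, mul_assoc, h1, mul_one]
  rw [← h3]
  simp [two_smul, mul_add, add_mul]

lemma res_mul_star_res (hS : IsSelfAdjoint S) :
    (2 : ℂ) • (res S * star (res S)) = res S + star (res S) := by
  have h1 := res_mul hS
  have h2 := congrArg star h1
  rw [star_mul, star_one, star_sub, star_one, star_smul, hS.star_eq] at h2
  have h3 : res S * ((1 - star I • S) + (1 - I • S)) * star (res S) = res S + star (res S) := by
    rw [mul_add, add_mul, h1, one_mul, mul_assoc, h2, mul_one]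
  rw [← h3]
  simp [two_smul, mul_add, add_mul]

lemma cay_mem_unitary (hS : IsSelfAdjoint S) : cay S ∈ unitary A := by
  have h1 := star_res_mul_res hS
  have h2 := res_mul_star_res hS
  have hs : star (cay S) = (2 : ℂ) • star (res S) - 1 := by simp [cay]
  constructor
  · rw [hs, cay, sub_mul, mul_sub, smul_mul_assoc, mul_smul_comm, h1, mul_one, one_mul, smul_add]
    abel
  · rw [hs, cay, sub_mul, mul_sub, smul_mul_assoc, mul_smul_comm, h2, mul_one, one_mul, smul_add]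
    abel

lemma norm_res_le (hS : IsSelfAdjoint S) : ‖res S‖ ≤ 1 := by
  have h : res S = (2 : ℂ)⁻¹ • (cay S + 1) := by simp [cay, smul_smul]
  rw [h, norm_smul]
  have h2 := norm_add_le (cay S) 1
  have h3 := norm_unitary_le (cay_mem_unitary hS)
  have h4 := norm_one_le' (A := A)
  simp only [norm_inv, norm_ofNat]
  linarith

lemma cay_sub_one (hS : IsSelfAdjoint S) : cay S - 1 = (2 * I) • (S * res S) := by
  rw [mul_smul, ← res_sub_one hS, cay, smul_sub, two_smul ℂ (1 : A)]; abel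

lemma cay_sub_one_sub (hS : IsSelfAdjoint S) :
    cay S - 1 - (2 * I) • S = (-2 : ℂ) • (S * (S * res S)) := by
  rw [cay_sub_one hS, ← smul_sub, show S * res S - S = S * (res S - 1) by noncomm_ring,
    res_sub_one hS, mul_smul_comm, smul_smul, mul_assoc, I_mul_I]
  simp

/-- resolvent identity -/
lemma res_sub_res {S' : A} (hS : IsSelfAdjoint S) (hS' : IsSelfAdjoint S') :
    res S' - res S = I • (res S' * (S' - S) * res S) := by
  have h : res S' * ((1 - I • S) - (1 - I • S')) * res S = res S' - res S := by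
    rw [mul_sub, sub_mul, res_mul hS', one_mul, mul_assoc, mul_res hS, mul_one]
  rw [← h, show (1 - I • S) - (1 - I • S') = I • (S' - S) by rw [smul_sub]; abel,
    mul_smul_comm, smul_mul_assoc]

lemma norm_res_sub_res_le {S' : A} (hS : IsSelfAdjoint S) (hS' : IsSelfAdjoint S') :
    ‖res S' - res S‖ ≤ ‖S' - S‖ := by
  rw [res_sub_res hS hS', norm_smul, norm_I, one_mul]
  refine (norm_mul₃_le).trans ?_
  have h1 := norm_res_le hS
  have h2 := norm_res_le hS'
  calc ‖res S'‖ * ‖S' - S‖ * ‖res S‖ ≤ 1 * ‖S' - S‖ * 1 := by gcongr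
    _ = _ := by ring

lemma norm_cay_sub_cay_le {S' : A} (hS : IsSelfAdjoint S) (hS' : IsSelfAdjoint S') :
    ‖cay S' - cay S‖ ≤ 2 * ‖S' - S‖ := by
  rw [cay, cay, sub_sub_sub_cancel_right, ← smul_sub, norm_smul, Complex.norm_ofNat]
  linarith [norm_res_sub_res_le hS hS']

/-- first order expansion of the Cayley transform -/
lemma norm_cay_expansion {S' : A} (hS : IsSelfAdjoint S) (hS' : IsSelfAdjoint S') :
    ‖cay S' - cay S - (2 * I) • (res S * (S' - S) * res S)‖ ≤ 2 * ‖S' - S‖ ^ 2 := by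
  have h : cay S' - cay S - (2 * I) • (res S * (S' - S) * res S) =
      (2 * I) • ((res S' - res S) * (S' - S) * res S) := by
    rw [cay, cay, sub_sub_sub_cancel_right, ← smul_sub, res_sub_res hS hS', smul_smul, ← smul_sub,
      ← res_sub_res hS hS']
    congr 1
    noncomm_ring
  rw [h, norm_smul, norm_mul, norm_I, Complex.norm_ofNat, mul_one]
  have h1 := norm_res_le hS
  have h2 := norm_res_sub_res_le hS hS'
  have h3 : ‖(res S' - res S) * (S' - S) * res S‖ ≤ ‖S' - S‖ * ‖S' - S‖ * 1 :=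
    norm_mul₃_le.trans (by gcongr)
  nlinarith

@[simp] lemma res_zero : res (0 : A) = 1 := by simp [res]

@[simp] lemma cay_zero : cay (0 : A) = 1 := by
  rw [cay, res_zero, two_smul]; abel

lemma TrModel.norm_res_sub_one_le (T : TrModel A K) (hS : IsSelfAdjoint S) :
    ‖T.ι (res S - 1)‖ ≤ ‖T.ι S‖ := by
  rw [res_sub_one hS, map_smul, norm_smul, norm_I, one_mul]
  exact T.norm_mul_le_of_right _ (norm_res_le hS)

lemma TrModel.norm_cay_sub_one_le (T : TrModel A K) (hS : IsSelfAdjoint S) :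
    ‖T.ι (cay S - 1)‖ ≤ 2 * ‖T.ι S‖ := by
  rw [cay_sub_one hS, map_smul, norm_smul, norm_mul, norm_I, Complex.norm_ofNat, mul_one]
  linarith [T.norm_mul_le_of_right S (norm_res_le hS)]

lemma TrModel.norm_res_sub_res_le (T : TrModel A K) {S' : A} (hS : IsSelfAdjoint S)
    (hS' : IsSelfAdjoint S') : ‖T.ι (res S' - res S)‖ ≤ ‖T.ι (S' - S)‖ := by
  rw [res_sub_res hS hS', map_smul, norm_smul, norm_I, one_mul]
  exact (T.norm_mul_le_of_right _ (norm_res_le hS)).trans (T.norm_mul_le_of_left (norm_res_le hS') _)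

end cay

/-- The key perturbation property of `x` for the set `D` of unitaries and the base set `S₀`:
a random small perturbation `u'` of `u` together with a random element `F` of the ⋆-algebra
generated by `S₀` and `u'` whose mean is close to `κ x`. -/
def TrModel.KeyProp (T : TrModel A K) (D S₀ : Set A) (x : A) : Prop :=
  ∃ C : ℝ, ∀ u ∈ D, ∀ κ : ℝ, 0 < κ → κ ≤ 1 → ∀ ε : ℝ, 0 < ε →
    ∃ (Ω : Type) (_ : Fintype Ω) (_ : Nonempty Ω) (u' F : Ω → A),
      (∀ ω, u' ω ∈ D) ∧ (∀ ω, F ω ∈ StarAlgebra.adjoin ℂ (S₀ ∪ {u' ω})) ∧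
      ‖T.ι (Ex F - (κ : ℂ) • x)‖ ≤ C * κ ^ 2 ∧ Ex (fun ω => ‖T.ι (F ω)‖ ^ 2) ≤ C ∧
      Ex (fun ω => ‖T.ι (u' ω - u)‖ ^ 2) ≤ ε

end Crest.Agent.R95
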