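import Crest.Agent.R95.Dixmier

/-! Good families, the crossing lemma and hierarchies of random unitaries. -/

set_option autoImplicit false

namespace Crest.Agent.R95

open scoped InnerProductSpace ComplexConjugate Topology Pointwise
open Filter Complex

variable {A : Type*} [CStarAlgebra A] {K : Type*} [NormedAddCommGroup K] [InnerProductSpace ℂ K]

/-- crossing smallness: conjugation-averaging by `v` nearly kills `C * z a * D`, on average over
`a`, for every contraction `D` -/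
def TrModel.Cr (T : TrModel A K) (η : ℝ) {I J : Type} [Fintype I] [Fintype J] (z : I → A)
    (v : J → A) (C : A) : Prop :=
  ∀ D : A, ‖D‖ ≤ 1 →
    Ex (fun a => ‖T.ι (Ex fun b => v b * (C * z a * D) * star (v b))‖) ≤ η

lemma hier_norm_Ex_sub_le (T : TrModel A K) {Ω : Type*} [Fintype Ω] [Nonempty Ω] {G : Ω → A}
    {c : A} {η : ℝ} (h : ∀ p, ‖T.ι (G p - c)‖ ≤ η) : ‖T.ι (Ex G - c)‖ ≤ η := by
  rw [← Ex_const (Ω := Ω) c, ← Ex_sub, Ex_clm]
  exact norm_Ex_le_const h

lemma hier_conj_sub (T : TrModel A K) {w : A} (hw : w ∈ unitary A) (Y : A) (c : ℂ) :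
    ‖T.ι (w * Y * star w - c • (1 : A))‖ = ‖T.ι (Y - c • (1 : A))‖ := by
  have : w * Y * star w - c • (1 : A) = w * (Y - c • (1 : A)) * star w := by
    rw [mul_sub, sub_mul, mul_smul_comm, smul_mul_assoc, mul_one, hw.2]
  rw [this, T.norm_mul_unitary _ (Unitary.star_mem hw), T.norm_unitary_mul hw]

/-- the family is spread out: it correlates little with every fixed element -/
def TrModel.HierThin (T : TrModel A K) (η : ℝ) {J : Type} [Fintype J] (z : J → A) : Prop :=
  ∀ b : A, Ex (fun a => ‖T.τ (b * z a)‖) ≤ η * ‖T.ι b‖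

/-- good families -/
def TrModel.HierGood (T : TrModel A K) (η : ℝ) (F : Set A) {J : Type} [Fintype J] (z : J → A) :
    Prop :=
  (∀ y ∈ F, ‖T.ι (Ex (fun a => z a * y * star (z a)) - T.τ y • (1 : A))‖ ≤ η) ∧
  (∀ y ∈ F, ‖T.ι (Ex (fun a => star (z a) * y * z a) - T.τ y • (1 : A))‖ ≤ η) ∧
  T.HierThin η z

lemma TrModel.HierThin.star {T : TrModel A K} {η : ℝ} {J : Type} [Fintype J] {z : J → A}
    (h : T.HierThin η z) : T.HierThin η (fun a => star (z a)) := by
  intro b
  have := h (Star.star b)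
  rw [T.norm_star] at this
  refine le_trans (le_of_eq (Ex_congr fun a => ?_)) this
  rw [T.τ_comm (Star.star b), ← RCLike.norm_conj, ← T.τ_star, star_mul, star_star]

lemma TrModel.HierGood.star {T : TrModel A K} {η : ℝ} {F : Set A} {J : Type} [Fintype J]
    {z : J → A} (h : T.HierGood η F z) : T.HierGood η F (fun a => star (z a)) := by
  refine ⟨?_, ?_, h.2.2.star⟩
  · simpa only [star_star] using h.2.1
  · simpa only [star_star] using h.1

lemma hier_bessel (T : TrModel A K) {r : ℕ} [Nonempty (Fin r)] {s : Fin r → A}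
    (hs : ∀ j, s j ∈ unitary A) (ho : ∀ i j, i ≠ j → T.τ (star (s i) * s j) = 0) {η : ℝ}
    (hη : 0 ≤ η) (hr : (r : ℝ)⁻¹ ≤ η ^ 2) : T.HierThin η s := by
  intro b
  have hon : Orthonormal ℂ (fun j => T.ι (s j)) := by
    refine ⟨fun j => T.norm_unitary (hs j), fun i j hij => ?_⟩
    simp only
    rw [T.inner_eq, ho i j hij]
  have h1 := hon.sum_inner_products_le (T.ι (star b)) (s := Finset.univ)
  rw [T.norm_star] at h1
  apply Ex_le_of_sq (by positivity)
  have h2 : ∀ j, ‖T.τ (b * s j)‖ = ‖⟪T.ι (s j), T.ι (star b)⟫_ℂ‖ := by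
    intro j
    rw [T.inner_eq, ← star_mul, T.τ_star, RCLike.norm_conj]
  simp only [h2]
  unfold Ex
  rw [Fintype.card_fin, smul_eq_mul, mul_pow]
  gcongr

/-- the four phases -/
noncomputable def hierPh : Fin 4 → ℂ := ![1, I, -1, -I]

lemma hierPh_succ (φ : Fin 4) : hierPh (φ + 1) = I * hierPh φ := by
  fin_cases φ <;> simp [hierPh]

lemma hierPh_norm (φ : Fin 4) : ‖hierPh φ‖ = 1 := by
  fin_cases φ <;> simp [hierPh]

lemma hierPh_smul_mem {w : A} (hw : w ∈ unitary A) (φ : Fin 4) : hierPh φ • w ∈ unitary A := by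
  have h1 : star (hierPh φ) * hierPh φ = 1 := by fin_cases φ <;> simp [hierPh]
  constructor
  · rw [star_smul, smul_mul_smul_comm, h1, hw.1, one_smul]
  · rw [star_smul, smul_mul_smul_comm, mul_comm, h1, hw.2, one_smul]

lemma hier_exists_good (T : TrModel A K) {P : StarSubalgebra ℂ A} (hirr : Irr P)
    (hsp : T.Spread P) (F : Set A) (hF : F.Finite) {η : ℝ} (hη : 0 < η) :
    ∃ f : Fam P, T.HierGood η F f.z ∧ ∃ π : f.J ≃ f.J, ∀ a, f.z (π a) = I • f.z a := by
  obtain ⟨v, hv⟩ := dixmier T hirr F hF hη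
  obtain ⟨r0, hr0⟩ := exists_nat_ge (η ^ 2)⁻¹
  obtain ⟨s, hs, ho⟩ := hsp (r0 + 1)
  have hthin : T.HierThin η s := by
    refine hier_bessel T (fun j => (hs j).2) ho hη.le ?_
    rw [inv_le_comm₀ (by positivity) (by positivity)]
    push_cast
    linarith
  let s' : Fin (r0 + 1) × Fin 4 → A := fun x => hierPh x.2 • s x.1
  have hs'u : ∀ x, s' x ∈ unitary A := fun x => hierPh_smul_mem (hs x.1).2 x.2
  have hs'P : ∀ x, s' x ∈ P := fun x => SMulMemClass.smul_mem _ (hs x.1).1
  let f : Fam P :=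
    { J := (v.J × (Fin (r0 + 1) × Fin 4)) × v.J
      z := fun p => star (v.z p.1.1) * s' p.1.2 * v.z p.2
      mem := fun p => mul_mem (mul_mem (star_mem (v.mem _)) (hs'P _)) (v.mem _)
      uni := fun p => mul_mem (mul_mem (Unitary.star_mem (v.uni _)) (hs'u _)) (v.uni _) }
  refine ⟨f, ⟨fun y hy => ?_, fun y hy => ?_, fun b => ?_⟩, ?_⟩
  · rw [Ex_prod (Ω := v.J × (Fin (r0 + 1) × Fin 4)) (Ω' := v.J)]
    refine hier_norm_Ex_sub_le T fun p => ?_
    have hw : star (v.z p.1) * s' p.2 ∈ unitary A :=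
      mul_mem (Unitary.star_mem (v.uni _)) (hs'u _)
    refine le_trans (le_of_eq ?_) (hv y hy)
    rw [← hier_conj_sub T hw (Ex fun a => v.z a * y * star (v.z a)), mul_Ex, Ex_mul]
    congr 3
    refine Ex_congr fun b => ?_
    simp only [f, star_mul, mul_assoc]
  · rw [Ex_prod (Ω := v.J × (Fin (r0 + 1) × Fin 4)) (Ω' := v.J), Ex_comm]
    refine hier_norm_Ex_sub_le T fun a2 => ?_
    rw [Ex_prod (Ω := v.J) (Ω' := Fin (r0 + 1) × Fin 4), Ex_comm]
    refine hier_norm_Ex_sub_le T fun x => ?_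
    have hw : star (v.z a2) * star (s' x) ∈ unitary A :=
      mul_mem (Unitary.star_mem (v.uni _)) (Unitary.star_mem (hs'u _))
    refine le_trans (le_of_eq ?_) (hv y hy)
    rw [← hier_conj_sub T hw (Ex fun a => v.z a * y * star (v.z a)), mul_Ex, Ex_mul]
    congr 3
    refine Ex_congr fun b => ?_
    simp only [f, star_mul, mul_assoc, star_star]
  · rw [Ex_prod (Ω := v.J × (Fin (r0 + 1) × Fin 4)) (Ω' := v.J), Ex_comm]
    refine Ex_le_const fun a2 => ?_
    rw [Ex_prod (Ω := v.J) (Ω' := Fin (r0 + 1) × Fin 4)]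
    refine Ex_le_const fun a1 => ?_
    rw [Ex_prod (Ω := Fin (r0 + 1)) (Ω' := Fin 4), Ex_comm]
    refine Ex_le_const fun φ => ?_
    have h1 := hthin (v.z a2 * b * star (v.z a1))
    rw [T.norm_mul_unitary _ (Unitary.star_mem (v.uni _)), T.norm_unitary_mul (v.uni _)] at h1
    refine le_trans (le_of_eq (Ex_congr fun j => ?_)) h1
    simp only [f, s', mul_smul_comm, smul_mul_assoc, map_smul, norm_smul, hierPh_norm, one_mul]
    rw [← mul_assoc, T.τ_comm _ (v.z a2)]
    simp only [mul_assoc]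
  · refine ⟨((Equiv.refl _).prodCongr ((Equiv.refl _).prodCongr
      (Equiv.addRight (1 : Fin 4)))).prodCongr (Equiv.refl _), fun p => ?_⟩
    change star (v.z p.1.1) * (hierPh (p.1.2.2 + 1) • s p.1.2.1) * v.z p.2
      = I • (star (v.z p.1.1) * (hierPh p.1.2.2 • s p.1.2.1) * v.z p.2)
    rw [hierPh_succ, mul_smul]
    simp only [mul_smul_comm, smul_mul_assoc]

/-- the crossing inequality -/
lemma hier_cross (T : TrModel A K) {I' J : Type} [Fintype I'] [Fintype J] (z : I' → A)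
    {v : J → A} (hv : ∀ b, v b ∈ unitary A) (C : A) {D : A} (hD : ‖D‖ ≤ 1) :
    Ex (fun a => ‖T.ι (Ex fun b => v b * (C * z a * D) * star (v b))‖ ^ 2) ≤
      Ex (fun b => Ex fun b' =>
        ‖T.ι (Ex fun a => star (z a) * (star C * star (v b) * v b' * C) * z a)‖) := by
  have h1 : ∀ a, ‖T.ι (Ex fun b => v b * (C * z a * D) * star (v b))‖ ^ 2 =
      Ex (fun b => Ex fun b' => (T.τ ((D * star (v b') * v b * star D) *
        (star (z a) * (star C * star (v b) * v b' * C) * z a))).re) := by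
    intro a
    rw [T.norm_sq_eq, star_Ex, Ex_mul, Ex_clm, re_Ex]
    refine Ex_congr fun b => ?_
    rw [mul_Ex, Ex_clm, re_Ex]
    refine Ex_congr fun b' => ?_
    congr 1
    have : star (v b * (C * z a * D) * star (v b)) * (v b' * (C * z a * D) * star (v b'))
        = (v b * star D * (star (z a) * (star C * star (v b) * v b' * C) * z a))
          * (D * star (v b')) := by
      simp only [star_mul, star_star, mul_assoc]
    rw [this, T.τ_comm]
    simp only [mul_assoc]
  simp only [h1]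
  rw [Ex_comm]
  refine Ex_mono fun b => ?_
  rw [Ex_comm]
  refine Ex_mono fun b' => ?_
  rw [← re_Ex, ← Ex_clm, ← mul_Ex]
  refine (Complex.re_le_norm _).trans ((T.norm_τ_mul_le _ _).trans ?_)
  apply mul_le_of_le_one_left (norm_nonneg _)
  refine (T.norm_le _).trans ?_
  exact norm_mul_le_one (norm_mul_le_one (norm_mul_le_one hD
    (norm_unitary_le (Unitary.star_mem (hv b')))) (norm_unitary_le (hv b)))
    (by rwa [norm_star])

lemma hier_crossA (T : TrModel A K) {I' J : Type} [Fintype I'] [Fintype J] [Nonempty J]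
    {z : I' → A} {v : J → A} (hv : ∀ b, v b ∈ unitary A) {η : ℝ} (hη : 0 ≤ η) {F : Set A}
    (hz : T.HierGood η F z) (hthin : T.HierThin η v) {C : A} (hC : ‖C‖ ≤ 1)
    (hmem : ∀ b b', star C * star (v b) * v b' * C ∈ F) {D : A} (hD : ‖D‖ ≤ 1) :
    Ex (fun a => ‖T.ι (Ex fun b => v b * (C * z a * D) * star (v b))‖ ^ 2) ≤ 2 * η := by
  refine (hier_cross T z hv C hD).trans (Ex_le_const fun b => ?_)
  have h1 : ∀ b', ‖T.ι (Ex fun a => star (z a) * (star C * star (v b) * v b' * C) * z a)‖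
      ≤ ‖T.τ (C * star C * star (v b) * v b')‖ + η := by
    intro b'
    have h2 := hz.2.1 _ (hmem b b')
    have h3 : T.τ (star C * star (v b) * v b' * C) = T.τ (C * star C * star (v b) * v b') := by
      rw [T.τ_comm]
      simp only [mul_assoc]
    rw [map_sub, map_smul, h3] at h2
    have h4 := norm_le_norm_add_norm_sub'
      (T.ι (Ex fun a => star (z a) * (star C * star (v b) * v b' * C) * z a))
      (T.τ (C * star C * star (v b) * v b') • T.ι 1)
    rw [norm_smul, T.norm_one, mul_one] at h4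
    linarith
  refine (Ex_mono h1).trans ?_
  rw [Ex_add, Ex_const]
  have h5 := hthin (C * star C * star (v b))
  have h6 : ‖T.ι (C * star C * star (v b))‖ ≤ 1 :=
    (T.norm_le _).trans (norm_mul_le_one (norm_mul_le_one hC (by rwa [norm_star]))
      (norm_unitary_le (Unitary.star_mem (hv b))))
  nlinarith

lemma hier_crA (T : TrModel A K) {I' J : Type} [Fintype I'] [Fintype J] [Nonempty I']
    [Nonempty J] {z : I' → A} {v : J → A} (hv : ∀ b, v b ∈ unitary A) {η₀ η : ℝ} (hη₀ : 0 ≤ η₀)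
    (hη : 0 ≤ η) (h2 : 2 * η₀ ≤ η ^ 2) {F : Set A} (hz : T.HierGood η₀ F z)
    (hthin : T.HierThin η₀ v) {C : A} (hC : ‖C‖ ≤ 1)
    (hmem : ∀ b b', star C * star (v b) * v b' * C ∈ F) : T.Cr η z v C :=
  fun _ hD => Ex_le_of_sq hη ((hier_crossA T hv hη₀ hz hthin hC hmem hD).trans h2)

lemma hier_crB (T : TrModel A K) {I' J : Type} [Fintype I'] [Fintype J] [Nonempty I']
    [Nonempty J] {z : I' → A} {v : J → A} (hz : ∀ a, z a ∈ unitary A)
    (hv : ∀ b, v b ∈ unitary A) {η₀ η : ℝ} (hη₀ : 0 ≤ η₀)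
    (hη : 0 ≤ η) (h4 : 2 * η₀ ≤ (η ^ 2) ^ 2) {F : Set A} (hg : T.HierGood η₀ F v)
    (hthin : T.HierThin η₀ z) {C : A} (hC : ‖C‖ ≤ 1)
    (hmem : ∀ a a', C * z a * star (z a') * star C ∈ F) : T.Cr η z v C := by
  intro D hD
  refine Ex_le_of_sq hη ((hier_cross T z hv C hD).trans ?_)
  rw [Ex_comm]
  refine Ex_le_const fun b' => ?_
  have h1 := hier_crossA T (z := fun b => star (v b)) (v := fun a => star (z a))
    (fun a => Unitary.star_mem (hz a)) hη₀ hg.star hthin.star (C := star C)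
    (by rwa [norm_star]) (by simpa only [star_star] using hmem) (D := v b' * C)
    (norm_mul_le_one (norm_unitary_le (hv b')) hC)
  refine Ex_le_of_sq (by positivity) (le_trans (le_of_eq ?_) (h1.trans h4))
  refine Ex_congr fun b => ?_
  simp only [star_star, mul_assoc]

lemma hier_pow_props {L : Set A} (hs : ∀ x ∈ L, star x ∈ L) (hu : ∀ x ∈ L, x ∈ unitary A)
    (n : ℕ) : ∀ C ∈ L ^ n, star C ∈ L ^ n ∧ C ∈ unitary A := by
  induction n with
  | zero =>
    intro C hC
    rw [pow_zero, Set.mem_one] at hC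
    subst hC
    simp
  | succ n ih =>
    intro C hC
    rw [pow_succ] at hC
    obtain ⟨c, hc, x, hx, rfl⟩ := hC
    refine ⟨?_, mul_mem (ih c hc).2 (hu x hx)⟩
    rw [pow_succ', star_mul]
    exact Set.mul_mem_mul (hs x hx) (ih c hc).1

lemma hier_finite_pow {L : Set A} (hL : L.Finite) (n : ℕ) : (L ^ n).Finite := by
  induction n with
  | zero => rw [pow_zero]; exact Set.finite_one
  | succ n ih => rw [pow_succ]; exact ih.mul hL

lemma hier_word_mem {L : Set A} {n : ℕ} {C C' x y : A} (hC : C ∈ L ^ n) (hx : x ∈ L)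
    (hy : y ∈ L) (hC' : C' ∈ L ^ n) : C * x * y * C' ∈ L ^ (n + 1 + 1 + n) := by
  rw [pow_add, pow_succ, pow_succ]
  exact Set.mul_mem_mul (Set.mul_mem_mul (Set.mul_mem_mul hC hx) hy) hC'

/-- A hierarchy of random unitaries in `P`: any two of them cross, for every word `C` of length
at most `ℓ` in `u`, `star u` and the values (and adjoints) of the families strictly earlier than
the later of the two. -/
theorem exists_hier (T : TrModel A K) {P : StarSubalgebra ℂ A} (hirr : Irr P) (hsp : T.Spread P)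
    {u : A} (hu : u ∈ unitary A) (ℓ : ℕ) {η : ℝ} (hη : 0 < η) :
    ∃ (f : ℕ → Fam P) (L : ℕ → Set A),
      (∀ m, (1 : A) ∈ L m ∧ u ∈ L m ∧ star u ∈ L m) ∧
      (∀ s m, s < m → ∀ a, (f s).z a ∈ L m ∧ star ((f s).z a) ∈ L m) ∧
      (∀ t, ∃ π : (f t).J ≃ (f t).J, ∀ a, (f t).z (π a) = I • (f t).z a) ∧
      ∀ s t, s ≠ t → ∀ C ∈ L (max s t) ^ ℓ,
        T.Cr η (f s).z (f t).z C ∧
        T.Cr η (fun a => star ((f s).z a)) (f t).z C ∧
        T.Cr η (f s).z (fun b => star ((f t).z b)) C ∧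
        T.Cr η (fun a => star ((f s).z a)) (fun b => star ((f t).z b)) C := by
  set η₀ : ℝ := min (η ^ 2) ((η ^ 2) ^ 2) / 2 with hη₀
  have h0 : 0 < η₀ := by positivity
  have h2 : 2 * η₀ ≤ η ^ 2 := by rw [hη₀]; linarith [min_le_left (η ^ 2) ((η ^ 2) ^ 2)]
  have h4 : 2 * η₀ ≤ (η ^ 2) ^ 2 := by rw [hη₀]; linarith [min_le_right (η ^ 2) ((η ^ 2) ^ 2)]
  choose g hg hπ using fun S : {S : Set A // S.Finite} =>
    hier_exists_good T hirr hsp (S.1 ^ (ℓ + 1 + 1 + ℓ)) (hier_finite_pow S.2 _) h0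
  let M : ℕ → {S : Set A // S.Finite} := fun m => Nat.rec ⟨{1, u, star u}, Set.toFinite _⟩
    (fun _ S => ⟨S.1 ∪ Set.range (g S).z ∪ Set.range (fun a => star ((g S).z a)),
      (S.2.union (Set.finite_range _)).union (Set.finite_range _)⟩) m
  have hM0 : (M 0).1 = {1, u, star u} := rfl
  have hMs : ∀ m, (M (m + 1)).1 = (M m).1 ∪ Set.range (g (M m)).z ∪
      Set.range (fun a => star ((g (M m)).z a)) := fun m => rfl
  have hmono : Monotone fun m => (M m).1 := monotone_nat_of_le_succ fun m x hx => by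
    rw [hMs]; exact Or.inl (Or.inl hx)
  have hstar : ∀ m, ∀ x ∈ (M m).1, star x ∈ (M m).1 := by
    intro m
    induction m with
    | zero =>
      rw [hM0]
      rintro x (rfl | rfl | rfl) <;> simp
    | succ m ih =>
      rw [hMs]
      rintro x ((hx | ⟨a, rfl⟩) | ⟨a, rfl⟩)
      · exact Or.inl (Or.inl (ih x hx))
      · exact Or.inr ⟨a, rfl⟩
      · exact Or.inl (Or.inr ⟨a, (star_star _).symm⟩)
  have huni : ∀ m, ∀ x ∈ (M m).1, x ∈ unitary A := by
    intro m
    induction m with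
    | zero =>
      rw [hM0]
      rintro x (rfl | rfl | rfl)
      · exact one_mem _
      · exact hu
      · exact Unitary.star_mem hu
    | succ m ih =>
      rw [hMs]
      rintro x ((hx | ⟨a, rfl⟩) | ⟨a, rfl⟩)
      · exact ih x hx
      · exact (g (M m)).uni a
      · exact Unitary.star_mem ((g (M m)).uni a)
  have hin : ∀ s m, s < m → ∀ a, (g (M s)).z a ∈ (M m).1 ∧ star ((g (M s)).z a) ∈ (M m).1 := by
    intro s m hsm a
    have h1 : (g (M s)).z a ∈ (M m).1 :=
      hmono (Nat.succ_le_of_lt hsm) (show _ ∈ (M (s + 1)).1 from Or.inl (Or.inr ⟨a, rfl⟩))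
    exact ⟨h1, hstar m _ h1⟩
  refine ⟨fun m => g (M m), fun m => (M m).1, fun m => ?_, hin, fun t => hπ (M t), ?_⟩
  · have h := hmono (Nat.zero_le m)
    exact ⟨h (show _ ∈ (M 0).1 by simp [hM0]), h (show _ ∈ (M 0).1 by simp [hM0]),
      h (show _ ∈ (M 0).1 by simp [hM0])⟩
  · intro s t hst C hC
    obtain ⟨hCs, hCu⟩ := hier_pow_props (hstar _) (huni _) ℓ C hC
    have hC1 := norm_unitary_le hCu
    have hus : ∀ m a, star ((g (M m)).z a) ∈ unitary A :=
      fun m a => Unitary.star_mem ((g (M m)).uni a)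
    rcases lt_or_gt_of_ne hst with h | h
    · rw [max_eq_right h.le] at hC hCs
      have hi := hin s t h
      refine ⟨?_, ?_, ?_, ?_⟩
      · exact hier_crB T (g (M s)).uni (g (M t)).uni h0.le hη.le h4 (hg (M t)) (hg (M s)).2.2 hC1
          fun a a' => hier_word_mem hC (hi a).1 (hi a').2 hCs
      · exact hier_crB T (hus s) (g (M t)).uni h0.le hη.le h4 (hg (M t)) (hg (M s)).2.2.star hC1
          fun a a' => hier_word_mem hC (hi a).2 (hstar _ _ (hi a').2) hCs
      · exact hier_crB T (g (M s)).uni (hus t) h0.le hη.le h4 (hg (M t)).star (hg (M s)).2.2 hC1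
          fun a a' => hier_word_mem hC (hi a).1 (hi a').2 hCs
      · exact hier_crB T (hus s) (hus t) h0.le hη.le h4 (hg (M t)).star (hg (M s)).2.2.star hC1
          fun a a' => hier_word_mem hC (hi a).2 (hstar _ _ (hi a').2) hCs
    · rw [max_eq_left h.le] at hC hCs
      have hi := hin t s h
      refine ⟨?_, ?_, ?_, ?_⟩
      · exact hier_crA T (g (M t)).uni h0.le hη.le h2 (hg (M s)) (hg (M t)).2.2 hC1
          fun b b' => hier_word_mem hCs (hi b).2 (hi b').1 hC
      · exact hier_crA T (g (M t)).uni h0.le hη.le h2 (hg (M s)).star (hg (M t)).2.2 hC1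
          fun b b' => hier_word_mem hCs (hi b).2 (hi b').1 hC
      · exact hier_crA T (hus t) h0.le hη.le h2 (hg (M s)) (hg (M t)).2.2.star hC1
          fun b b' => hier_word_mem hCs (hstar _ _ (hi b).2) (hi b').2 hC
      · exact hier_crA T (hus t) h0.le hη.le h2 (hg (M s)).star (hg (M t)).2.2.star hC1
          fun b b' => hier_word_mem hCs (hstar _ _ (hi b).2) (hi b').2 hC

end Crest.Agent.R95
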