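import Crest.Agent.R95.Seg
import Crest.Agent.R95.Hier

/-! One block of independent random unitaries. -/

set_option autoImplicit false

namespace Crest.Agent.R95

open scoped InnerProductSpace ComplexConjugate Pointwise
open Complex Finset

variable {A : Type*} [CStarAlgebra A] {K : Type*} [NormedAddCommGroup K] [InnerProductSpace ℂ K]

/-- a block: independent random unitaries `Z 0, …, Z k` of `P`; the law of the last one is
invariant under multiplication by `i` -/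
structure Blk (P : StarSubalgebra ℂ A) (k : ℕ) where
  J : ℕ → Type
  [fin : ∀ c, Fintype (J c)]
  [ne : ∀ c, Nonempty (J c)]
  z : ∀ c, J c → A
  mem : ∀ c a, z c a ∈ P
  uni : ∀ c a, z c a ∈ unitary A
  π : J k ≃ J k
  hπ : ∀ a, z k (π a) = I • z k a

attribute [instance] Blk.fin Blk.ne

namespace Blk

variable {P : StarSubalgebra ℂ A} {k : ℕ} (B : Blk P k)

/-- sample space of a block -/
abbrev Ω : Type := ∀ c : Fin (k + 1), B.J c

/-- the sampled sequence of unitaries -/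
noncomputable def Z (ζ : B.Ω) (c : ℕ) : A :=
  if h : c < k + 1 then B.z c (ζ ⟨c, h⟩) else 1

lemma Z_uni (ζ : B.Ω) (c : ℕ) : B.Z ζ c ∈ unitary A := by
  unfold Z; split_ifs
  · exact B.uni _ _
  · exact one_mem _

lemma Z_mem (ζ : B.Ω) (c : ℕ) : B.Z ζ c ∈ P := by
  unfold Z; split_ifs
  · exact B.mem _ _
  · exact one_mem _

lemma Z_val (ζ : B.Ω) {c : ℕ} (hc : c ≤ k) : ∃ a, B.Z ζ c = B.z c a :=
  ⟨ζ ⟨c, by omega⟩, by rw [Z, dif_pos (by omega)]⟩

lemma Z_update (ζ : B.Ω) {t : ℕ} (ht : t < k + 1) (a : B.J t) :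
    B.Z (Function.update ζ ⟨t, ht⟩ a) = Function.update (B.Z ζ) t (B.z t a) := by
  funext c
  by_cases h : c = t
  · subst h
    rw [Function.update_self, Z, dif_pos ht, Function.update_self]
  · rw [Function.update_of_ne h, Z, Z]
    split_ifs with hc
    · rw [Function.update_of_ne (by simpa using h)]
    · rfl

lemma update_uni (ζ : B.Ω) (t : ℕ) {w : A} (hw : w ∈ unitary A) (c : ℕ) :
    Function.update (B.Z ζ) t w c ∈ unitary A := by
  by_cases h : c = t
  · subst h; simpa using hw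
  · rw [Function.update_of_ne h]; exact B.Z_uni ζ c

/-- resampling one coordinate -/
lemma Ex_resample {E : Type*} [AddCommGroup E] [Module ℝ E] {t : ℕ} (ht : t ≤ k)
    (f : (ℕ → A) → E) :
    Ex (fun ζ => f (B.Z ζ)) =
      Ex (fun ζ => Ex (fun a : B.J t => f (Function.update (B.Z ζ) t (B.z t a)))) := by
  rw [Ex_update (I := fun c : Fin (k + 1) => B.J c) ⟨t, by omega⟩]
  simp only [B.Z_update]

/-- the phase rotation of the last coordinate -/
def ph : B.Ω ≃ B.Ω := updEquiv (I := fun c : Fin (k + 1) => B.J c) ⟨k, by omega⟩ B.π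

lemma Z_ph (ζ : B.Ω) : B.Z (B.ph ζ) = Function.update (B.Z ζ) k (I • B.Z ζ k) := by
  rw [ph, updEquiv_apply, B.Z_update, B.hπ, Z, dif_pos (by omega)]

/-- the sign flip of the last coordinate -/
def fl : B.Ω ≃ B.Ω := B.ph.trans B.ph

lemma Z_fl (ζ : B.Ω) : B.Z (B.fl ζ) = Function.update (B.Z ζ) k ((-1 : ℂ) • B.Z ζ k) := by
  rw [fl, Equiv.trans_apply, Z_ph, Z_ph, Function.update_idem, Function.update_self, smul_smul,
    I_mul_I]

end Blk

lemma pV_succ' {u : A} {Z : ℕ → A} (a m : ℕ) :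
    pV u Z a (m + 1) = Z a * u * pV u Z (a + 1) m := seg_succ' _ _ _

lemma pW_succ' {u W : A} {Z : ℕ → A} (a m : ℕ) :
    pW u Z W a (m + 1) = Z a * u * W * pW u Z W (a + 1) m := seg_succ' _ _ _

lemma pV_succ {u : A} {Z : ℕ → A} (a m : ℕ) :
    pV u Z a (m + 1) = pV u Z a m * (Z (a + m) * u) := rfl

lemma TrModel.Cr.adj {T : TrModel A K} {η : ℝ} {J J' : Type} [Fintype J] [Fintype J']
    {z : J → A} {v : J' → A} {C : A} (h : T.Cr η z v C) (D : A) (hD : ‖D‖ ≤ 1) :
    Ex (fun a => ‖T.ι (Ex fun b => v b * (D * star (z a) * star C) * star (v b))‖) ≤ η := by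
  refine le_trans (le_of_eq (Ex_congr fun a => ?_)) (h (star D) (by rwa [_root_.norm_star]))
  rw [← T.norm_star, star_Ex]
  simp only [star_mul, star_star, mul_assoc]

/-- how crossing smallness is used -/
lemma norm_Ex_Ex_le (T : TrModel A K) {η : ℝ} {J J' : Type} [Fintype J] [Fintype J']
    (X : J → J' → A) (h : Ex (fun a => ‖T.ι (Ex fun b => X a b)‖) ≤ η)
    (Lf Rt : J → A) (hL : ∀ a, ‖Lf a‖ ≤ 1) (hR : ∀ a, ‖Rt a‖ ≤ 1) :
    ‖T.ι (Ex fun a => Ex fun b => Lf a * X a b * Rt a)‖ ≤ η := by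
  rw [Ex_clm]
  refine (norm_Ex_le _).trans (le_trans (Ex_mono fun a => ?_) h)
  rw [← Ex_mul, ← mul_Ex]
  exact (T.norm_mul_le_of_right _ (hR a)).trans (T.norm_mul_le_of_left (hL a) _)

namespace Blk

variable {P : StarSubalgebra ℂ A} {k : ℕ} (B : Blk P k) (T : TrModel A K) {u x : A} {η : ℝ}

/-- crossing hypotheses inside a block -/
structure Good (u : A) (η : ℝ) : Prop where
  h1 : ∀ s, 1 ≤ s → s < k → ∀ ζ : B.Ω, T.Cr η (fun a => star (B.z s a)) (fun b => star (B.z k b))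
    (star (pV u (B.Z ζ) (s + 1) (k - s - 1)) * star u)
  h2 : ∀ s, 1 ≤ s → s < k → ∀ ζ : B.Ω, T.Cr η (B.z s) (B.z 0) (u * pV u (B.Z ζ) 1 (s - 1))

variable {T}

lemma Ex_resample₂ {E : Type*} [AddCommGroup E] [Module ℝ E] {s t : ℕ} (hs : s ≤ k) (ht : t ≤ k)
    (f : (ℕ → A) → E) :
    Ex (fun ζ => f (B.Z ζ)) = Ex (fun ζ => Ex (fun a : B.J s => Ex (fun b : B.J t =>
      f (Function.update (Function.update (B.Z ζ) s (B.z s a)) t (B.z t b))))) := by
  rw [B.Ex_resample ht f, B.Ex_resample hs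
    (fun Z => Ex (fun b : B.J t => f (Function.update Z t (B.z t b))))]

variable (hu : u ∈ unitary A) (hx : ‖x‖ ≤ 1)
include hu hx

/-- off-diagonal terms are small, case `a' < a` -/
lemma offdiag_lt (hB : B.Good T u η) {W R : A} (hW : W ∈ unitary A) (hR : ‖R‖ ≤ 1) {a a' : ℕ}
    (ha : a < k) (h : a' < a) :
    ‖T.ι (Ex fun ζ => tm u k (B.Z ζ) W (R * gg u x k (B.Z ζ) a' * R) a)‖ ≤ η := by
  rw [B.Ex_resample₂ (s := a' + 1) (t := k) (by omega) le_rfl
    (fun Z => tm u k Z W (R * gg u x k Z a' * R) a), Ex_clm]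
  refine norm_Ex_le_const fun ζ => ?_
  have h1 := hB.h1 (a' + 1) (by omega) (by omega) ζ
    (R * pW u (B.Z ζ) W (a + 1) (k - a - 1))
    (norm_mul_le_one hR (norm_unitary_le (pW_mem hu (B.Z_uni ζ) hW _ _)))
  let Z' := fun α : B.J (a' + 1) => Function.update (B.Z ζ) (a' + 1) (B.z _ α)
  have hZ' : ∀ α c, Z' α c ∈ unitary A := fun α => B.update_uni ζ _ (B.uni _ α)
  refine le_trans (le_of_eq ?_) (norm_Ex_Ex_le T _ h1
    (fun α => pW u (Z' α) W 0 a * (Z' α a * u) * R * star (pV u (Z' α) 0 (a' + 1)) * x)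
    (fun _ => 1) (fun α => ?_) (fun _ => norm_one_le'))
  · congr 2
    refine Ex_congr fun α => Ex_congr fun β => ?_
    rw [tm_update_last _ _ ha, gg_update_last (by omega),
      show k - a' - 1 = (k - (a' + 1) - 1) + 1 by omega, pV_succ' (a' + 1),
      pV_update (a := a' + 1 + 1) (by omega), pW_update (a := a + 1) (by omega),
      Function.update_self]
    simp only [Z', star_mul, star_star, mul_assoc, mul_one]
  · exact norm_mul_le_one (norm_mul_le_one (norm_mul_le_one (norm_unitary_le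
      (mul_mem (pW_mem hu (hZ' α) hW _ _) (mul_mem (hZ' α _) hu))) hR)
      (norm_unitary_le (Unitary.star_mem (pV_mem hu (hZ' α) _ _)))) hx

/-- off-diagonal terms are small, case `a < a'` -/
lemma offdiag_gt (hB : B.Good T u η) {W R : A} (hW : W ∈ unitary A) (hR : ‖R‖ ≤ 1) {a a' : ℕ}
    (ha : a' < k) (h : a < a') :
    ‖T.ι (Ex fun ζ => tm u k (B.Z ζ) W (R * gg u x k (B.Z ζ) a' * R) a)‖ ≤ η := by
  rw [B.Ex_resample₂ (s := a + 1) (t := 0) (by omega) (by omega)
    (fun Z => tm u k Z W (R * gg u x k Z a' * R) a), Ex_clm]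
  refine norm_Ex_le_const fun ζ => ?_
  have hseg : seg (fun c => W * (B.Z ζ c * u)) 1 a ∈ unitary A :=
    seg_mem (fun c => mul_mem hW (mul_mem (B.Z_uni ζ c) hu)) _ _
  have h1 := (hB.h2 (a + 1) (by omega) (by omega) ζ).adj
    (u * seg (fun c => W * (B.Z ζ c * u)) 1 a * R *
      star (pV u (B.Z ζ) (a + 2) (a' - a - 1)) * star u)
    (norm_mul_le_one (norm_mul_le_one (norm_mul_le_one (norm_unitary_le (mul_mem hu hseg)) hR)
      (norm_unitary_le (Unitary.star_mem (pV_mem hu (B.Z_uni ζ) _ _))))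
      (norm_unitary_le (Unitary.star_mem hu)))
  let Z' := fun α : B.J (a + 1) => Function.update (B.Z ζ) (a + 1) (B.z _ α)
  have hZ' : ∀ α c, Z' α c ∈ unitary A := fun α => B.update_uni ζ _ (B.uni _ α)
  refine le_trans (le_of_eq ?_) (norm_Ex_Ex_le T _ h1 (fun _ => 1)
    (fun α => x * star (Z' α k) * star (pV u (Z' α) (a' + 1) (k - a' - 1)) * R *
      (pW u (Z' α) W (a + 1) (k - a - 1) * Z' α k))
    (fun _ => norm_one_le') (fun α => ?_))
  · congr 2
    refine Ex_congr fun α => Ex_congr fun β => ?_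
    set Y := Function.update (Function.update (B.Z ζ) (a + 1) (B.z (a + 1) α)) 0 (B.z 0 β) with hY
    have e1 : pW u Y W 0 a * (Y a * u) =
        B.z 0 β * u * seg (fun c => W * (B.Z ζ c * u)) 1 a := by
      have := seg_shift (fun c => Y c * u) W 0 a
      simp only [zero_add] at this
      rw [pW, this, hY, Function.update_self]
      congr 1
      refine seg_congr fun c h1 h2 => ?_
      rw [Function.update_of_ne (by omega), Function.update_of_ne (by omega)]
    have e2 : pV u Y 0 (a' + 1) = B.z 0 β * u * pV u (B.Z ζ) 1 a * (B.z (a + 1) α * u) *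
        pV u (B.Z ζ) (a + 2) (a' - a - 1) := by
      rw [show a' + 1 = (a + 1 + 1) + (a' - a - 1) by omega, pV, seg_add, seg_succ, seg_succ',
        ← pV, ← pV, hY, Function.update_self, pV_update (by omega), pV_update (by omega),
        pV_update (by omega), pV_update (by omega), Function.update_of_ne (by omega)]
      simp only [zero_add, Function.update_self]
    have e3 : pV u Y (a' + 1) (k - a' - 1) = pV u (Z' α) (a' + 1) (k - a' - 1) := by
      rw [hY, pV_update (by omega)]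
    have e4 : pW u Y W (a + 1) (k - a - 1) = pW u (Z' α) W (a + 1) (k - a - 1) := by
      rw [hY, pW_update (by omega)]
    have e5 : Y k = Z' α k := by rw [hY, Function.update_of_ne (by omega)]
    have e6 : tm u k Y W (R * gg u x k Y a' * R) a = pW u Y W 0 a * (Y a * u) *
        (R * gg u x k Y a' * R) * pW u Y W (a + 1) (k - a - 1) * Y k := by
      simp only [tm, mul_assoc]
    rw [e6, e1, gg, e2, e3, e4, e5]
    simp only [star_mul, mul_assoc, one_mul, Nat.add_sub_cancel]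
  · exact norm_mul_le_one (norm_mul_le_one (norm_mul_le_one (norm_mul_le_one hx
      (norm_unitary_le (Unitary.star_mem (hZ' α _))))
      (norm_unitary_le (Unitary.star_mem (pV_mem hu (hZ' α) _ _)))) hR)
      (norm_unitary_le (mul_mem (pW_mem hu (hZ' α) hW _ _) (hZ' α _)))

lemma offdiag (hB : B.Good T u η) {W R : A} (hW : W ∈ unitary A) (hR : ‖R‖ ≤ 1) {a a' : ℕ}
    (ha : a < k) (ha' : a' < k) (h : a ≠ a') :
    ‖T.ι (Ex fun ζ => tm u k (B.Z ζ) W (R * gg u x k (B.Z ζ) a' * R) a)‖ ≤ η := by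
  rcases lt_or_gt_of_ne h with h | h
  · exact B.offdiag_gt hu hx hB hW hR ha' h
  · exact B.offdiag_lt hu hx hB hW hR ha h

omit hx in
/-- the drift of the conjugated products -/
lemma drift {W : A} (hW : W ∈ unitary A) {β : ℝ}
    (hβ : ∀ c ≤ k, ∀ G ∈ unitary A,
      (T.τ G).re - β ≤ (T.τ (Ex (fun b => star (B.z c b) * W * B.z c b) * G)).re)
    (m : ℕ) : ∀ a, a + m ≤ k →
      1 - m * β ≤ Ex (fun ζ => (T.τ (pW u (B.Z ζ) W a m * star (pV u (B.Z ζ) a m))).re) := by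
  induction m with
  | zero => intro a _; simp [pW, pV]
  | succ m ih =>
    intro a ha
    have key : ∀ (Z : ℕ → A) (w : A), w ∈ unitary A →
        pW u (Function.update Z (a + 1) w) W (a + 1) m *
          star (pV u (Function.update Z (a + 1) w) (a + 1) m) =
        w * (pW u (Function.update Z (a + 1) 1) W (a + 1) m *
          star (pV u (Function.update Z (a + 1) 1) (a + 1) m)) * star w := by
      intro Z w hw
      cases m with
      | zero => simp [pW, pV, hw.2]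
      | succ m =>
        rw [pW_succ', pV_succ', pW_succ', pV_succ', pW_update (by omega), pV_update (by omega),
          pW_update (by omega), pV_update (by omega), Function.update_self, Function.update_self]
        simp only [star_mul, mul_assoc, one_mul]
    have hG : ∀ ζ, pW u (Function.update (B.Z ζ) (a + 1) 1) W (a + 1) m *
        star (pV u (Function.update (B.Z ζ) (a + 1) 1) (a + 1) m) ∈ unitary A := fun ζ =>
      mul_mem (pW_mem hu (B.update_uni ζ _ (one_mem _)) hW _ _)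
        (Unitary.star_mem (pV_mem hu (B.update_uni ζ _ (one_mem _)) _ _))
    have e1 : ∀ ζ, T.τ (pW u (B.Z ζ) W a (m + 1) * star (pV u (B.Z ζ) a (m + 1))) =
        T.τ (W * (pW u (B.Z ζ) W (a + 1) m * star (pV u (B.Z ζ) (a + 1) m))) := by
      intro ζ
      rw [← T.τ_conj (mul_mem (B.Z_uni ζ a) hu) (W * _), pW_succ', pV_succ']
      simp only [star_mul, mul_assoc]
    have ih' := ih (a + 1) (by omega)
    rw [B.Ex_resample (t := a + 1) (by omega)
      (fun Z => (T.τ (pW u Z W (a + 1) m * star (pV u Z (a + 1) m))).re)] at ih'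
    simp only [key _ _ (B.uni _ _), T.τ_conj (B.uni _ _), Ex_const] at ih'
    simp only [e1]
    rw [B.Ex_resample (t := a + 1) (by omega)
      (fun Z => (T.τ (W * (pW u Z W (a + 1) m * star (pV u Z (a + 1) m)))).re)]
    simp only [key _ _ (B.uni _ _)]
    have h2 : Ex (fun ζ => (T.τ (pW u (Function.update (B.Z ζ) (a + 1) 1) W (a + 1) m *
        star (pV u (Function.update (B.Z ζ) (a + 1) 1) (a + 1) m))).re - β) ≤
        Ex (fun ζ => Ex fun b : B.J (a + 1) => (T.τ (W * (B.z (a + 1) b *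
          (pW u (Function.update (B.Z ζ) (a + 1) 1) W (a + 1) m *
          star (pV u (Function.update (B.Z ζ) (a + 1) 1) (a + 1) m)) * star (B.z (a + 1) b)))).re) := by
      refine Ex_mono fun ζ => (hβ (a + 1) (by omega) _ (hG ζ)).trans (le_of_eq ?_)
      rw [Ex_mul, Ex_clm, re_Ex]
      refine Ex_congr fun b => ?_
      rw [← mul_assoc W, T.τ_comm _ (star (B.z (a + 1) b))]
      simp only [mul_assoc]
    rw [Ex_sub, Ex_const] at h2
    push_cast
    linarith

omit hx in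
lemma drift_norm {W : A} (hW : W ∈ unitary A) {β : ℝ} (hβ0 : 0 ≤ β)
    (hβ : ∀ c ≤ k, ∀ G ∈ unitary A,
      (T.τ G).re - β ≤ (T.τ (Ex (fun b => star (B.z c b) * W * B.z c b) * G)).re)
    {m a : ℕ} (h : a + m ≤ k) :
    Ex (fun ζ => ‖T.ι (pW u (B.Z ζ) W a m * star (pV u (B.Z ζ) a m) - 1)‖) ≤
      Real.sqrt (2 * k * β) := by
  refine Ex_le_of_sq (Real.sqrt_nonneg _) ?_
  rw [Real.sq_sqrt (by positivity)]
  have h1 := B.drift hu hW hβ m a h
  have h2 : Ex (fun ζ => ‖T.ι (pW u (B.Z ζ) W a m * star (pV u (B.Z ζ) a m) - 1)‖ ^ 2) =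
      2 - 2 * Ex (fun ζ => (T.τ (pW u (B.Z ζ) W a m * star (pV u (B.Z ζ) a m))).re) := by
    rw [← Ex_const_mul]
    conv_rhs => rw [← Ex_const (Ω := B.Ω) (2 : ℝ), ← Ex_sub]
    simp only [Ex_const]
    exact Ex_congr fun ζ => T.norm_sub_one_sq (mul_mem (pW_mem hu (B.Z_uni ζ) hW _ _)
      (Unitary.star_mem (pV_mem hu (B.Z_uni ζ) _ _)))
  have h3 : (m : ℝ) ≤ k := by exact_mod_cast (by omega : m ≤ k)
  rw [h2]
  nlinarith

omit B in
lemma diag_pointwise {Z : ℕ → A} (hZ : ∀ c, Z c ∈ unitary A) {W R : A} (hW : W ∈ unitary A)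
    (hR : ‖R‖ ≤ 1) (a : ℕ) :
    ‖T.ι (tm u k Z W (R * gg u x k Z a * R) a - x)‖ ≤
      ‖T.ι (pW u Z W 0 a * star (pV u Z 0 a) - 1)‖ + 2 * ‖T.ι (R - 1)‖ +
      ‖T.ι (pW u Z W (a + 1) (k - a - 1) * star (pV u Z (a + 1) (k - a - 1)) - 1)‖ := by
  set G₁ := pW u Z W 0 a * star (pV u Z 0 a) with hG₁
  set G₂ := pW u Z W (a + 1) (k - a - 1) * star (pV u Z (a + 1) (k - a - 1)) with hG₂
  set L := pV u Z 0 (a + 1) with hL
  set Y := pV u Z (a + 1) (k - a - 1) * Z k with hY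
  have hLu : L ∈ unitary A := pV_mem hu hZ _ _
  have hYu : Y ∈ unitary A := mul_mem (pV_mem hu hZ _ _) (hZ _)
  have hG₁u : G₁ ∈ unitary A := mul_mem (pW_mem hu hZ hW _ _) (Unitary.star_mem (pV_mem hu hZ _ _))
  have hG₂u : G₂ ∈ unitary A := mul_mem (pW_mem hu hZ hW _ _) (Unitary.star_mem (pV_mem hu hZ _ _))
  have e1 : G₁ * L = pW u Z W 0 a * (Z a * u) := by
    rw [hG₁, hL, pV_succ, zero_add, mul_assoc, ← mul_assoc (star _), (pV_mem hu hZ 0 a).1, one_mul]
  have e2 : G₂ * Y = pW u Z W (a + 1) (k - a - 1) * Z k := by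
    rw [hG₂, hY, mul_assoc, ← mul_assoc (star _), (pV_mem hu hZ _ _).1, one_mul]
  have e3 : tm u k Z W (R * gg u x k Z a * R) a =
      (G₁ * L) * R * star L * x * star Y * R * (G₂ * Y) := by
    rw [e1, e2, tm, gg, ← hL, hY]
    simp only [star_mul, mul_assoc]
  have e4 : tm u k Z W (R * gg u x k Z a * R) a - x =
      (G₁ - 1) * (L * R * star L * x * star Y * R * (G₂ * Y)) +
      L * (R - 1) * (star L * x * star Y * R * (G₂ * Y)) +
      (x * star Y) * (R - 1) * (G₂ * Y) + (x * star Y) * (G₂ - 1) * Y := by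
    rw [e3]
    have h1 : L * star L = 1 := hLu.2
    have h2 : star Y * Y = 1 := hYu.1
    calc G₁ * L * R * star L * x * star Y * R * (G₂ * Y) - x
        = G₁ * L * R * star L * x * star Y * R * (G₂ * Y) - x * (star Y * Y) +
          ((L * star L) * x * star Y * R * (G₂ * Y) - 1 * x * star Y * R * (G₂ * Y)) * (-1) := by
          rw [h1, h2]; noncomm_ring
      _ = _ := by noncomm_ring
  have nL := norm_unitary_le hLu
  have nL' := norm_unitary_le (Unitary.star_mem hLu)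
  have nY := norm_unitary_le hYu
  have nY' := norm_unitary_le (Unitary.star_mem hYu)
  have nGY := norm_unitary_le (mul_mem hG₂u hYu)
  have n1 : ‖star L * x * star Y * R * (G₂ * Y)‖ ≤ 1 :=
    norm_mul_le_one (norm_mul_le_one (norm_mul_le_one (norm_mul_le_one nL' hx) nY') hR) nGY
  have n2 : ‖L * R * star L * x * star Y * R * (G₂ * Y)‖ ≤ 1 :=
    norm_mul_le_one (norm_mul_le_one (norm_mul_le_one (norm_mul_le_one (norm_mul_le_one
      (norm_mul_le_one nL hR) nL') hx) nY') hR) nGY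
  have n3 := norm_mul_le_one hx nY'
  rw [e4, map_add, map_add, map_add]
  have t1 := T.norm_mul_le_of_right (G₁ - 1) n2
  have t2 := (T.norm_mul_le_of_right (L * (R - 1)) n1).trans (T.norm_mul_le_of_left nL _)
  have t3 := (T.norm_mul_le_of_right (x * star Y * (R - 1)) nGY).trans
    (T.norm_mul_le_of_left n3 _)
  have t4 := (T.norm_mul_le_of_right (x * star Y * (G₂ - 1)) nY).trans
    (T.norm_mul_le_of_left n3 _)
  refine (norm_add_le _ _).trans ?_
  have := norm_add₃_le (a := T.ι ((G₁ - 1) * (L * R * star L * x * star Y * R * (G₂ * Y))))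
    (b := T.ι (L * (R - 1) * (star L * x * star Y * R * (G₂ * Y))))
    (c := T.ι (x * star Y * (R - 1) * (G₂ * Y)))
  linarith

lemma diag {W R : A} (hW : W ∈ unitary A) (hR : ‖R‖ ≤ 1) {β : ℝ} (hβ0 : 0 ≤ β)
    (hβ : ∀ c ≤ k, ∀ G ∈ unitary A,
      (T.τ G).re - β ≤ (T.τ (Ex (fun b => star (B.z c b) * W * B.z c b) * G)).re)
    {a : ℕ} (ha : a < k) :
    ‖T.ι ((Ex fun ζ => tm u k (B.Z ζ) W (R * gg u x k (B.Z ζ) a * R) a) - x)‖ ≤
      2 * ‖T.ι (R - 1)‖ + 2 * Real.sqrt (2 * k * β) := by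
  conv_lhs => rw [← Ex_const (Ω := B.Ω) x, ← Ex_sub, Ex_clm]
  simp only [Ex_const]
  refine (norm_Ex_le _).trans ((Ex_mono fun ζ => diag_pointwise hu hx (B.Z_uni ζ) hW hR a).trans ?_)
  rw [Ex_add, Ex_add, Ex_const]
  have h1 := B.drift_norm hu hW hβ0 hβ (m := a) (a := 0) (by omega)
  have h2 := B.drift_norm hu hW hβ0 hβ (m := k - a - 1) (a := a + 1) (by omega)
  linarith

omit hu hx in
/-- the terms coming from the adjoint part vanish in the mean -/
lemma Ex_Dy_star (W R : A) :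
    Ex (fun ζ => Dy u k (B.Z ζ) W (R * star (GG u x k (B.Z ζ)) * R)) = 0 := by
  refine Ex_eq_zero_of_equiv B.ph _ fun ζ => ?_
  rw [B.Z_ph, Dy_phase, GG_phase, star_smul, mul_smul_comm, smul_mul_assoc, Dy_smul, smul_smul]
  simp

omit hu hx in
lemma Ex_Dy_HH (W R : A) :
    Ex (fun ζ => Dy u k (B.Z ζ) W (R * HH u x k (B.Z ζ) * R)) =
      ∑ a ∈ range k, ∑ a' ∈ range k,
        Ex (fun ζ => tm u k (B.Z ζ) W (R * gg u x k (B.Z ζ) a' * R) a) := by
  simp only [HH, mul_add, add_mul, Dy_add]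
  rw [Ex_add, B.Ex_Dy_star, add_zero]
  simp only [Dy, GG, mul_sum, sum_mul, tm_sum, Ex_sum]

omit hu hx in
lemma sum_diag_le {E : Type*} [SeminormedAddCommGroup E] (f : ℕ → ℕ → E) (y : E) {d e : ℝ}
    (he : 0 ≤ e) (h1 : ∀ a < k, ‖f a a - y‖ ≤ d)
    (h2 : ∀ a < k, ∀ a' < k, a ≠ a' → ‖f a a'‖ ≤ e) :
    ‖∑ a ∈ range k, ∑ a' ∈ range k, f a a' - k • y‖ ≤ k * d + k ^ 2 * e := by
  have h3 : ∑ a ∈ range k, ∑ a' ∈ range k, f a a' - k • y =
      ∑ a ∈ range k, ((f a a - y) + ∑ a' ∈ (range k).erase a, f a a') := by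
    rw [show k • y = ∑ a ∈ range k, y by simp, ← sum_sub_distrib]
    refine sum_congr rfl fun a ha => ?_
    rw [← add_sum_erase _ _ ha]; abel
  rw [h3]
  refine (norm_sum_le _ _).trans ((sum_le_sum (g := fun _ => d + k * e) fun a ha => ?_).trans ?_)
  · refine (norm_add_le _ _).trans (add_le_add (h1 a (mem_range.1 ha)) ?_)
    refine (norm_sum_le _ _).trans ((sum_le_sum (g := fun _ => e) fun a' ha' => ?_).trans ?_)
    · exact h2 a (mem_range.1 ha) a' (mem_range.1 (mem_of_mem_erase ha'))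
        (ne_of_mem_erase ha').symm
    · rw [sum_const, nsmul_eq_mul]
      refine mul_le_mul_of_nonneg_right ?_ he
      exact_mod_cast (card_erase_le).trans (card_range k).le
  · simp only [sum_const, card_range, nsmul_eq_mul]
    exact le_of_eq (by ring)

/-- the mean of the first order term is close to `k x` -/
lemma mean_Dy (hB : B.Good T u η) (hη : 0 ≤ η) {W R : A} (hW : W ∈ unitary A) (hR : ‖R‖ ≤ 1)
    {β : ℝ} (hβ0 : 0 ≤ β)
    (hβ : ∀ c ≤ k, ∀ G ∈ unitary A,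
      (T.τ G).re - β ≤ (T.τ (Ex (fun b => star (B.z c b) * W * B.z c b) * G)).re) :
    ‖T.ι (Ex (fun ζ => Dy u k (B.Z ζ) W (R * HH u x k (B.Z ζ) * R)) - k • x)‖ ≤
      k * (2 * ‖T.ι (R - 1)‖ + 2 * Real.sqrt (2 * k * β)) + k ^ 2 * η := by
  rw [B.Ex_Dy_HH, map_sub, map_sum, map_nsmul]
  simp only [map_sum]
  refine sum_diag_le _ _ hη (fun a ha => ?_) (fun a ha a' ha' h => B.offdiag hu hx hB hW hR ha ha' h)
  rw [← map_sub]
  exact B.diag hu hx hW hR hβ0 hβ ha

/-- crude bound for the mean of the first order term -/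
lemma mean_Dy_le (hB : B.Good T u η) (hη : 0 ≤ η) {W R : A} (hW : W ∈ unitary A)
    (hR : ‖R‖ ≤ 1) :
    ‖T.ι (Ex (fun ζ => Dy u k (B.Z ζ) W (R * HH u x k (B.Z ζ) * R)))‖ ≤ k + k ^ 2 * η := by
  rw [B.Ex_Dy_HH, map_sum]
  simp only [map_sum]
  have := sum_diag_le (k := k) (fun a a' => T.ι (Ex (fun ζ => tm u k (B.Z ζ) W
    (R * gg u x k (B.Z ζ) a' * R) a))) 0 (d := 1) hη (fun a ha => ?_)
    (fun a ha a' ha' h => B.offdiag hu hx hB hW hR ha ha' h)
  · simpa using this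
  · rw [sub_zero, Ex_clm]
    refine norm_Ex_le_const fun ζ => (T.norm_le _).trans ((norm_tm_le hu (B.Z_uni ζ) hW _ _).trans ?_)
    exact norm_mul_le_one (norm_mul_le_one hR (norm_gg_le hu (B.Z_uni ζ) hx _)) hR

/-- second moment of the perturbation of a block -/
lemma Ex_norm_HH_sq (hB : B.Good T u η) (hη : 0 ≤ η) :
    Ex (fun ζ => ‖T.ι (HH u x k (B.Z ζ))‖ ^ 2) ≤ 4 * (k + k ^ 2 * η) := by
  have h1 : ∀ ζ, ‖T.ι (HH u x k (B.Z ζ))‖ ^ 2 ≤ 4 * ‖T.ι (GG u x k (B.Z ζ))‖ ^ 2 := fun ζ => by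
    have : ‖T.ι (HH u x k (B.Z ζ))‖ ≤ 2 * ‖T.ι (GG u x k (B.Z ζ))‖ := by
      rw [HH, map_add]
      refine (norm_add_le _ _).trans ?_
      rw [T.norm_star]; linarith
    nlinarith [norm_nonneg (T.ι (HH u x k (B.Z ζ)))]
  have h2 : ∀ ζ, ‖T.ι (GG u x k (B.Z ζ))‖ ^ 2 =
      (T.τ (star x * Dy u k (B.Z ζ) 1 (1 * GG u x k (B.Z ζ) * 1))).re := fun ζ => by
    rw [T.norm_sq_eq, Dy, mul_sum, map_sum]
    conv_lhs => rw [GG, star_sum, sum_mul, map_sum, ← GG]
    congr 1
    refine sum_congr rfl fun a _ => ?_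
    rw [gg, tm, pW_one, pW_one, pV_succ, zero_add]
    simp only [star_mul, star_star, mul_assoc, one_mul, mul_one]
    rw [T.τ_comm (pV u (B.Z ζ) (a + 1) (k - a - 1)), mul_assoc, T.τ_comm (B.Z ζ k)]
    simp only [mul_assoc]
  have h3 : Ex (fun ζ => Dy u k (B.Z ζ) 1 (1 * GG u x k (B.Z ζ) * 1)) =
      Ex (fun ζ => Dy u k (B.Z ζ) 1 (1 * HH u x k (B.Z ζ) * 1)) := by
    simp only [HH, mul_add, add_mul, Dy_add]
    rw [Ex_add, B.Ex_Dy_star, add_zero]
  refine (Ex_mono h1).trans ?_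
  rw [Ex_const_mul, Ex_congr h2, ← re_Ex, ← Ex_clm, ← mul_Ex, h3]
  have h4 := B.mean_Dy_le hu hx hB hη (one_mem _) norm_one_le'
  have h5 := (re_le_norm _).trans (T.norm_τ_mul_le (star x)
    (Ex (fun ζ => Dy u k (B.Z ζ) 1 (1 * HH u x k (B.Z ζ) * 1))))
  have h6 : ‖T.ι (star x)‖ ≤ 1 := by rw [T.norm_star]; exact (T.norm_le x).trans hx
  have h7 := mul_le_of_le_one_left (norm_nonneg
    (T.ι (Ex (fun ζ => Dy u k (B.Z ζ) 1 (1 * HH u x k (B.Z ζ) * 1))))) h6
  linarith

end Blk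

end Crest.Agent.R95
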