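import Crest.Agent.R95.Basic

/-! Dixmier averaging in the 2-norm. -/

set_option autoImplicit false

namespace Crest.Agent.R95

open scoped InnerProductSpace ComplexConjugate Topology
open Filter Complex

variable {A : Type*} [CStarAlgebra A] {K : Type*} [NormedAddCommGroup K] [InnerProductSpace ℂ K]

/-- a finite nonempty family of unitaries of `P` (a uniformly distributed random unitary) -/
structure Fam (P : StarSubalgebra ℂ A) where
  J : Type
  [fin : Fintype J]
  [ne : Nonempty J]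
  z : J → A
  mem : ∀ a, z a ∈ P
  uni : ∀ a, z a ∈ unitary A

attribute [instance] Fam.fin Fam.ne

namespace Fam

variable {P : StarSubalgebra ℂ A}

/-- conjugation average -/
noncomputable def avg (f : Fam P) (y : A) : A := Ex (fun a => f.z a * y * star (f.z a))

/-- a single unitary -/
def single (v : A) (hv : v ∈ P) (hu : v ∈ unitary A) : Fam P where
  J := Unit
  z := fun _ => v
  mem := fun _ => hv
  uni := fun _ => hu

/-- product of two independent random unitaries -/
def comp (f g : Fam P) : Fam P where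
  J := f.J × g.J
  z := fun p => f.z p.1 * g.z p.2
  mem := fun p => mul_mem (f.mem p.1) (g.mem p.2)
  uni := fun p => mul_mem (f.uni p.1) (g.uni p.2)

/-- fair mixture of two random unitaries -/
def mid (f g : Fam P) : Fam P where
  J := Bool × (f.J × g.J)
  z := fun p => if p.1 then f.z p.2.1 else g.z p.2.2
  mem := fun p => by
    split_ifs
    · exact f.mem _
    · exact g.mem _
  uni := fun p => by
    split_ifs
    · exact f.uni _
    · exact g.uni _

lemma avg_single (v : A) (hv : v ∈ P) (hu : v ∈ unitary A) (y : A) :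
    (single v hv hu).avg y = v * y * star v :=
  Ex_const (Ω := Unit) _

lemma avg_comp (f g : Fam P) (y : A) : (f.comp g).avg y = f.avg (g.avg y) := by
  unfold avg
  refine (Ex_prod (Ω := f.J) (Ω' := g.J) _).trans (Ex_congr fun a => ?_)
  rw [mul_Ex, Ex_mul]
  refine Ex_congr fun b => ?_
  simp only [comp, star_mul, mul_assoc]

lemma avg_mid (f g : Fam P) (y : A) :
    (f.mid g).avg y = (2 : ℝ)⁻¹ • (f.avg y + g.avg y) := by
  unfold avg
  refine (Ex_prod (Ω := Bool) (Ω' := f.J × g.J) _).trans ?_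
  have h1 : Ex (fun b : f.J × g.J => f.z b.1 * y * star (f.z b.1))
      = Ex (fun a => f.z a * y * star (f.z a)) := by
    rw [Ex_prod]
    exact Ex_congr fun a => Ex_const (Ω := g.J) (f.z a * y * star (f.z a))
  have h2 : Ex (fun b : f.J × g.J => g.z b.2 * y * star (g.z b.2))
      = Ex (fun a => g.z a * y * star (g.z a)) := by
    rw [Ex_prod]
    exact Ex_const (Ω := f.J) (Ex fun a => g.z a * y * star (g.z a))
  rw [← h1, ← h2]
  conv_lhs => unfold Ex
  simp only [Fintype.card_bool, Fintype.sum_bool, mid, if_true, Nat.cast_ofNat]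
  rfl

lemma avg_sub (f : Fam P) (y w : A) : f.avg (y - w) = f.avg y - f.avg w := by
  unfold avg
  rw [← Ex_sub]
  exact Ex_congr fun a => by noncomm_ring

lemma avg_smul_one (f : Fam P) (c : ℂ) : f.avg (c • (1 : A)) = c • 1 := by
  unfold avg
  rw [Ex_congr (g := fun _ => c • (1 : A)), Ex_const]
  intro a
  rw [mul_smul_comm, smul_mul_assoc, mul_one, (f.uni a).2]

lemma norm_avg_le (f : Fam P) (y : A) : ‖f.avg y‖ ≤ ‖y‖ := by
  refine norm_Ex_le_const fun a => norm_mul₃_le.trans ?_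
  have h1 := norm_unitary_le (f.uni a)
  have h2 := norm_unitary_le (Unitary.star_mem (f.uni a))
  calc ‖f.z a‖ * ‖y‖ * ‖star (f.z a)‖ ≤ 1 * ‖y‖ * 1 := by gcongr
    _ = ‖y‖ := by ring

lemma norm_two_avg_le (T : TrModel A K) (f : Fam P) (y : A) : ‖T.ι (f.avg y)‖ ≤ ‖T.ι y‖ := by
  unfold avg
  rw [Ex_clm]
  refine norm_Ex_le_const fun a => ?_
  rw [T.norm_mul_unitary _ (Unitary.star_mem (f.uni a)), T.norm_unitary_mul (f.uni a)]

lemma τ_avg (T : TrModel A K) (f : Fam P) (y : A) : T.τ (f.avg y) = T.τ y := by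
  unfold avg
  rw [Ex_clm, Ex_congr (g := fun _ => T.τ y) fun a => T.τ_conj (f.uni a) y, Ex_const]

instance : Nonempty (Fam P) := ⟨single 1 (one_mem _) (one_mem _)⟩

end Fam

lemma dixmier_single (T : TrModel A K) {P : StarSubalgebra ℂ A} (hirr : Irr P) (y : A)
    {η : ℝ} (hη : 0 < η) : ∃ f : Fam P, ‖T.ι (f.avg y - T.τ y • (1 : A))‖ ≤ η := by
  set d : ℝ := ⨅ f : Fam P, ‖T.ι (f.avg y)‖ ^ 2 with hd
  have hbdd : BddBelow (Set.range fun f : Fam P => ‖T.ι (f.avg y)‖ ^ 2) :=
    ⟨0, by rintro _ ⟨f, rfl⟩; positivity⟩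
  have hle : ∀ f : Fam P, d ≤ ‖T.ι (f.avg y)‖ ^ 2 := fun f => ciInf_le hbdd f
  have hex : ∀ n : ℕ, ∃ f : Fam P, ‖T.ι (f.avg y)‖ ^ 2 < d + 1 / ((n : ℝ) + 1) := fun n =>
    exists_lt_of_ciInf_lt (by rw [← hd]; exact lt_add_of_pos_right _ Nat.one_div_pos_of_nat)
  choose f hf using hex
  have hpar : ∀ g h : Fam P, ‖T.ι (g.avg y) - T.ι (h.avg y)‖ ^ 2
      ≤ 2 * (‖T.ι (g.avg y)‖ ^ 2 - d) + 2 * (‖T.ι (h.avg y)‖ ^ 2 - d) := by
    intro g h
    have h1 := hle (g.mid h)
    rw [Fam.avg_mid, LinearMap.map_smul_of_tower, norm_smul, map_add, norm_inv, Real.norm_ofNat,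
      mul_pow] at h1
    have h2 := parallelogram_law_with_norm ℂ (T.ι (g.avg y)) (T.ι (h.avg y))
    nlinarith
  have hb : Tendsto (fun N : ℕ => Real.sqrt (4 * (1 / ((N : ℝ) + 1)))) atTop (𝓝 0) := by
    have := (tendsto_one_div_add_atTop_nhds_zero_nat (𝕜 := ℝ)).const_mul 4
    simpa using this.sqrt
  have hcau : CauchySeq fun n => T.ι ((f n).avg y) := by
    refine cauchySeq_of_le_tendsto_0 _ (fun n m N hn hm => ?_) hb
    rw [dist_eq_norm]
    apply Real.le_sqrt_of_sq_le
    have h1 : 1 / ((n : ℝ) + 1) ≤ 1 / ((N : ℝ) + 1) := Nat.one_div_le_one_div hn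
    have h2 : 1 / ((m : ℝ) + 1) ≤ 1 / ((N : ℝ) + 1) := Nat.one_div_le_one_div hm
    linarith [hpar (f n) (f m), hf n, hf m]
  obtain ⟨w, -, hw⟩ := T.complete (fun n => (f n).avg y) ‖y‖ (fun n => (f n).norm_avg_le y) hcau
  have hw' := tendsto_iff_norm_sub_tendsto_zero.1 hw
  have hcomm : ∀ v ∈ P, v ∈ unitary A → v * w = w * v := by
    intro v hv hu
    have h1 : Tendsto (fun n => T.ι (v * (f n).avg y * star v)) atTop
        (𝓝 (T.ι (v * w * star v))) := by
      rw [tendsto_iff_norm_sub_tendsto_zero]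
      refine hw'.congr fun n => ?_
      rw [← map_sub, ← map_sub, ← sub_mul, ← mul_sub, T.norm_mul_unitary _ (Unitary.star_mem hu),
        T.norm_unitary_mul hu]
    have h2 : Tendsto (fun n => T.ι (v * (f n).avg y * star v) - T.ι ((f n).avg y)) atTop
        (𝓝 0) := by
      rw [tendsto_zero_iff_norm_tendsto_zero]
      refine squeeze_zero (fun n => norm_nonneg _) (fun n => ?_) hb
      apply Real.le_sqrt_of_sq_le
      have h3 := hpar ((Fam.single v hv hu).comp (f n)) (f n)
      rw [Fam.avg_comp, Fam.avg_single, T.norm_mul_unitary _ (Unitary.star_mem hu),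
        T.norm_unitary_mul hu] at h3
      linarith [hf n]
    have h3 : Tendsto (fun n => T.ι (v * (f n).avg y * star v)) atTop (𝓝 (T.ι w)) := by
      simpa using h2.add hw
    have h4 : v * w * star v = w := T.tendsto_unique h1 h3
    calc v * w = v * w * star v * v := by rw [mul_assoc (v * w), hu.1, mul_one]
      _ = w * v := by rw [h4]
  obtain ⟨c, hc⟩ := hirr w hcomm
  have hcτ : T.τ y = c := by
    have h1 : Tendsto (fun _ : ℕ => ‖T.τ y - c‖) atTop (𝓝 0) := by
      refine squeeze_zero (fun n => norm_nonneg _) (fun n => ?_) hw'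
      have := T.norm_τ_le ((f n).avg y - w)
      rwa [map_sub, map_sub, Fam.τ_avg, hc, map_smul, T.τ_one, smul_eq_mul, mul_one, ← hc] at this
    have h2 := tendsto_nhds_unique h1 tendsto_const_nhds
    exact sub_eq_zero.1 (norm_eq_zero.1 h2.symm)
  obtain ⟨n, hn⟩ := (hw'.eventually (gt_mem_nhds hη)).exists
  exact ⟨f n, by rw [hcτ, ← hc, map_sub]; exact hn.le⟩

/-- Dixmier averaging: finitely many elements can be averaged simultaneously to their traces. -/
theorem dixmier (T : TrModel A K) {P : StarSubalgebra ℂ A} (hirr : Irr P) (F : Set A)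
    (hF : F.Finite) {η : ℝ} (hη : 0 < η) :
    ∃ f : Fam P, ∀ y ∈ F,
      ‖T.ι (Ex (fun a => f.z a * y * star (f.z a)) - T.τ y • (1 : A))‖ ≤ η := by
  change ∃ f : Fam P, ∀ y ∈ F, ‖T.ι (f.avg y - T.τ y • (1 : A))‖ ≤ η
  induction F, hF using Set.Finite.induction_on with
  | empty => exact ⟨Classical.arbitrary _, fun y hy => hy.elim⟩
  | @insert x F _ _ ih =>
    obtain ⟨f, hf⟩ := ih
    obtain ⟨g, hg⟩ := dixmier_single T hirr (f.avg x) hη
    refine ⟨g.comp f, fun y hy => ?_⟩
    rw [Fam.avg_comp]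
    rcases hy with rfl | hy
    · rwa [Fam.τ_avg] at hg
    · rw [← g.avg_smul_one, ← Fam.avg_sub]
      exact (g.norm_two_avg_le T _).trans (hf y hy)

end Crest.Agent.R95
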