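import Mathlib

/-! Uniform averages over finite types. -/

set_option autoImplicit false

namespace Crest.Agent.R95

open scoped BigOperators

section Ex

variable {Ω Ω' E F : Type*} [Fintype Ω] [Fintype Ω']

/-- uniform average of `f` over the finite type `Ω` -/
noncomputable def Ex [AddCommGroup E] [Module ℝ E] (f : Ω → E) : E :=
  (Fintype.card Ω : ℝ)⁻¹ • ∑ ω, f ω

section alg
variable [AddCommGroup E] [Module ℝ E] [AddCommGroup F] [Module ℝ F]

lemma Ex_congr {f g : Ω → E} (h : ∀ ω, f ω = g ω) : Ex f = Ex g := by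
  rw [show f = g from funext h]

lemma Ex_add (f g : Ω → E) : Ex (fun ω => f ω + g ω) = Ex f + Ex g := by
  simp [Ex, Finset.sum_add_distrib]

lemma Ex_sub (f g : Ω → E) : Ex (fun ω => f ω - g ω) = Ex f - Ex g := by
  simp [Ex, Finset.sum_sub_distrib, smul_sub]

lemma Ex_neg (f : Ω → E) : Ex (fun ω => -f ω) = -Ex f := by
  simp [Ex]

@[simp] lemma Ex_zero : Ex (fun _ : Ω => (0 : E)) = 0 := by simp [Ex]

@[simp] lemma Ex_const [Nonempty Ω] (c : E) : Ex (fun _ : Ω => c) = c := by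
  have h : (Fintype.card Ω : ℝ) ≠ 0 := by exact_mod_cast Fintype.card_ne_zero
  simp only [Ex, Finset.sum_const, Finset.card_univ]
  rw [← Nat.cast_smul_eq_nsmul ℝ, smul_smul, inv_mul_cancel₀ h, one_smul]

lemma Ex_sum {ι : Type*} (s : Finset ι) (f : ι → Ω → E) :
    Ex (fun ω => ∑ i ∈ s, f i ω) = ∑ i ∈ s, Ex (f i) := by
  simp only [Ex]
  rw [Finset.sum_comm, Finset.smul_sum]

lemma Ex_map (L : E →ₗ[ℝ] F) (f : Ω → E) : L (Ex f) = Ex (fun ω => L (f ω)) := by
  simp [Ex, map_sum]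

/-- additive, real-homogeneous maps commute with averages -/
lemma Ex_map' (L : E → F) (hadd : ∀ a b, L (a + b) = L a + L b)
    (hsmul : ∀ (r : ℝ) a, L (r • a) = r • L a) (f : Ω → E) :
    L (Ex f) = Ex (fun ω => L (f ω)) :=
  Ex_map { toFun := L, map_add' := hadd, map_smul' := hsmul } f

lemma Ex_smul_real (r : ℝ) (f : Ω → E) : Ex (fun ω => r • f ω) = r • Ex f := by
  simp only [Ex]
  rw [← Finset.smul_sum, smul_comm]

lemma Ex_comm (f : Ω → Ω' → E) :
    Ex (fun a => Ex (fun b => f a b)) = Ex (fun b => Ex (fun a => f a b)) := by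
  simp only [Ex, ← Finset.smul_sum]
  rw [Finset.sum_comm, smul_comm]

lemma Ex_equiv (e : Ω ≃ Ω') (f : Ω' → E) : Ex (fun ω => f (e ω)) = Ex f := by
  simp only [Ex]
  rw [Fintype.card_congr e, Equiv.sum_comp]

lemma Ex_prod (f : Ω × Ω' → E) : Ex f = Ex (fun a => Ex (fun b => f (a, b))) := by
  simp only [Ex, ← Finset.smul_sum, smul_smul, Fintype.card_prod, Fintype.sum_prod_type]
  congr 1
  push_cast
  rw [mul_inv]

/-- a measure preserving bijection that negates `f` forces average zero -/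
lemma Ex_eq_zero_of_equiv (e : Ω ≃ Ω) (f : Ω → E) (h : ∀ ω, f (e ω) = -f ω) : Ex f = 0 := by
  have h1 := Ex_equiv e f
  rw [Ex_congr h, Ex_neg] at h1
  have h2 : (2 : ℝ) • Ex f = 0 := by rw [two_smul]; nth_rewrite 1 [← h1]; simp
  have h3 : Ex f = (2 : ℝ)⁻¹ • ((2 : ℝ) • Ex f) := by rw [smul_smul]; norm_num
  rw [h3, h2, smul_zero]

/-- resampling one coordinate of a product space -/
lemma Ex_update {T : Type*} [Fintype T] [DecidableEq T] {I : T → Type*} [∀ t, Fintype (I t)]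
    (t : T) [Nonempty (I t)] (f : (∀ t, I t) → E) :
    Ex f = Ex (fun ω : ∀ t, I t => Ex (fun a : I t => f (Function.update ω t a))) := by
  let e : (∀ t, I t) × I t ≃ (∀ t, I t) × I t :=
    { toFun := fun p => (Function.update p.1 t p.2, p.1 t)
      invFun := fun p => (Function.update p.1 t p.2, p.1 t)
      left_inv := fun p => by simp
      right_inv := fun p => by simp }
  have h1 : Ex (fun p : (∀ t, I t) × I t => f p.1) = Ex f := by
    rw [Ex_prod]; simp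
  rw [← h1, ← Ex_equiv e, Ex_prod]
  rfl

/-- the bijection of a product space that applies `π` to the coordinate `t` -/
def updEquiv {T : Type*} [DecidableEq T] {I : T → Type*} (t : T) (π : I t ≃ I t) :
    (∀ t, I t) ≃ (∀ t, I t) where
  toFun ω := Function.update ω t (π (ω t))
  invFun ω := Function.update ω t (π.symm (ω t))
  left_inv ω := by simp
  right_inv ω := by simp

lemma updEquiv_apply {T : Type*} [DecidableEq T] {I : T → Type*} (t : T) (π : I t ≃ I t)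
    (ω : ∀ t, I t) : updEquiv t π ω = Function.update ω t (π (ω t)) := rfl

end alg

section real

lemma Ex_mono {f g : Ω → ℝ} (h : ∀ ω, f ω ≤ g ω) : Ex f ≤ Ex g := by
  simp only [Ex, smul_eq_mul]
  exact mul_le_mul_of_nonneg_left (Finset.sum_le_sum fun ω _ => h ω) (by positivity)

lemma Ex_nonneg {f : Ω → ℝ} (h : ∀ ω, 0 ≤ f ω) : 0 ≤ Ex f := by
  simpa using Ex_mono (f := fun _ => 0) h

lemma Ex_le_const [Nonempty Ω] {f : Ω → ℝ} {c : ℝ} (h : ∀ ω, f ω ≤ c) : Ex f ≤ c := by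
  simpa using Ex_mono (g := fun _ => c) h

lemma Ex_const_mul (c : ℝ) (f : Ω → ℝ) : Ex (fun ω => c * f ω) = c * Ex f :=
  Ex_smul_real c f

lemma Ex_mul_const (c : ℝ) (f : Ω → ℝ) : Ex (fun ω => f ω * c) = Ex f * c := by
  simp_rw [mul_comm _ c]; exact Ex_smul_real c f

lemma exists_le_Ex [Nonempty Ω] (f : Ω → ℝ) : ∃ ω, f ω ≤ Ex f := by
  obtain ⟨ω, -, hω⟩ := Finset.exists_min_image Finset.univ f Finset.univ_nonempty
  refine ⟨ω, ?_⟩
  simpa using Ex_mono (f := fun _ => f ω) (g := f) fun a => hω a (Finset.mem_univ a)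

lemma sq_Ex_le [Nonempty Ω] (f : Ω → ℝ) : Ex f ^ 2 ≤ Ex (fun ω => f ω ^ 2) := by
  have h : 0 ≤ Ex (fun ω => (f ω - Ex f) ^ 2) := Ex_nonneg fun ω => sq_nonneg _
  have h2 : Ex (fun ω => (f ω - Ex f) ^ 2) =
      Ex (fun ω => f ω ^ 2) - 2 * Ex f * Ex f + Ex f ^ 2 := by
    rw [← Ex_const_mul, ← Ex_sub]
    conv_rhs => rw [← Ex_const (Ω := Ω) (Ex f ^ 2), ← Ex_add]
    exact Ex_congr fun ω => by ring
  nlinarith

lemma Ex_le_sqrt [Nonempty Ω] (f : Ω → ℝ) : Ex f ≤ Real.sqrt (Ex (fun ω => f ω ^ 2)) :=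
  Real.le_sqrt_of_sq_le (sq_Ex_le f)

/-- if the second moment is at most `c ^ 2`, the mean is at most `c` -/
lemma Ex_le_of_sq [Nonempty Ω] {f : Ω → ℝ} {c : ℝ} (hc : 0 ≤ c)
    (h : Ex (fun ω => f ω ^ 2) ≤ c ^ 2) : Ex f ≤ c :=
  abs_le_of_sq_le_sq' ((sq_Ex_le f).trans h) hc |>.2

end real

lemma norm_Ex_le [SeminormedAddCommGroup E] [NormedSpace ℝ E] (f : Ω → E) :
    ‖Ex f‖ ≤ Ex (fun ω => ‖f ω‖) := by
  simp only [Ex, norm_smul, smul_eq_mul, norm_inv, Real.norm_natCast]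
  exact mul_le_mul_of_nonneg_left (norm_sum_le _ _) (by positivity)

lemma norm_Ex_le_const [Nonempty Ω] [SeminormedAddCommGroup E] [NormedSpace ℝ E] {f : Ω → E}
    {c : ℝ} (h : ∀ ω, ‖f ω‖ ≤ c) : ‖Ex f‖ ≤ c :=
  (norm_Ex_le f).trans (Ex_le_const h)

lemma re_Ex (f : Ω → ℂ) : (Ex f).re = Ex (fun ω => (f ω).re) :=
  Ex_map Complex.reLm f

lemma Ex_smul [AddCommGroup E] [Module ℂ E] (c : ℂ) (f : Ω → E) :
    Ex (fun ω => c • f ω) = c • Ex f := by
  simp only [Ex]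
  rw [← Finset.smul_sum, smul_comm]

lemma Ex_clm [AddCommGroup E] [Module ℂ E] [AddCommGroup F] [Module ℂ F] (L : E →ₗ[ℂ] F)
    (f : Ω → E) : L (Ex f) = Ex (fun ω => L (f ω)) :=
  Ex_map (L.restrictScalars ℝ) f

section ring
variable {A : Type*} [CStarAlgebra A]

lemma mul_Ex (a : A) (f : Ω → A) : a * Ex f = Ex (fun ω => a * f ω) :=
  Ex_clm (LinearMap.mulLeft ℂ a) f

lemma Ex_mul (a : A) (f : Ω → A) : Ex f * a = Ex (fun ω => f ω * a) :=
  Ex_clm (LinearMap.mulRight ℂ a) f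

lemma star_Ex (f : Ω → A) : star (Ex f) = Ex (fun ω => star (f ω)) :=
  Ex_map' star star_add (fun r a => by simp) f

end ring

section inner
open scoped InnerProductSpace
variable {K : Type*} [NormedAddCommGroup K] [InnerProductSpace ℂ K]

lemma inner_Ex_right (v : K) (f : Ω → K) : ⟪v, Ex f⟫_ℂ = Ex (fun ω => ⟪v, f ω⟫_ℂ) :=
  Ex_clm (innerₛₗ ℂ v) f

lemma inner_Ex_left (v : K) (f : Ω → K) : ⟪Ex f, v⟫_ℂ = Ex (fun ω => ⟪f ω, v⟫_ℂ) :=
  Ex_map' (fun w => ⟪w, v⟫_ℂ) (fun a b => inner_add_left a b v)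
    (fun r a => by
      rw [← Complex.coe_smul, inner_smul_left]; simp) f

end inner

end Ex

end Crest.Agent.R95
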