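import Crest.Agent.R95.Baire
import Crest.Agent.R95.Dixmier

/-! A singly generated maximal abelian subalgebra and an irreducible pair of unitaries. -/

set_option autoImplicit false

namespace Crest.Agent.R95

open scoped InnerProductSpace ComplexConjugate Topology
open Filter Complex

variable {A : Type*} [CStarAlgebra A] {K : Type*} [NormedAddCommGroup K] [InnerProductSpace ℂ K]

lemma masa_parts (a : A) : ∃ a1 a2 : A, IsSelfAdjoint a1 ∧ IsSelfAdjoint a2 ∧ a = a1 + I • a2 ∧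
    ∀ b : A, b * a = a * b → b * star a = star a * b → b * a1 = a1 * b ∧ b * a2 = a2 * b := by
  refine ⟨(realPart a : A), (imaginaryPart a : A), (realPart a).2, (imaginaryPart a).2,
    (realPart_add_I_smul_imaginaryPart a).symm, fun b h1 h2 => ?_⟩
  rw [realPart_apply_coe, imaginaryPart_apply_coe]
  simp only [mul_smul_comm, smul_mul_assoc, mul_add, add_mul, mul_sub, sub_mul, h1, h2, and_self]

lemma masa_star_comm {w a : A} (hw : w ∈ unitary A) (h : w * a = a * w) :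
    w * star a = star a * w := by
  have h1 : star w * a = a * star w := by
    calc star w * a = star w * a * (w * star w) := by rw [hw.2, mul_one]
      _ = star w * (w * a) * star w := by rw [h]; noncomm_ring
      _ = a * star w := by rw [← mul_assoc, hw.1, one_mul]
  have h2 := congrArg star h1
  simp only [star_mul, star_star] at h2
  exact h2.symm

lemma masa_star_comm' {w a : A} (hw : w ∈ unitary A) (h : w * a = a * w) :
    star w * a = a * star w := by
  have h2 := congrArg star (masa_star_comm hw h)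
  simp only [star_mul, star_star] at h2
  exact h2.symm

lemma masa_pow_sub_one {U : A} (hU : ‖U‖ ≤ 1) (k : ℕ) : ‖U ^ k - 1‖ ≤ k * ‖U - 1‖ := by
  induction k with
  | zero => simp
  | succ k ih =>
    have : U ^ (k + 1) - 1 = (U ^ k - 1) * U + (U - 1) := by noncomm_ring
    rw [this]
    refine (norm_add_le _ _).trans ?_
    have h1 := norm_mul_le (U ^ k - 1) U
    have h2 : ‖U ^ k - 1‖ * ‖U‖ ≤ ‖U ^ k - 1‖ := mul_le_of_le_one_right (norm_nonneg _) hU
    push_cast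
    linarith

lemma masa_pow_expansion {U : A} (hU : ‖U‖ ≤ 1) (k : ℕ) :
    ‖U ^ k - 1 - (k : ℂ) • (U - 1)‖ ≤ (k : ℝ) ^ 2 * ‖U - 1‖ ^ 2 := by
  induction k with
  | zero => simp
  | succ k ih =>
    have : U ^ (k + 1) - 1 - ((k + 1 : ℕ) : ℂ) • (U - 1) =
        (U ^ k - 1 - (k : ℂ) • (U - 1)) + (U ^ k - 1) * (U - 1) := by
      push_cast
      rw [add_smul, one_smul, pow_succ]
      noncomm_ring
    rw [this]
    refine (norm_add_le _ _).trans ?_
    have h1 := norm_mul_le (U ^ k - 1) (U - 1)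
    have h2 := mul_le_mul_of_nonneg_right (masa_pow_sub_one hU k) (norm_nonneg (U - 1))
    have h3 : (0 : ℝ) ≤ k := Nat.cast_nonneg k
    push_cast
    nlinarith [sq_nonneg ‖U - 1‖]

lemma masa_norm_cay_sub_one {S : A} (hS : IsSelfAdjoint S) : ‖cay S - 1‖ ≤ 2 * ‖S‖ := by
  simpa using norm_cay_sub_cay_le (S := 0) (S' := S) (IsSelfAdjoint.zero _) hS

lemma masa_norm_cay_exp {S : A} (hS : IsSelfAdjoint S) :
    ‖cay S - 1 - (2 * I) • S‖ ≤ 2 * ‖S‖ ^ 2 := by
  simpa using norm_cay_expansion (S := 0) (S' := S) (IsSelfAdjoint.zero _) hS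

lemma masa_commute_cay {S y : A} (hS : IsSelfAdjoint S) (h : y * S = S * y) :
    y * cay S = cay S * y := by
  rw [cay, mul_sub, sub_mul, mul_smul_comm, smul_mul_assoc, commute_res hS h, mul_one, one_mul]

/-- one perturbation step -/
lemma masa_step {u x : A} (hu : u ∈ unitary A) (hx : IsSelfAdjoint x) (hux : u * x = x * u)
    {κ : ℝ} (hκ : 0 < κ) {k : ℕ} (hk : 0 < k) {l : ℂ} (hl : ‖l‖ = 1) :
    ∃ U ∈ unitary A, (∀ y : A, y * u = u * y → y * x = x * y → y * U = U * y) ∧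
      ‖U - 1‖ ≤ 2 * (κ * ‖x‖ / k) ∧
      ‖(-I * conj l) • (u * U) ^ k - ((-I * conj l) • u ^ k + (κ : ℂ) • x +
        ((κ : ℂ) * conj l ^ 2) • (u ^ k * (u ^ k * x)))‖ ≤ 6 * ‖x‖ ^ 2 * κ ^ 2 := by
  have hk' : (0 : ℝ) < k := Nat.cast_pos.2 hk
  have hkc : (k : ℂ) ≠ 0 := Nat.cast_ne_zero.2 hk.ne'
  have huk : u ^ k ∈ unitary A := pow_mem hu k
  have hxk : u ^ k * x = x * u ^ k := (Commute.pow_left hux k).eq
  have hxk' : star (u ^ k) * x = x * star (u ^ k) := masa_star_comm' huk hxk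
  set S : A := ((κ : ℂ) / (2 * k)) • (l • (star (u ^ k) * x) + conj l • (u ^ k * x)) with hSdef
  have hS : IsSelfAdjoint S := by
    rw [IsSelfAdjoint, hSdef]
    simp only [star_smul, star_add, star_mul, star_star, hx.star_eq, ← hxk, ← hxk']
    rw [add_comm]
    simp
  have hSn : ‖S‖ ≤ κ * ‖x‖ / k := by
    rw [hSdef, norm_smul]
    have h1 : ‖l • (star (u ^ k) * x)‖ ≤ ‖x‖ := by
      rw [norm_smul, hl, one_mul]
      exact (norm_mul_le _ _).trans (mul_le_of_le_one_left (norm_nonneg _)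
        (norm_unitary_le (Unitary.star_mem huk)))
    have h2 : ‖conj l • (u ^ k * x)‖ ≤ ‖x‖ := by
      rw [norm_smul, RCLike.norm_conj, hl, one_mul]
      exact (norm_mul_le _ _).trans (mul_le_of_le_one_left (norm_nonneg _) (norm_unitary_le huk))
    have h3 := (norm_add_le _ _).trans (add_le_add h1 h2)
    have h4 : ‖(κ : ℂ) / (2 * k)‖ = κ / (2 * k) := by
      simp [abs_of_pos hκ]
    rw [h4]
    calc κ / (2 * k) * ‖l • (star (u ^ k) * x) + conj l • (u ^ k * x)‖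
        ≤ κ / (2 * k) * (‖x‖ + ‖x‖) := by gcongr
      _ = κ * ‖x‖ / k := by field_simp; ring
  have hcomm : ∀ y : A, y * u = u * y → y * x = x * y → y * S = S * y := by
    intro y h1 h2
    have h3 : u ^ k * y = y * u ^ k := (Commute.pow_left h1.symm k).eq
    have h4 : star (u ^ k) * y = y * star (u ^ k) := masa_star_comm' huk h3
    simp only [hSdef, mul_smul_comm, smul_mul_assoc, mul_add, add_mul]
    rw [← mul_assoc, ← h4, ← mul_assoc, ← h3, mul_assoc, h2, mul_assoc _ y, h2, mul_assoc,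
      mul_assoc]
  have hU := cay_mem_unitary hS
  have hU1 : ‖cay S - 1‖ ≤ 2 * (κ * ‖x‖ / k) :=
    (masa_norm_cay_sub_one hS).trans (by linarith)
  refine ⟨cay S, hU, fun y h1 h2 => masa_commute_cay hS (hcomm y h1 h2), hU1, ?_⟩
  have huU : u * cay S = cay S * u := masa_commute_cay hS (hcomm u rfl hux)
  have hll : conj l * l = 1 := by
    rw [mul_comm, mul_conj, normSq_eq_norm_sq, hl]; simp
  set R : A := (cay S ^ k - 1 - (k : ℂ) • (cay S - 1)) + (k : ℂ) • (cay S - 1 - (2 * I) • S)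
    with hR
  have hRn : ‖R‖ ≤ 6 * ‖x‖ ^ 2 * κ ^ 2 := by
    have h1 := masa_pow_expansion (norm_unitary_le hU) k
    have h2 := masa_norm_cay_exp hS
    have h3 : ‖cay S - 1‖ ^ 2 ≤ (2 * (κ * ‖x‖ / k)) ^ 2 := by gcongr
    have h4 : ‖S‖ ^ 2 ≤ (κ * ‖x‖ / k) ^ 2 := by gcongr
    have h5 : (k : ℝ) ^ 2 * (2 * (κ * ‖x‖ / k)) ^ 2 = 4 * ‖x‖ ^ 2 * κ ^ 2 := by
      field_simp; ring
    have h6 : (k : ℝ) * (2 * (κ * ‖x‖ / k) ^ 2) ≤ 2 * ‖x‖ ^ 2 * κ ^ 2 := by
      have h7 : (1 : ℝ) ≤ k := Nat.one_le_cast.2 hk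
      have h8 : (k : ℝ) * (2 * (κ * ‖x‖ / k) ^ 2) = 2 * ‖x‖ ^ 2 * κ ^ 2 / k := by
        field_simp
      rw [h8]
      exact div_le_self (by positivity) h7
    refine (norm_add_le _ _).trans ?_
    rw [norm_smul, Complex.norm_natCast]
    have h9 : (k : ℝ) ^ 2 * ‖cay S - 1‖ ^ 2 ≤ 4 * ‖x‖ ^ 2 * κ ^ 2 := by
      rw [← h5]; gcongr
    have h10 : (k : ℝ) * ‖cay S - 1 - (2 * I) • S‖ ≤ 2 * ‖x‖ ^ 2 * κ ^ 2 := by
      refine le_trans ?_ h6
      gcongr
      linarith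
    linarith
  have hUk : cay S ^ k = 1 + ((k : ℂ) * (2 * I)) • S + R := by
    rw [hR, mul_smul]
    simp only [smul_sub]
    abel
  have hkS : ((k : ℂ) * (2 * I)) • S =
      (I * κ * l) • (star (u ^ k) * x) + (I * κ * conj l) • (u ^ k * x) := by
    rw [hSdef, smul_smul, smul_add, smul_smul, smul_smul]
    congr 2 <;> field_simp
  have hmain : (-I * conj l) • (u * cay S) ^ k - ((-I * conj l) • u ^ k + (κ : ℂ) • x +
      ((κ : ℂ) * conj l ^ 2) • (u ^ k * (u ^ k * x))) = (-I * conj l) • (u ^ k * R) := by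
    rw [Commute.mul_pow huU, hUk, hkS, mul_add, mul_add, mul_add, mul_one, mul_smul_comm,
      mul_smul_comm, ← mul_assoc (u ^ k) (star _), huk.2, one_mul, smul_add, smul_add, smul_add,
      smul_smul, smul_smul]
    have e1 : -I * conj l * (I * κ * l) = κ := by
      linear_combination (κ : ℂ) * hll - (κ : ℂ) * (conj l * l) * I_mul_I
    have e2 : -I * conj l * (I * κ * conj l) = κ * conj l ^ 2 := by
      linear_combination -(κ : ℂ) * (conj l) ^ 2 * I_mul_I
    rw [e1, e2]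
    abel
  rw [hmain, norm_smul]
  have h1 : ‖-I * conj l‖ = 1 := by simp [hl]
  rw [h1, one_mul]
  exact ((norm_mul_le _ _).trans (mul_le_of_le_one_left (norm_nonneg _)
    (norm_unitary_le huk))).trans hRn

lemma masa_keyProp (T : TrModel A K) (A0 : Set A)
    (hcomm : ∀ a b : A, (∀ c ∈ A0, c * a = a * c) → (∀ c ∈ A0, c * b = b * c) → a * b = b * a)
    {x : A} (hx : IsSelfAdjoint x) (hx0 : ∀ c ∈ A0, c * x = x * c) :
    T.KeyProp {u | u ∈ unitary A ∧ ∀ c ∈ A0, c * u = u * c} ∅ x := by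
  refine ⟨6 * ‖x‖ ^ 2 + 1, fun u hu κ hκ hκ1 ε hε => ?_⟩
  obtain ⟨k, hk⟩ := exists_nat_gt (4 * ‖x‖ ^ 2 / ε + 1)
  have hk1 : (1 : ℝ) < k := lt_of_le_of_lt (le_add_of_nonneg_left (by positivity)) hk
  have hk0 : 0 < k := by exact_mod_cast (zero_lt_one.trans hk1)
  let l : Fin 4 → ℂ := ![1, I, -1, -I]
  have hl : ∀ φ, ‖l φ‖ = 1 := by intro φ; fin_cases φ <;> simp [l]
  choose U hU hUc hU1 hU2 using fun φ =>
    masa_step hu.1 hx (hcomm u x hu.2 hx0) hκ hk0 (hl φ)
  refine ⟨Fin 4, inferInstance, inferInstance, fun φ => u * U φ,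
    fun φ => (-I * conj (l φ)) • (u * U φ) ^ k, fun φ => ⟨mul_mem hu.1 (hU φ), fun c hc => ?_⟩,
    fun φ => ?_, ?_, ?_, ?_⟩
  · rw [← mul_assoc, hu.2 c hc, mul_assoc, hUc φ c (hu.2 c hc) (hx0 c hc), mul_assoc]
  · exact SMulMemClass.smul_mem _ (pow_mem (StarAlgebra.subset_adjoin ℂ _ (by simp)) k)
  · have h1 : Ex (fun φ => (-I * conj (l φ)) • u ^ k + (κ : ℂ) • x +
        ((κ : ℂ) * conj (l φ) ^ 2) • (u ^ k * (u ^ k * x))) = (κ : ℂ) • x := by
      rw [Ex_add, Ex_add, Ex_const]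
      have e1 : Ex (fun φ => (-I * conj (l φ)) • u ^ k) = 0 := by
        simp only [Ex, ← Finset.sum_smul, Fin.sum_univ_four, l]
        simp
      have e2 : Ex (fun φ => ((κ : ℂ) * conj (l φ) ^ 2) • (u ^ k * (u ^ k * x))) = 0 := by
        simp only [Ex, ← Finset.sum_smul, Fin.sum_univ_four, l]
        simp
      rw [e1, e2, zero_add, add_zero]
    rw [← h1, ← Ex_sub]
    refine (T.norm_le _).trans ((norm_Ex_le_const hU2).trans ?_)
    nlinarith [sq_nonneg κ]
  · refine Ex_le_const fun φ => ?_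
    have h1 : ‖T.ι ((-I * conj (l φ)) • (u * U φ) ^ k)‖ = 1 := by
      rw [map_smul, norm_smul, T.norm_unitary (pow_mem (mul_mem hu.1 (hU φ)) k)]
      simp [hl]
    rw [h1]
    nlinarith [sq_nonneg ‖x‖]
  · refine Ex_le_const fun φ => ?_
    have h1 : ‖T.ι (u * U φ - u)‖ ≤ 2 * (κ * ‖x‖ / k) := by
      rw [show u * U φ - u = u * (U φ - 1) by noncomm_ring, T.norm_unitary_mul hu.1]
      exact (T.norm_le _).trans (hU1 φ)
    have h2 : 2 * (κ * ‖x‖ / k) ≤ 2 * (‖x‖ / k) := by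
      gcongr
      exact mul_le_of_le_one_left (norm_nonneg _) hκ1
    have h3 : ‖T.ι (u * U φ - u)‖ ^ 2 ≤ (2 * (‖x‖ / k)) ^ 2 := by
      gcongr; exact h1.trans h2
    refine h3.trans ?_
    have h4 : (2 * (‖x‖ / k)) ^ 2 = 4 * ‖x‖ ^ 2 / k / k := by field_simp; ring
    have h5 : 4 * ‖x‖ ^ 2 / k ≤ ε := by
      rw [div_le_iff₀ (by linarith)]
      have : 4 * ‖x‖ ^ 2 / ε < k := by linarith
      rw [div_lt_iff₀ hε] at this
      linarith
    rw [h4]
    exact (div_le_self (by positivity) hk1.le).trans h5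

theorem exists_masa_generator (T : TrModel A K) (hsep : T.Sep) (s : ℕ → A)
    (hs : ∀ j, IsSelfAdjoint (s j)) (hc : ∀ i j, s i * s j = s j * s i) :
    ∃ w ∈ unitary A, (∀ j, s j ∈ T.cl2 (StarAlgebra.adjoin ℂ {w})) ∧
      ∀ a b : A, w * a = a * w → w * b = b * w → a * b = b * a := by
  obtain ⟨A0, hsA, hmax⟩ := zorn_subset_nonempty
    {M : Set A | (∀ a ∈ M, IsSelfAdjoint a) ∧ ∀ a ∈ M, ∀ b ∈ M, a * b = b * a}
    (by
      intro c hc hchain _
      refine ⟨⋃₀ c, ⟨?_, ?_⟩, fun s hs => Set.subset_sUnion_of_mem hs⟩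
      · rintro a ⟨M, hM, ha⟩
        exact (hc hM).1 a ha
      · rintro a ⟨M, hM, ha⟩ b ⟨N, hN, hb⟩
        rcases hchain.total hM hN with h | h
        · exact (hc hN).2 a (h ha) b hb
        · exact (hc hM).2 a ha b (h hb))
    (Set.range s) ⟨by rintro _ ⟨j, rfl⟩; exact hs j, by
      rintro _ ⟨i, rfl⟩ _ ⟨j, rfl⟩; exact hc i j⟩
  have hA0 := hmax.prop
  have hmem : ∀ c : A, IsSelfAdjoint c → (∀ b ∈ A0, b * c = c * b) → c ∈ A0 := by
    intro c h1 h2
    have : insert c A0 ⊆ A0 := by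
      refine hmax.le_of_ge ⟨?_, ?_⟩ (Set.subset_insert _ _)
      · rintro a (rfl | ha)
        · exact h1
        · exact hA0.1 a ha
      · rintro a (rfl | ha) b (rfl | hb)
        · rfl
        · exact (h2 b hb).symm
        · exact h2 a ha
        · exact hA0.2 a ha b hb
    exact this (Set.mem_insert _ _)
  have hcomm : ∀ a b : A, (∀ c ∈ A0, c * a = a * c) → (∀ c ∈ A0, c * b = b * c) →
      a * b = b * a := by
    intro a b ha hb
    obtain ⟨a1, a2, h1, h2, h3, h4⟩ := masa_parts a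
    have h5 : ∀ c ∈ A0, c * star a = star a * c := by
      intro c hc
      have := congrArg star (ha c hc)
      simp only [star_mul, (hA0.1 c hc).star_eq] at this
      exact this.symm
    have m1 := hmem a1 h1 fun c hc => (h4 c (ha c hc) (h5 c hc)).1
    have m2 := hmem a2 h2 fun c hc => (h4 c (ha c hc) (h5 c hc)).2
    rw [h3, add_mul, mul_add, smul_mul_assoc, mul_smul_comm, hb a1 m1, hb a2 m2]
  obtain ⟨w, hw, hwA, -⟩ := generic_dense T hsep
    (D := {u | u ∈ unitary A ∧ ∀ c ∈ A0, c * u = u * c}) (S₀ := ∅) (fun u hu => hu.1)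
    (fun x a hx ha => ⟨T.mem_unitary_of_tendsto (fun n => (hx n).1) ha,
      fun c hc => T.commute_of_tendsto (fun n => (hx n).2 c hc) ha⟩) A0
    (fun x hx => masa_keyProp T A0 hcomm (hA0.1 x hx) (fun c hc => hA0.2 c hc x hx))
    1 ⟨one_mem _, fun c _ => by rw [mul_one, one_mul]⟩ 1 one_pos
  simp only [Set.empty_union] at hwA
  have hwc : ∀ a : A, w * a = a * w → ∀ c ∈ A0, c * a = a * c := by
    intro a ha c hc
    have hle : StarAlgebra.adjoin ℂ {w} ≤ StarSubalgebra.centralizer ℂ {a} := by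
      refine StarAlgebra.adjoin_le ?_
      rintro _ rfl
      rw [SetLike.mem_coe, StarSubalgebra.mem_centralizer_iff]
      rintro _ rfl
      exact ⟨ha.symm, (masa_star_comm hw.1 ha).symm⟩
    rw [← sub_eq_zero]
    refine T.eq_zero_of_forall_norm_le fun ε hε => ?_
    obtain ⟨b, hb, hcb⟩ := T.mem_cl2.1 (hwA c hc) (ε / (2 * (‖a‖ + 1))) (by positivity)
    have hba : a * b = b * a :=
      ((StarSubalgebra.mem_centralizer_iff ℂ).1 (hle hb) a rfl).1
    rw [show c * a - a * c = (c - b) * a - a * (c - b) by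
      rw [sub_mul, mul_sub, hba]; abel, map_sub]
    have h1 := T.norm_mul_le' (c - b) a
    have h2 := T.norm_mul_le a (c - b)
    have h3 := norm_sub_le (T.ι ((c - b) * a)) (T.ι (a * (c - b)))
    rw [lt_div_iff₀ (by positivity)] at hcb
    nlinarith [norm_nonneg a, norm_nonneg (T.ι (c - b))]
  exact ⟨w, hw.1, fun j => hwA _ (hsA ⟨j, rfl⟩), fun a b ha hb => hcomm a b (hwc a ha) (hwc b hb)⟩

lemma masa_comm_le (T : TrModel A K) (a : A) {c : A} (hc : ‖c‖ ≤ 1) :
    ‖T.ι (a * c - c * a)‖ ≤ 2 * ‖T.ι a‖ := by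
  rw [map_sub]
  linarith [norm_sub_le (T.ι (a * c)) (T.ι (c * a)), T.norm_mul_le_of_right a hc,
    T.norm_mul_le_of_left hc a]

lemma masa_comm_le' (a : A) {c : A} (hc : ‖c‖ ≤ 1) : ‖c * a - a * c‖ ≤ 2 * ‖a‖ := by
  have h1 : ‖c * a‖ ≤ ‖a‖ := (norm_mul_le _ _).trans (mul_le_of_le_one_left (norm_nonneg _) hc)
  have h2 : ‖a * c‖ ≤ ‖a‖ := (norm_mul_le _ _).trans (mul_le_of_le_one_right (norm_nonneg _) hc)
  linarith [norm_sub_le (c * a) (a * c)]

/-- the second-order estimate -/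
lemma masa_estimate (T : TrModel A K) {u0 u' c0 c' h : A} (hu0 : u0 ∈ unitary A)
    (hu' : u' ∈ unitary A) (hc0 : IsSelfAdjoint c0) (hh : IsSelfAdjoint h) (nc0 : ‖c0‖ ≤ 1)
    (nc' : ‖c'‖ ≤ 1) (nh : ‖h‖ ≤ 1) (e0 : u0 * c0 = c0 * u0) (e' : u' * c' = c' * u')
    (ecc : c0 * c' = c' * c0) {t : ℝ} (ht : 0 < t)
    (hd : ‖T.ι (u' - u0 * cay ((t : ℂ) • h))‖ ≤ t ^ 2) :
    ‖T.ι (c0 * h - h * c0)‖ ^ 2 ≤ 2 * ‖T.ι (c' - c0)‖ * ‖T.ι (c0 * h - h * c0)‖ + 14 * t := by
  have hS : IsSelfAdjoint ((t : ℂ) • h) := by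
    rw [IsSelfAdjoint, star_smul, hh.star_eq]; simp
  have nS : ‖(t : ℂ) • h‖ ≤ t := by
    rw [norm_smul, Complex.norm_real, Real.norm_of_nonneg ht.le]
    exact mul_le_of_le_one_right ht.le nh
  set V := cay ((t : ℂ) • h) with hV
  have hVu : V ∈ unitary A := cay_mem_unitary hS
  have n1 : ‖V - 1‖ ≤ 2 * t := (masa_norm_cay_sub_one hS).trans (by linarith)
  have n2 : ‖V - 1 - (2 * I) • (t : ℂ) • h‖ ≤ 2 * t ^ 2 :=
    (masa_norm_cay_exp hS).trans (by gcongr)
  set D := c0 * h - h * c0 with hD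
  set X := star u' * c0 * u' with hX
  set Y := star V * c0 * V with hY
  have hXc : X * c' = c' * X := by
    have := masa_star_comm' hu' e'
    rw [hX, mul_assoc, e', ← mul_assoc, mul_assoc (star u'), ecc, ← mul_assoc, this]
    noncomm_ring
  have hY' : Y = star (u0 * V) * c0 * (u0 * V) := by
    rw [hY, star_mul]
    calc star V * c0 * V = star V * (star u0 * u0) * c0 * V := by rw [hu0.1, mul_one]
      _ = star V * star u0 * (u0 * c0) * V := by noncomm_ring
      _ = _ := by rw [e0]; noncomm_ring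
  have huV : u0 * V ∈ unitary A := mul_mem hu0 hVu
  have nXY : ‖T.ι (Y - X)‖ ≤ 2 * t ^ 2 := by
    have : Y - X = -(star (u' - u0 * V) * c0 * u' + star (u0 * V) * c0 * (u' - u0 * V)) := by
      rw [hY', hX, star_sub]; noncomm_ring
    rw [this, map_neg, norm_neg, map_add]
    refine (norm_add_le _ _).trans ?_
    have a1 : ‖T.ι (star (u' - u0 * V) * c0 * u')‖ ≤ t ^ 2 := by
      rw [T.norm_mul_unitary _ hu']
      refine (T.norm_mul_le_of_right _ nc0).trans ?_
      rwa [T.norm_star]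
    have a2 : ‖T.ι (star (u0 * V) * c0 * (u' - u0 * V))‖ ≤ t ^ 2 := by
      rw [mul_assoc, T.norm_unitary_mul (Unitary.star_mem huV)]
      exact (T.norm_mul_le_of_left nc0 _).trans hd
    linarith
  set R2 := V - 1 - (2 * I) • (t : ℂ) • h with hR2
  set R3 := (c0 * R2 - R2 * c0) + star (V - 1) * (c0 * (V - 1) - (V - 1) * c0) with hR3
  have nR3 : ‖R3‖ ≤ 12 * t ^ 2 := by
    have a1 := masa_comm_le' R2 nc0
    have a2 := masa_comm_le' (V - 1) nc0
    have a3 : ‖star (V - 1) * (c0 * (V - 1) - (V - 1) * c0)‖ ≤ (2 * t) * (2 * (2 * t)) := by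
      refine (norm_mul_le _ _).trans ?_
      rw [norm_star]
      gcongr
      linarith
    refine (norm_add_le _ _).trans ?_
    nlinarith
  have hYc : Y = c0 + (2 * I * t) • D + R3 := by
    have b1 : Y = c0 + star V * (c0 * (V - 1) - (V - 1) * c0) := by
      have : star V * (c0 * (V - 1) - (V - 1) * c0) = star V * c0 * V - (star V * V) * c0 := by
        noncomm_ring
      rw [this, hVu.1, one_mul, hY]; abel
    have b2 : c0 * (V - 1) - (V - 1) * c0 = (2 * I * t) • D + (c0 * R2 - R2 * c0) := by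
      rw [hR2, hD, smul_smul]
      simp only [mul_sub, sub_mul, mul_smul_comm, smul_mul_assoc, smul_sub]
      abel
    have b3 : star V = 1 + star (V - 1) := by rw [star_sub, star_one]; abel
    rw [b1, hR3]
    nth_rewrite 1 [b3]
    rw [add_mul, one_mul]
    nth_rewrite 1 [b2]
    abel
  have key : (2 * I * t) • (D * c' - c' * D) =
      ((Y - X) * c' - c' * (Y - X)) - (R3 * c' - c' * R3) := by
    rw [sub_mul Y X c', mul_sub c' Y X, hXc, hYc]
    simp only [add_mul, mul_add, smul_mul_assoc, mul_smul_comm, smul_sub, ecc]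
    abel
  have nD : ‖T.ι (D * c' - c' * D)‖ ≤ 14 * t := by
    have a1 : ‖T.ι ((2 * I * t) • (D * c' - c' * D))‖ = 2 * t * ‖T.ι (D * c' - c' * D)‖ := by
      rw [map_smul, norm_smul]
      simp [abs_of_pos ht]
    have a2 := masa_comm_le T (Y - X) nc'
    have a3 := masa_comm_le T R3 nc'
    have a4 := T.norm_le R3
    have a5 : ‖T.ι ((2 * I * t) • (D * c' - c' * D))‖ ≤ 28 * t ^ 2 := by
      rw [key, map_sub]
      refine (norm_sub_le _ _).trans ?_
      linarith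
    rw [a1] at a5
    nlinarith
  have hDs : star D = -D := by
    rw [hD, star_sub, star_mul, star_mul, hc0.star_eq, hh.star_eq]; abel
  have t1 : T.τ (h * (D * c' - c' * D)) =
      -T.τ (star D * D) + T.τ (((c' - c0) * h - h * (c' - c0)) * D) := by
    have a1 : T.τ (h * (D * c')) = T.τ (c' * h * D) := by
      rw [← mul_assoc, T.τ_comm, mul_assoc]
    rw [mul_sub, map_sub, a1, hDs, ← map_sub, ← map_neg, ← map_add]
    congr 1
    rw [hD]; noncomm_ring
  have t2 : ‖T.τ (h * (D * c' - c' * D))‖ ≤ 14 * t := by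
    refine (T.norm_τ_mul_le _ _).trans ?_
    have := (T.norm_le h).trans nh
    nlinarith [norm_nonneg (T.ι (D * c' - c' * D)), norm_nonneg (T.ι h)]
  have t3 : ‖T.τ (((c' - c0) * h - h * (c' - c0)) * D)‖ ≤ 2 * ‖T.ι (c' - c0)‖ * ‖T.ι D‖ := by
    refine (T.norm_τ_mul_le _ _).trans ?_
    gcongr
    exact masa_comm_le T _ nh
  have t4 : ‖T.τ (star D * D)‖ = ‖T.ι D‖ ^ 2 := by
    rw [T.τ_star_mul_self, Complex.norm_real, Real.norm_of_nonneg (sq_nonneg _)]
  have t5 : T.τ (star D * D) = T.τ (((c' - c0) * h - h * (c' - c0)) * D) -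
      T.τ (h * (D * c' - c' * D)) := by rw [t1]; ring
  rw [← t4, t5]
  exact (norm_sub_le _ _).trans (add_le_add t3 t2)

theorem exists_irr_pair (T : TrModel A K) (hsep : T.Sep) (hf : IsFactorAlg A) {w : A}
    (hw : w ∈ unitary A) (hcomm : ∀ a b : A, w * a = a * w → w * b = b * w → a * b = b * a) :
    ∃ u ∈ unitary A, ∀ y : A, w * y = y * w → u * y = y * u → ∃ c : ℂ, y = c • (1 : A) := by
  obtain ⟨z, -, hz⟩ := T.exists_dense_seq hsep (Set.univ : Set A) Set.univ_nonempty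
  let Kb : ℕ → ℕ → Set A := fun n l => {u | ∃ c h : A, IsSelfAdjoint c ∧ IsSelfAdjoint h ∧
    ‖c‖ ≤ 1 ∧ ‖h‖ ≤ 1 ∧ w * c = c * w ∧ u * c = c * u ∧
    ‖T.ι (c - z n)‖ < 1 / ((l : ℝ) + 1) / 100 ∧ 1 / ((l : ℝ) + 1) ≤ ‖T.ι (c * h - h * c)‖}
  let O : ℕ → Set A := fun k => {u | ∃ δ : ℝ, 0 < δ ∧ ∀ v ∈ unitary A, ‖T.ι (v - u)‖ < δ →
    v ∉ Kb k.unpair.1 k.unpair.2}
  have tri : ∀ a b c : A, ‖T.ι (a - c)‖ ≤ ‖T.ι (a - b)‖ + ‖T.ι (b - c)‖ := by
    intro a b c
    rw [show a - c = (a - b) + (b - c) by abel, map_add]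
    exact norm_add_le _ _
  obtain ⟨u, hu, huO, -⟩ := baire T (D := (unitary A : Set A)) subset_rfl
    (fun x a hx ha => T.mem_unitary_of_tendsto hx ha) O
    (by
      rintro k u - ⟨δ, hδ, h⟩
      refine ⟨δ / 2, by positivity, fun v _ hv => ⟨δ / 2, by positivity, fun v' hv' hvv => ?_⟩⟩
      exact h v' hv' (by linarith [tri v' v u]))
    (by
      intro k u hu ε hε
      by_contra hcon
      have hK : ∀ v ∈ unitary A, ‖T.ι (v - u)‖ < ε → ∀ δ : ℝ, 0 < δ →
          ∃ v' ∈ unitary A, ‖T.ι (v' - v)‖ < δ ∧ v' ∈ Kb k.unpair.1 k.unpair.2 := by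
        intro v hv hvu δ hδ
        by_contra h2
        push Not at h2
        exact hcon ⟨v, hv, ⟨δ, hδ, h2⟩, hvu⟩
      obtain ⟨u0, hu0, hu0u, c0, h, s1, s2, n1, n2, w1, e0, d0, m0⟩ :=
        hK u hu (by simpa using hε) (ε / 2) (by positivity)
      set a : ℝ := 1 / ((k.unpair.2 : ℝ) + 1) with ha
      have ha0 : 0 < a := by positivity
      set t : ℝ := min (ε / 8) (a ^ 2 / 28) with ht
      have ht0 : 0 < t := lt_min (by positivity) (by positivity)
      have ht1 : t ≤ ε / 8 := min_le_left _ _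
      have ht2 : t ≤ a ^ 2 / 28 := min_le_right _ _
      have hS : IsSelfAdjoint ((t : ℂ) • h) := by
        rw [IsSelfAdjoint, star_smul, s2.star_eq]; simp
      have nS : ‖(t : ℂ) • h‖ ≤ t := by
        rw [norm_smul, Complex.norm_real, Real.norm_of_nonneg ht0.le]
        exact mul_le_of_le_one_right ht0.le n2
      have hV : ‖T.ι (u0 * cay ((t : ℂ) • h) - u0)‖ ≤ 2 * t := by
        rw [show u0 * cay ((t : ℂ) • h) - u0 = u0 * (cay ((t : ℂ) • h) - 1) by noncomm_ring,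
          T.norm_unitary_mul hu0]
        exact (T.norm_le _).trans ((masa_norm_cay_sub_one hS).trans (by linarith))
      obtain ⟨u', hu', hu'd, c', h', s1', -, n1', -, w1', e', d', -⟩ :=
        hK (u0 * cay ((t : ℂ) • h)) (mul_mem hu0 (cay_mem_unitary hS))
          (by linarith [tri (u0 * cay ((t : ℂ) • h)) u0 u]) (t ^ 2) (by positivity)
      have est := masa_estimate T hu0 hu' s1 s2 n1 n1' n2 e0 e' (hcomm c0 c' w1 w1') ht0 hu'd.le
      have hcc : ‖T.ι (c' - c0)‖ ≤ a / 50 := by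
        have h1 := tri c' (z k.unpair.1) c0
        have h2 : ‖T.ι (z k.unpair.1 - c0)‖ = ‖T.ι (c0 - z k.unpair.1)‖ := by
          rw [← neg_sub, map_neg, norm_neg]
        linarith
      set m := ‖T.ι (c0 * h - h * c0)‖
      have h3 : 2 * ‖T.ι (c' - c0)‖ * m ≤ 2 * (a / 50) * m := by gcongr
      nlinarith)
    1 (one_mem _) 1 one_pos
  refine ⟨u, hu, fun y hwy huy => hf y fun v => ?_⟩
  have main : ∀ c h : A, IsSelfAdjoint c → IsSelfAdjoint h → w * c = c * w → u * c = c * u →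
      c * h = h * c := by
    intro c h sc sh wc uc
    by_contra hne
    have norm_le_one : ∀ b : A, ‖(((‖b‖ + 1)⁻¹ : ℝ) : ℂ) • b‖ ≤ 1 := by
      intro b
      rw [norm_smul, Complex.norm_real, Real.norm_of_nonneg (by positivity),
        inv_mul_le_iff₀ (by positivity)]
      linarith
    have sa : ∀ b : A, IsSelfAdjoint b → IsSelfAdjoint ((((‖b‖ + 1)⁻¹ : ℝ) : ℂ) • b) := by
      intro b hb
      rw [IsSelfAdjoint, star_smul, hb.star_eq, Complex.star_def, conj_ofReal]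
    set c1 := (((‖c‖ + 1)⁻¹ : ℝ) : ℂ) • c with hc1
    set h1 := (((‖h‖ + 1)⁻¹ : ℝ) : ℂ) • h with hh1
    have hpos : 0 < ‖T.ι (c1 * h1 - h1 * c1)‖ := by
      refine lt_of_le_of_ne (norm_nonneg _) fun h0 => hne ?_
      have h2 := T.eq_zero_of_norm h0.symm
      rw [hc1, hh1, smul_mul_smul_comm, smul_mul_smul_comm, mul_comm (((‖h‖ + 1)⁻¹ : ℝ) : ℂ),
        ← smul_sub, smul_eq_zero] at h2
      rcases h2 with h2 | h2
      · exfalso
        have a1 : (0 : ℝ) < (‖c‖ + 1)⁻¹ * (‖h‖ + 1)⁻¹ := by positivity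
        rw [← ofReal_mul, ofReal_eq_zero] at h2
        exact a1.ne' h2
      · exact sub_eq_zero.1 h2
    obtain ⟨l, hl⟩ := exists_nat_one_div_lt hpos
    obtain ⟨n, hn⟩ := hz c1 (Set.mem_univ _) (1 / ((l : ℝ) + 1) / 100) (by positivity)
    obtain ⟨δ, hδ, hO⟩ := huO (Nat.pair n l)
    rw [Nat.unpair_pair] at hO
    refine hO u hu (by simpa using hδ) ⟨c1, h1, sa c sc, sa h sh, norm_le_one c, norm_le_one h,
      ?_, ?_, hn, hl.le⟩
    · rw [hc1, mul_smul_comm, smul_mul_assoc, wc]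
    · rw [hc1, mul_smul_comm, smul_mul_assoc, uc]
  obtain ⟨y1, y2, sy1, sy2, hy, hy'⟩ := masa_parts y
  obtain ⟨v1, v2, sv1, sv2, hv, -⟩ := masa_parts v
  obtain ⟨w1, w2⟩ := hy' w hwy (masa_star_comm hw hwy)
  obtain ⟨u1, u2⟩ := hy' u huy (masa_star_comm hu huy)
  rw [hy, hv]
  simp only [add_mul, mul_add, smul_mul_assoc, mul_smul_comm, main y1 v1 sy1 sv1 w1 u1,
    main y1 v2 sy1 sv2 w1 u1, main y2 v1 sy2 sv1 w2 u2, main y2 v2 sy2 sv2 w2 u2, smul_add]
  abel

end Crest.Agent.R95
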