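import Crest.Agent.R95.Halving

/-! Commuting orthogonal symmetries and 4 × 4 matrix units. -/

set_option autoImplicit false

namespace Crest.Agent.R95

open scoped InnerProductSpace ComplexConjugate Topology
open Filter Complex

variable {A : Type*} [CStarAlgebra A] {K : Type*} [NormedAddCommGroup K] [InnerProductSpace ℂ K]

/-- spans of finite partitions of unity by projections -/
def UnitsGood (V : Submodule ℂ A) : Prop :=
  ∃ (ι : Type) (_ : Fintype ι) (p : ι → A), (∀ i, IsStarProjection (p i)) ∧
    (∀ i j, i ≠ j → p i * p j = 0) ∧ ∑ i, p i = 1 ∧ V = Submodule.span ℂ (Set.range p)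

theorem units_halves (T : TrModel A K) (hf : IsFactorAlg A) (hinf : ¬ FiniteDimensional ℂ A)
    {p : A} (hp : IsStarProjection p) :
    ∃ q : Bool → A, (∀ b, IsStarProjection (q b)) ∧ q true * q false = 0 ∧ q false * q true = 0 ∧
      q true + q false = p ∧ T.τ (q true) = T.τ (q false) := by
  obtain ⟨w, h1, h2, h3⟩ := exists_halving T hf hinf hp
  have h1' : star w * star w = 0 := by rw [← star_mul, h1, star_zero]
  refine ⟨fun b => bif b then w * star w else star w * w, fun b => ?_, ?_, ?_, ?_, ?_⟩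
  · cases b
    · refine ⟨?_, IsSelfAdjoint.star_mul_self w⟩
      change star w * w * (star w * w) = star w * w
      rw [mul_assoc, ← mul_assoc w, h2]
    · refine ⟨?_, IsSelfAdjoint.mul_star_self w⟩
      change w * star w * (w * star w) = w * star w
      rw [← mul_assoc, h2]
  · change w * star w * (star w * w) = 0
    rw [mul_assoc, ← mul_assoc (star w), h1', zero_mul, mul_zero]
  · change star w * w * (w * star w) = 0
    rw [mul_assoc, ← mul_assoc w, h1, zero_mul, mul_zero]
  · change w * star w + star w * w = p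
    rw [add_comm, h3]
  · exact T.τ_comm _ _

theorem units_step (T : TrModel A K) (hf : IsFactorAlg A) (hinf : ¬ FiniteDimensional ℂ A)
    (V : Submodule ℂ A) (hV : UnitsGood V) :
    ∃ (V' : Submodule ℂ A) (s : A), UnitsGood V' ∧ V ≤ V' ∧ s ∈ V' ∧ IsSelfAdjoint s ∧ s * s = 1 ∧
      ∀ v ∈ V, v * s = s * v ∧ T.τ (v * s) = 0 := by
  classical
  obtain ⟨ι, _, p, hp, hpo, hp1, rfl⟩ := hV
  choose q hq hq1 hq2 hq3 hq4 using fun i => units_halves T hf hinf (hp i)
  have hqp : ∀ i b, q i b * p i = q i b := by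
    intro i b
    rw [← hq3 i, mul_add]
    cases b
    · rw [hq2, (hq i false).isIdempotentElem.eq, zero_add]
    · rw [hq1, (hq i true).isIdempotentElem.eq, add_zero]
  have hpq : ∀ i b, p i * q i b = q i b := by
    intro i b
    rw [← hq3 i, add_mul]
    cases b
    · rw [hq1, (hq i false).isIdempotentElem.eq, zero_add]
    · rw [hq2, (hq i true).isIdempotentElem.eq, add_zero]
  let r : ι × Bool → A := fun k => q k.1 k.2
  have hro : ∀ k l, k ≠ l → r k * r l = 0 := by
    rintro ⟨i, b⟩ ⟨j, c⟩ hkl
    by_cases hij : i = j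
    · subst hij
      cases b <;> cases c
      · exact absurd rfl hkl
      · exact hq2 i
      · exact hq1 i
      · exact absurd rfl hkl
    · change q i b * q j c = 0
      rw [← hqp i b, ← hpq j c, mul_assoc, ← mul_assoc (p i), hpo i j hij, zero_mul, mul_zero]
  have hr1 : ∑ k, r k = 1 := by
    rw [Fintype.sum_prod_type, ← hp1]
    refine Finset.sum_congr rfl fun i _ => ?_
    rw [Fintype.sum_bool]
    exact hq3 i
  let σ : ι × Bool → ℂ := fun k => bif k.2 then 1 else -1
  have hσ : ∀ k, σ k * σ k = 1 := by rintro ⟨i, _ | _⟩ <;> simp [σ]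
  have hσ' : ∀ k, star (σ k) = σ k := by rintro ⟨i, _ | _⟩ <;> simp [σ]
  let s : A := ∑ k, σ k • r k
  have hrs : ∀ k, r k * s = σ k • r k := by
    intro k
    rw [Finset.mul_sum, Finset.sum_eq_single k]
    · rw [mul_smul_comm, (hq k.1 k.2).isIdempotentElem.eq]
    · intro l _ hl
      rw [mul_smul_comm, hro k l hl.symm, smul_zero]
    · simp
  have hsr : ∀ k, s * r k = σ k • r k := by
    intro k
    rw [Finset.sum_mul, Finset.sum_eq_single k]
    · rw [smul_mul_assoc, (hq k.1 k.2).isIdempotentElem.eq]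
    · intro l _ hl
      rw [smul_mul_assoc, hro l k hl, smul_zero]
    · simp
  have hpr : ∀ i, p i = r (i, true) + r (i, false) := fun i => (hq3 i).symm
  refine ⟨Submodule.span ℂ (Set.range r), s,
    ⟨ι × Bool, inferInstance, r, fun k => hq k.1 k.2, hro, hr1, rfl⟩, ?_, ?_, ?_, ?_, ?_⟩
  · rw [Submodule.span_le]
    rintro _ ⟨i, rfl⟩
    rw [hpr]
    exact Submodule.add_mem _ (Submodule.subset_span ⟨_, rfl⟩) (Submodule.subset_span ⟨_, rfl⟩)
  · exact Submodule.sum_mem _ fun k _ => Submodule.smul_mem _ _ (Submodule.subset_span ⟨_, rfl⟩)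
  · change star s = s
    rw [star_sum]
    refine Finset.sum_congr rfl fun k _ => ?_
    rw [star_smul, hσ', (hq k.1 k.2).isSelfAdjoint.star_eq]
  · nth_rewrite 1 [show s = ∑ k, σ k • r k from rfl]
    rw [Finset.sum_mul, ← hr1]
    refine Finset.sum_congr rfl fun k _ => ?_
    rw [smul_mul_assoc, hrs, smul_smul, hσ, one_smul]
  · intro v hv
    induction hv using Submodule.span_induction with
    | mem x hx =>
      obtain ⟨i, rfl⟩ := hx
      rw [hpr, add_mul, mul_add, hrs, hrs, hsr, hsr]
      refine ⟨rfl, ?_⟩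
      simp [σ, r, hq4 i]
    | zero => simp
    | add x y _ _ hx hy => rw [add_mul, mul_add, map_add, hx.2, hy.2, hx.1, hy.1]; simp
    | smul a x _ hx => rw [smul_mul_assoc, mul_smul_comm, map_smul, hx.2, hx.1]; simp

theorem exists_symmetries (T : TrModel A K) (hf : IsFactorAlg A)
    (hinf : ¬ FiniteDimensional ℂ A) :
    ∃ s : ℕ → A, (∀ j, IsSelfAdjoint (s j) ∧ s j ∈ unitary A) ∧ (∀ i j, s i * s j = s j * s i) ∧
      ∀ i j, i ≠ j → T.τ (s i * s j) = 0 := by
  choose nV ns h1 h2 h3 h4 h5 h6 using units_step T hf hinf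
  have h0 : UnitsGood (Submodule.span ℂ (Set.range fun _ : Unit => (1 : A))) :=
    ⟨Unit, inferInstance, fun _ => 1, fun _ => IsStarProjection.one A,
      fun i j hij => absurd (Subsingleton.elim i j) hij, by simp, rfl⟩
  let nx : {V : Submodule ℂ A // UnitsGood V} → {V : Submodule ℂ A // UnitsGood V} :=
    fun V => ⟨nV V.1 V.2, h1 V.1 V.2⟩
  let V : ℕ → {V : Submodule ℂ A // UnitsGood V} := fun n => nx^[n] ⟨_, h0⟩
  have hV : ∀ n, V (n + 1) = nx (V n) := fun n => Function.iterate_succ_apply' nx n _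
  have hmono : Monotone fun n => (V n).1 := monotone_nat_of_le_succ fun n => by
    rw [hV]; exact h2 _ _
  let s : ℕ → A := fun n => ns (V n).1 (V n).2
  have hs : ∀ i j, i < j → s i ∈ (V j).1 := by
    intro i j hij
    refine hmono (Nat.succ_le_of_lt hij) ?_
    change s i ∈ (V (i + 1)).1
    rw [hV]; exact h3 _ _
  have hc : ∀ i j, i < j → s i * s j = s j * s i ∧ T.τ (s i * s j) = 0 := fun i j hij =>
    h6 _ _ _ (hs i j hij)
  refine ⟨s, fun j => ⟨h4 _ _, ?_⟩, fun i j => ?_, fun i j hij => ?_⟩
  · rw [Unitary.mem_iff, (h4 (V j).1 (V j).2).star_eq]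
    exact ⟨h5 _ _, h5 _ _⟩
  · rcases lt_trichotomy i j with h | h | h
    · exact (hc i j h).1
    · rw [h]
    · exact (hc j i h).1.symm
  · rcases lt_or_gt_of_ne hij with h | h
    · exact (hc i j h).2
    · rw [T.τ_comm]; exact (hc j i h).2

theorem exists_matrix_units (T : TrModel A K) (hf : IsFactorAlg A)
    (hinf : ¬ FiniteDimensional ℂ A) :
    ∃ e : Fin 4 → Fin 4 → A, (∀ i j, star (e i j) = e j i) ∧
      (∀ i j k l, e i j * e k l = if j = k then e i l else 0) ∧ ∑ i, e i i = 1 := by
  obtain ⟨v, v1, v2, v3⟩ := exists_halving T hf hinf (IsStarProjection.one A)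
  have hp0 : IsStarProjection (v * star v) := by
    refine ⟨?_, IsSelfAdjoint.mul_star_self v⟩
    change v * star v * (v * star v) = v * star v
    rw [← mul_assoc, v2]
  obtain ⟨w, w1, w2, w3⟩ := exists_halving T hf hinf hp0
  have v1' : star v * star v = 0 := by rw [← star_mul, v1, star_zero]
  have w1' : star w * star w = 0 := by rw [← star_mul, w1, star_zero]
  have w2' : star w * w * star w = star w := by
    simpa [mul_assoc] using congrArg star w2
  have a1 : w * (v * star v) = w := by
    rw [← w3, mul_add, ← mul_assoc, w2, ← mul_assoc, w1, zero_mul, add_zero]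
  have a2 : star w * (v * star v) = star w := by
    rw [← w3, mul_add, ← mul_assoc, w1', ← mul_assoc, w2', zero_mul, zero_add]
  have b1 : w * star v = 0 := by rw [← a1, mul_assoc, mul_assoc, v1', mul_zero, mul_zero]
  have b2 : star w * star v = 0 := by rw [← a2, mul_assoc, mul_assoc, v1', mul_zero, mul_zero]
  have b3 : v * star w = 0 := by simpa using congrArg star b1
  have b4 : v * w = 0 := by simpa using congrArg star b2
  have c1 : v * (star v * star w) = star w := by simpa [mul_assoc] using congrArg star a1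
  have c2 : v * (star v * w) = w := by simpa [mul_assoc] using congrArg star a2
  have r1 : ∀ z, w * (w * z) = 0 := fun z => by rw [← mul_assoc, w1, zero_mul]
  have r2 : ∀ z, star w * (star w * z) = 0 := fun z => by rw [← mul_assoc, w1', zero_mul]
  have r3 : ∀ z, w * (star w * (w * z)) = w * z := fun z => by
    rw [← mul_assoc, ← mul_assoc, w2]
  have r3' : w * (star w * w) = w := by rw [← mul_assoc, w2]
  have r4 : ∀ z, w * (star v * z) = 0 := fun z => by rw [← mul_assoc, b1, zero_mul]
  have r5 : ∀ z, star w * (star v * z) = 0 := fun z => by rw [← mul_assoc, b2, zero_mul]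
  have r6 : ∀ z, v * (w * z) = 0 := fun z => by rw [← mul_assoc, b4, zero_mul]
  have r7 : ∀ z, v * (star v * (w * z)) = w * z := fun z => by
    rw [← mul_assoc (star v), ← mul_assoc, c2]
  let t : Fin 4 → A := ![w * star w, w, w * star w * v, w * v]
  have ht : ∀ i j, t i * star (t j) = if i = j then w * star w else 0 := by
    intro i j
    fin_cases i <;> fin_cases j <;>
      simp [t, mul_assoc, r1, r2, r3, r4, r5, r6, r7, w1', b3, c1]
  have ht' : ∀ i, w * star w * t i = t i := by
    intro i
    fin_cases i <;> simp [t, mul_assoc, r3, r3']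
  refine ⟨fun i j => star (t i) * t j, fun i j => by simp, fun i j k l => ?_, ?_⟩
  · rw [mul_assoc, ← mul_assoc (t j), ht]
    split_ifs
    · rw [ht']
    · simp
  · have e1 : star v * (w * (star w * v)) + star v * (star w * (w * v)) = star v * v := by
      have : star v * (star w * w + w * star w) * v = star v * v := by
        rw [w3, mul_assoc, v2]
      rw [← this]
      noncomm_ring
    have e2 : w * star w + star w * w = v * star v := by rw [add_comm, w3]
    simp only [Fin.sum_univ_four, t]
    simp only [Matrix.cons_val_zero, Matrix.cons_val_one, Matrix.cons_val, star_mul, star_star,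
      mul_assoc, r3]
    rw [e2, add_assoc, e1, add_comm, v3]

/-- purely algebraic: one element generates the matrix units and three given elements of their
commutant -/
theorem exists_single_of_units {B : Type*} [Ring B] [StarRing B] [Algebra ℂ B] [StarModule ℂ B]
    (e : Fin 4 → Fin 4 → B) (h1 : ∀ i j, star (e i j) = e j i)
    (h2 : ∀ i j k l, e i j * e k l = if j = k then e i l else 0) (h3 : ∑ i, e i i = 1)
    (a b c : B) (ha : ∀ i j, e i j * a = a * e i j) (hb : ∀ i j, e i j * b = b * e i j)
    (hc : ∀ i j, e i j * c = c * e i j) (N : StarSubalgebra ℂ B)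
    (hN : e 0 1 + e 1 2 + e 2 3 + a * e 0 2 + b * e 1 3 + c * e 0 3 ∈ N) :
    (∀ i j, e i j ∈ N) ∧ a ∈ N ∧ b ∈ N ∧ c ∈ N := by
  have hm : ∀ i j k l (z : B), e i j * (e k l * z) = if j = k then e i l * z else 0 := by
    intro i j k l z
    rw [← mul_assoc, h2]
    split_ifs <;> simp
  have ha' : ∀ i j (z : B), e i j * (a * z) = a * (e i j * z) := fun i j z => by
    rw [← mul_assoc, ha, mul_assoc]
  have hb' : ∀ i j (z : B), e i j * (b * z) = b * (e i j * z) := fun i j z => by
    rw [← mul_assoc, hb, mul_assoc]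
  have hc' : ∀ i j (z : B), e i j * (c * z) = c * (e i j * z) := fun i j z => by
    rw [← mul_assoc, hc, mul_assoc]
  set x := e 0 1 + e 1 2 + e 2 3 + a * e 0 2 + b * e 1 3 + c * e 0 3 with hx
  have hst : ∀ i j, e i j ∈ N → e j i ∈ N := fun i j h => by rw [← h1]; exact star_mem h
  have hmul : ∀ i j k, e i j ∈ N → e j k ∈ N → e i k ∈ N := fun i j k h h' => by
    have := mul_mem h h'
    rwa [h2, if_pos rfl] at this
  have x2 : x * x = e 0 2 + e 1 3 + b * e 0 3 + a * e 0 3 := by
    simp [hx, mul_add, add_mul, mul_assoc, ha', hb', hc', h2]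
    abel
  have x3 : x * (x * x) = e 0 3 := by
    rw [x2]
    simp [hx, mul_add, add_mul, mul_assoc, ha', hb', hc', h2]
  have m2 : e 0 2 + e 1 3 + b * e 0 3 + a * e 0 3 ∈ N := x2 ▸ mul_mem hN hN
  have m03 : e 0 3 ∈ N := x3 ▸ mul_mem hN (mul_mem hN hN)
  have m00 : e 0 0 ∈ N := hmul _ _ _ m03 (hst _ _ m03)
  have m33 : e 3 3 ∈ N := hmul _ _ _ (hst _ _ m03) m03
  have m02 : e 0 2 ∈ N := by
    have := mul_mem m00 (mul_mem m2 (sub_mem (one_mem N) m33))
    simpa [mul_add, add_mul, mul_sub, sub_mul, mul_assoc, ha', hb', h2] using this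
  have m13 : e 1 3 ∈ N := by
    have := mul_mem (sub_mem (one_mem N) m00) (mul_mem m2 m33)
    simpa [mul_add, add_mul, mul_sub, sub_mul, mul_assoc, ha', hb', h2] using this
  have m0 : ∀ i, e 0 i ∈ N := by
    intro i
    fin_cases i
    · exact m00
    · exact hmul _ _ _ m03 (hst _ _ m13)
    · exact m02
    · exact m03
  have mall : ∀ i j, e i j ∈ N := fun i j => hmul _ _ _ (hst _ _ (m0 i)) (m0 j)
  have hrec : ∀ (y : B) (k l : Fin 4), (∀ i j (z : B), e i j * (y * z) = y * (e i j * z)) →
      y * e k l ∈ N → y ∈ N := by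
    intro y k l hy hyN
    have : y = ∑ i, e i k * (y * e k l * e l i) := by
      simp only [mul_assoc, hy, h2, if_true]
      rw [← Finset.mul_sum, h3, mul_one]
    rw [this]
    exact sum_mem fun i _ => mul_mem (mall _ _) (mul_mem hyN (mall _ _))
  refine ⟨mall, hrec a 0 2 ha' ?_, hrec b 1 3 hb' ?_, hrec c 0 3 hc' ?_⟩
  · have := mul_mem (mall 0 0) (mul_mem hN (mall 2 2))
    simpa [hx, mul_add, add_mul, mul_assoc, ha', hb', hc', h2] using this
  · have := mul_mem (mall 1 1) (mul_mem hN (mall 3 3))
    simpa [hx, mul_add, add_mul, mul_assoc, ha', hb', hc', h2] using this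
  · have := mul_mem (mall 0 0) (mul_mem hN (mall 3 3))
    simpa [hx, mul_add, add_mul, mul_assoc, ha', hb', hc', h2] using this

end Crest.Agent.R95
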