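import Crest.Agent.R95.Main
import Crest.Agent.R95.Masa
import Crest.Agent.R95.Units

/-! Three generators. -/

set_option autoImplicit false

namespace Crest.Agent.R95

variable {A : Type*} [CStarAlgebra A] {K : Type*} [NormedAddCommGroup K] [InnerProductSpace ℂ K]

theorem exists_three_generators (T : TrModel A K) (hsep : T.Sep) (hf : IsFactorAlg A)
    (hinf : ¬ FiniteDimensional ℂ A) :
    ∃ a b c : A, T.cl2 (StarAlgebra.adjoin ℂ {a, b, c}) = ⊤ := by
  obtain ⟨s, hs, hc, hτ⟩ := exists_symmetries T hf hinf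
  obtain ⟨w, hw, hsw, hcomm⟩ := exists_masa_generator T hsep s (fun j => (hs j).1) hc
  obtain ⟨u, hu, hirr⟩ := exists_irr_pair T hsep hf hw hcomm
  let P := T.cl2 (StarAlgebra.adjoin ℂ {w, u})
  have hwP : w ∈ P := T.le_cl2 _ (StarAlgebra.subset_adjoin _ _ (by simp))
  have huP : u ∈ P := T.le_cl2 _ (StarAlgebra.subset_adjoin _ _ (by simp))
  have hP : Irr P := fun y hy => hirr y (hy w hwP hw) (hy u huP hu)
  have hsp : T.Spread P := fun r => ⟨fun j => s j, fun j =>
    ⟨T.cl2_mono (StarAlgebra.adjoin_le fun y hy => StarAlgebra.subset_adjoin _ _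
      (Or.inl hy)) (hsw j), (hs j).2⟩,
    fun i j hij => by rw [(hs i).1.star_eq]; exact hτ _ _ (fun h => hij (Fin.ext h))⟩
  obtain ⟨v, -, hv, -⟩ := generating_dense T hsep hP hsp 1 (one_mem _) 1 one_pos
  refine ⟨w, u, v, ?_⟩
  rw [eq_top_iff, ← hv]
  refine T.cl2_le_of_le_cl2 (StarAlgebra.adjoin_le ?_)
  rintro y (hy | hy)
  · exact T.cl2_mono (StarAlgebra.adjoin_le fun y hy => StarAlgebra.subset_adjoin _ _
      (by rcases hy with rfl | rfl <;> simp)) hy
  · exact T.le_cl2 _ (StarAlgebra.subset_adjoin _ _ (Or.inr (Or.inr hy)))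

end Crest.Agent.R95
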