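import Crest.Agent.R95.Final126
import Crest.Agent.R95.Three

/-! Assembly of statement S0125. -/

set_option autoImplicit false

namespace Crest.Agent.R95

open Crest.OpAlg

section alg
variable {B : Type*} [Ring B] (e : Fin 4 → Fin 4 → B)
  (h2 : ∀ i j k l, e i j * e k l = if j = k then e i l else 0)
include h2

theorem final_entry_comm (x : B) (i j a b : Fin 4) :
    e a b * ∑ k, e k i * x * e j k = (∑ k, e k i * x * e j k) * e a b := by
  rw [Finset.mul_sum, Finset.sum_mul, Finset.sum_eq_single b, Finset.sum_eq_single a]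
  · rw [← mul_assoc, ← mul_assoc, h2, if_pos rfl, mul_assoc _ (e j a), h2, if_pos rfl]
  · intro k _ hk
    rw [mul_assoc _ (e j k), h2, if_neg hk, mul_zero]
  · simp
  · intro k _ hk
    rw [← mul_assoc, ← mul_assoc, h2, if_neg hk.symm, zero_mul, zero_mul]
  · simp

theorem final_entry_sum (h3 : ∑ i, e i i = 1) (x : B) :
    ∑ i, ∑ j, (∑ k, e k i * x * e j k) * e i j = x := by
  have h : ∀ i j, (∑ k, e k i * x * e j k) * e i j = e i i * x * e j j := by
    intro i j
    rw [Finset.sum_mul, Finset.sum_eq_single i]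
    · rw [mul_assoc _ (e j i), h2, if_pos rfl]
    · intro k _ hk
      rw [mul_assoc _ (e j k), h2, if_neg hk, mul_zero]
    · simp
  simp only [h]
  simp only [← Finset.mul_sum, h3, mul_one]
  rw [← Finset.sum_mul, h3, one_mul]

end alg

theorem final125
    (H : Type*) [NormedAddCommGroup H] [InnerProductSpace ℂ H] [CompleteSpace H]
    [TopologicalSpace.SeparableSpace H] (M : VonNeumannAlgebra H)
    (hM : Crest.OpAlg.IsTypeIIOneFactor M) :
    ∃ x ∈ M, ∀ N : VonNeumannAlgebra H, x ∈ N → M ≤ N := by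
  obtain ⟨hf, hinf, ξ, hξ⟩ := hM
  obtain ⟨T, -⟩ := exists_model M ξ hξ
  obtain ⟨e', g1, g2, g3⟩ := exists_matrix_units T (isFactorAlg_of_isFactor hf) hinf
  let e : Fin 4 → Fin 4 → H →L[ℂ] H := fun i j => e' i j
  have heM : ∀ i j, e i j ∈ M := fun i j => (e' i j).2
  have h1 : ∀ i j, star (e i j) = e j i := fun i j => congrArg Subtype.val (g1 i j)
  have h2 : ∀ i j k l, e i j * e k l = if j = k then e i l else 0 := by
    intro i j k l
    have := congrArg Subtype.val (g2 i j k l)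
    split_ifs at this ⊢ <;> exact this
  have h3 : ∑ i, e i i = 1 := by
    have := congrArg M.toStarSubalgebra.subtype g3
    rw [map_sum] at this
    exact this
  let S : Set (H →L[ℂ] H) := (M.commutant : Set (H →L[ℂ] H)) ∪ {y | ∃ i j, y = e i j}
  obtain ⟨Q, hQ⟩ : ∃ Q : VonNeumannAlgebra H,
      ∀ x, x ∈ Q ↔ x ∈ M ∧ ∀ i j, e i j * x = x * e i j := by
    refine ⟨⟨StarSubalgebra.centralizer ℂ S, Set.centralizer_centralizer_centralizer _⟩,
      fun x => ?_⟩
    change x ∈ StarSubalgebra.centralizer ℂ S ↔ _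
    rw [StarSubalgebra.mem_centralizer_iff]
    constructor
    · intro h
      refine ⟨?_, fun i j => (h _ (Or.inr ⟨i, j, rfl⟩)).1⟩
      rw [← M.commutant_commutant, VonNeumannAlgebra.mem_commutant_iff]
      exact fun g hg => (h g (Or.inl hg)).1
    · rintro ⟨hx, he⟩ g (hg | ⟨i, j, rfl⟩)
      · exact ⟨(VonNeumannAlgebra.mem_commutant_iff.1 hg x hx).symm,
          (VonNeumannAlgebra.mem_commutant_iff.1 (star_mem hg) x hx).symm⟩
      · exact ⟨he i j, by rw [h1]; exact he j i⟩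
  have hQM : Q ≤ M := fun x hx => ((hQ x).1 hx).1
  have hent : ∀ x ∈ M, ∀ i j, ∑ k, e k i * x * e j k ∈ Q := fun x hx i j =>
    (hQ _).2 ⟨sum_mem fun k _ => mul_mem (mul_mem (heM _ _) hx) (heM _ _),
      fun a b => final_entry_comm e h2 x i j a b⟩
  have hQf : IsFactor Q := by
    intro y hy hyc
    refine hf y (hQM hy) fun x hx => ?_
    rw [← final_entry_sum e h2 h3 x, Finset.mul_sum, Finset.sum_mul]
    refine Finset.sum_congr rfl fun i _ => ?_
    rw [Finset.mul_sum, Finset.sum_mul]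
    refine Finset.sum_congr rfl fun j _ => ?_
    rw [← mul_assoc, hyc _ (hent x hx i j), mul_assoc, mul_assoc, ((hQ y).1 hy).2]
  have hQinf : ¬ FiniteDimensional ℂ Q.toStarSubalgebra := by
    intro hfin
    apply hinf
    let inc : Q.toStarSubalgebra →ₗ[ℂ] M.toStarSubalgebra :=
      (StarSubalgebra.inclusion (show Q.toStarSubalgebra ≤ M.toStarSubalgebra from hQM)).toLinearMap
    let Φ : (Fin 4 × Fin 4 → Q.toStarSubalgebra) →ₗ[ℂ] M.toStarSubalgebra :=
      ∑ p : Fin 4 × Fin 4, (LinearMap.mulRight ℂ (e' p.1 p.2)).comp (inc.comp (LinearMap.proj p))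
    refine Module.Finite.of_surjective Φ fun x => ?_
    refine ⟨fun p => ⟨_, hent x x.2 p.1 p.2⟩, ?_⟩
    apply Subtype.ext
    have hx := final_entry_sum e h2 h3 (x : H →L[ℂ] H)
    refine Eq.trans ?_ hx
    rw [← Fintype.sum_prod_type']
    simp only [Φ, LinearMap.sum_apply]
    rw [AddSubmonoidClass.coe_finsetSum]
    rfl
  have hξQ := final_faithful_mono hQM hξ
  obtain ⟨TQ, hTQ⟩ := exists_model Q ξ hξQ
  obtain ⟨a, b, c, habc⟩ := exists_three_generators TQ (model_sep TQ)
    (isFactorAlg_of_isFactor hQf) hQinf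
  have ha := (hQ a).1 a.2
  have hb := (hQ b).1 b.2
  have hc := (hQ c).1 c.2
  refine ⟨e 0 1 + e 1 2 + e 2 3 + a * e 0 2 + b * e 1 3 + c * e 0 3, ?_, fun N hN => ?_⟩
  · exact add_mem (add_mem (add_mem (add_mem (add_mem (heM _ _) (heM _ _)) (heM _ _))
      (mul_mem ha.1 (heM _ _))) (mul_mem hb.1 (heM _ _))) (mul_mem hc.1 (heM _ _))
  · obtain ⟨eN, aN, bN, cN⟩ := exists_single_of_units e h1 h2 h3 (a : H →L[ℂ] H) b c
      ha.2 hb.2 hc.2 N.toStarSubalgebra hN
    have hQN : Q ≤ N := by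
      intro y hy
      have h4 : (⟨y, hy⟩ : Q.toStarSubalgebra) ∈ TQ.cl2 (StarAlgebra.adjoin ℂ {a, b, c}) := by
        rw [habc]; exact StarSubalgebra.mem_top
      refine (model_mem_cl2_iff TQ hTQ hξQ _ _).1 h4 N ?_
      rintro s (rfl | rfl | rfl)
      exacts [aN, bN, cN]
    intro x hx
    rw [← final_entry_sum e h2 h3 x]
    exact sum_mem fun i _ => sum_mem fun j _ => mul_mem (hQN (hent x hx i j)) (eN i j)

end Crest.Agent.R95
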