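import Crest.Agent.R95.Key
import Crest.Agent.R95.Baire

/-! Generic unitaries generate over an irreducible subalgebra. -/

set_option autoImplicit false

namespace Crest.Agent.R95

variable {A : Type*} [CStarAlgebra A] {K : Type*} [NormedAddCommGroup K] [InnerProductSpace ℂ K]

theorem generating_dense (T : TrModel A K) (hsep : T.Sep) {P : StarSubalgebra ℂ A} (hirr : Irr P)
    (hsp : T.Spread P) :
    ∀ u ∈ unitary A, ∀ ε : ℝ, 0 < ε → ∃ v ∈ unitary A,
      T.cl2 (StarAlgebra.adjoin ℂ ((P : Set A) ∪ {v})) = ⊤ ∧ ‖T.ι (v - u)‖ < ε := by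
  intro u hu ε hε
  obtain ⟨v, hv, h1, h2⟩ := generic_dense T hsep (D := unitary A) (S₀ := (P : Set A))
    subset_rfl (fun x a hx ha => T.mem_unitary_of_tendsto hx ha) {x | ‖x‖ ≤ 1}
    (fun x hx => key T hirr hsp hx) u hu ε hε
  refine ⟨v, hv, ?_, h2⟩
  rw [eq_top_iff]
  rintro x -
  obtain ⟨w, c, rfl, -⟩ := CStarAlgebra.exists_sum_four_unitary x
  exact sum_mem fun i _ => SMulMemClass.smul_mem _ (h1 _ (norm_unitary_le (w i).2))

end Crest.Agent.R95
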