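import Crest.Agent.R95.Concrete
import Crest.Agent.R95.Main
import Crest.Agent.R95.Units

/-! Assembly of statement S0126. -/

set_option autoImplicit false

namespace Crest.Agent.R95

open Crest.OpAlg

theorem final_unitary_iff {H : Type*} [NormedAddCommGroup H] [InnerProductSpace ℂ H]
    [CompleteSpace H] {M : VonNeumannAlgebra H} (u : M.toStarSubalgebra) :
    u ∈ unitary M.toStarSubalgebra ↔ (u : H →L[ℂ] H) ∈ unitary (H →L[ℂ] H) := by
  rw [Unitary.mem_iff, Unitary.mem_iff]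
  exact ⟨fun h => ⟨congrArg Subtype.val h.1, congrArg Subtype.val h.2⟩,
    fun h => ⟨Subtype.ext h.1, Subtype.ext h.2⟩⟩

theorem final_faithful_mono {H : Type*} [NormedAddCommGroup H] [InnerProductSpace ℂ H]
    [CompleteSpace H] {P M : VonNeumannAlgebra H} (hPM : P ≤ M) {ξ : ℕ → H}
    (hξ : IsFaithfulTracialVectorState M ξ) : IsFaithfulTracialVectorState P ξ :=
  ⟨hξ.1, fun x hx y hy => hξ.2.1 x (hPM hx) y (hPM hy), fun x hx => hξ.2.2 x (hPM hx)⟩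

theorem final126
    (H : Type*) [NormedAddCommGroup H] [InnerProductSpace ℂ H] [CompleteSpace H]
    [TopologicalSpace.SeparableSpace H] (P M : VonNeumannAlgebra H) (hPM : P ≤ M)
    (hP : Crest.OpAlg.IsTypeIIOneFactor P) (_hM : Crest.OpAlg.IsTypeIIOneFactor M)
    (hPM' : ∀ x ∈ M, (∀ y ∈ P, x * y = y * x) → ∃ c : ℂ, x = c • (1 : H →L[ℂ] H))
    (ξ : ℕ → H) (hξ : Crest.OpAlg.IsFaithfulTracialVectorState M ξ) :
    (∃ O : ℕ → Set (H →L[ℂ] H),
      (∀ k : ℕ, ∀ u ∈ M, u ∈ unitary (H →L[ℂ] H) → u ∈ O k → ∃ δ : ℝ, 0 < δ ∧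
        ∀ v ∈ M, v ∈ unitary (H →L[ℂ] H) → Crest.OpAlg.traceNormSq ξ (v - u) < δ → v ∈ O k) ∧
      (∀ u ∈ M, u ∈ unitary (H →L[ℂ] H) →
        ((∀ N : VonNeumannAlgebra H, P ≤ N → u ∈ N → M ≤ N) ↔ ∀ k : ℕ, u ∈ O k))) ∧
    (∀ u ∈ M, u ∈ unitary (H →L[ℂ] H) → ∀ ε : ℝ, 0 < ε →
      ∃ v ∈ M, v ∈ unitary (H →L[ℂ] H) ∧ (∀ N : VonNeumannAlgebra H, P ≤ N → v ∈ N → M ≤ N) ∧
        Crest.OpAlg.traceNormSq ξ (v - u) < ε) := by
  obtain ⟨T, hT⟩ := exists_model M ξ hξ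
  have hsep : T.Sep := model_sep T
  let P' : StarSubalgebra ℂ M.toStarSubalgebra :=
    P.toStarSubalgebra.comap M.toStarSubalgebra.subtype
  have hP'mem : ∀ y : M.toStarSubalgebra, y ∈ P' ↔ (y : H →L[ℂ] H) ∈ P := fun _ => Iff.rfl
  have hirr : Irr P' := by
    intro y hy
    obtain ⟨c, hc⟩ := hPM' y y.2 fun z hz => by
      obtain ⟨u, c, hu, -⟩ := CStarAlgebra.exists_sum_four_unitary (⟨z, hz⟩ : P.toStarSubalgebra)
      have hz' : z = ∑ i, c i • ((u i : P.toStarSubalgebra) : H →L[ℂ] H) := by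
        have := congrArg (P.toStarSubalgebra.subtype) hu
        rw [map_sum] at this
        exact this
      rw [hz', Finset.mul_sum, Finset.sum_mul]
      refine Finset.sum_congr rfl fun i _ => ?_
      rw [mul_smul_comm, smul_mul_assoc]
      congr 1
      have h1 := hy ⟨((u i : P.toStarSubalgebra) : H →L[ℂ] H), hPM (u i : P.toStarSubalgebra).2⟩
        (u i : P.toStarSubalgebra).2
        ((final_unitary_iff _).2 ((final_unitary_iff (M := P) _).1 (u i).2))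
      exact (congrArg Subtype.val h1).symm
    exact ⟨c, Subtype.ext hc⟩
  have hsp : T.Spread P' := by
    obtain ⟨TP, hTP⟩ := exists_model P ξ (final_faithful_mono hPM hξ)
    obtain ⟨s, hs, -, hτ⟩ := exists_symmetries TP (isFactorAlg_of_isFactor hP.1) hP.2.1
    intro r
    refine ⟨fun j => ⟨(s j : H →L[ℂ] H), hPM (s j).2⟩, fun j => ⟨(s j).2,
      (final_unitary_iff _).2 ((final_unitary_iff (M := P) _).1 (hs j).2)⟩, fun i j hij => ?_⟩
    have h1 := hτ i j fun h => hij (Fin.ext h)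
    rw [← (hs i).1.star_eq, model_τ TP hTP] at h1
    rw [model_τ T hT]
    exact h1
  have hgen : ∀ u : M.toStarSubalgebra,
      (∀ N : VonNeumannAlgebra H, P ≤ N → (u : H →L[ℂ] H) ∈ N → M ≤ N) ↔
        T.cl2 (StarAlgebra.adjoin ℂ ((P' : Set M.toStarSubalgebra) ∪ {u})) = ⊤ := by
    intro u
    constructor
    · intro h
      rw [eq_top_iff]
      rintro x -
      rw [model_mem_cl2_iff T hT hξ]
      intro N hN
      exact h N (fun p hp => hN ⟨p, hPM hp⟩ (Or.inl hp)) (hN u (Or.inr rfl)) x.2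
    · intro h N hPN huN x hx
      have h1 : (⟨x, hx⟩ : M.toStarSubalgebra) ∈
          T.cl2 (StarAlgebra.adjoin ℂ ((P' : Set M.toStarSubalgebra) ∪ {u})) := by
        rw [h]; exact StarSubalgebra.mem_top
      refine (model_mem_cl2_iff T hT hξ _ _).1 h1 N ?_
      rintro s (hs | rfl)
      · exact hPN hs
      · exact huN
  obtain ⟨z, -, hz⟩ := T.exists_dense_seq hsep Set.univ Set.univ_nonempty
  refine ⟨⟨fun k => {u | ∃ hu : u ∈ M, ∃ b ∈ StarAlgebra.adjoin ℂ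
    ((P' : Set M.toStarSubalgebra) ∪ {⟨u, hu⟩}),
      ‖T.ι (z k.unpair.1 - b)‖ < 1 / ((k.unpair.2 : ℝ) + 1)}, ?_, ?_⟩, ?_⟩
  · rintro k u huM hu ⟨hu', b, hb, hzb⟩
    obtain ⟨δ, hδ, hv⟩ := adjoin_lsc T (P' : Set M.toStarSubalgebra) (u := ⟨u, hu'⟩)
      ((final_unitary_iff _).2 hu) hb (sub_pos.2 hzb)
    refine ⟨δ ^ 2, by positivity, fun v hvM hvu hd => ⟨hvM, ?_⟩⟩
    have h1 : ‖T.ι (⟨v, hvM⟩ - ⟨u, hu'⟩)‖ < δ := by
      have h2 := model_norm_sq T hT (⟨v, hvM⟩ - ⟨u, hu'⟩)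
      exact lt_of_pow_lt_pow_left₀ 2 hδ.le (h2.trans_lt hd)
    obtain ⟨b', hb', hbb⟩ := hv ⟨v, hvM⟩ ((final_unitary_iff _).2 hvu) h1
    refine ⟨b', hb', ?_⟩
    rw [show z k.unpair.1 - b' = (z k.unpair.1 - b) - (b' - b) by abel, map_sub]
    linarith [norm_sub_le (T.ι (z k.unpair.1 - b)) (T.ι (b' - b))]
  · intro u huM _
    refine (hgen ⟨u, huM⟩).trans ⟨fun h k => ⟨huM, ?_⟩, fun h => ?_⟩
    · have h1 : z k.unpair.1 ∈
          T.cl2 (StarAlgebra.adjoin ℂ ((P' : Set M.toStarSubalgebra) ∪ {⟨u, huM⟩})) := by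
        rw [h]; exact StarSubalgebra.mem_top
      exact T.mem_cl2.1 h1 _ (by positivity)
    · rw [eq_top_iff]
      rintro x -
      rw [T.mem_cl2]
      intro ε hε
      obtain ⟨n, hn⟩ := hz x (Set.mem_univ x) (ε / 2) (half_pos hε)
      obtain ⟨l, hl⟩ := exists_nat_one_div_lt (half_pos hε)
      obtain ⟨_, b, hb, hzb⟩ := h (Nat.pair n l)
      rw [Nat.unpair_pair] at hzb
      refine ⟨b, hb, ?_⟩
      rw [show x - b = (x - z n) + (z n - b) by abel, map_add]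
      linarith [norm_add_le (T.ι (x - z n)) (T.ι (z n - b))]
  · intro u huM hu ε hε
    obtain ⟨v, hv, h1, h2⟩ := generating_dense T hsep hirr hsp ⟨u, huM⟩
      ((final_unitary_iff _).2 hu) (Real.sqrt ε) (Real.sqrt_pos.2 hε)
    refine ⟨v, v.2, (final_unitary_iff _).1 hv, (hgen v).2 h1, ?_⟩
    have h3 := model_norm_sq T hT (v - ⟨u, huM⟩)
    have h4 := (Real.lt_sqrt (norm_nonneg _)).1 h2
    exact h3.symm.trans_lt h4

end Crest.Agent.R95
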