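import Crest.Agent.R95.Pair

/-! Many independent blocks: mean and second moment of the random element. -/

set_option autoImplicit false

namespace Crest.Agent.R95

open scoped InnerProductSpace ComplexConjugate Pointwise
open Complex Finset

variable {A : Type*} [CStarAlgebra A] {K : Type*} [NormedAddCommGroup K] [InnerProductSpace ℂ K]

lemma Ex_norm_sum_sq_le {Ω : Type*} [Fintype Ω] {n : ℕ} (s : Finset (Fin n))
    (f : Fin n → Ω → K) {d b : ℝ} (hd0 : 0 ≤ d) (hb0 : 0 ≤ b)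
    (hd : ∀ i, Ex (fun ω => ‖f i ω‖ ^ 2) ≤ d)
    (hb : ∀ i j, i ≠ j → ‖Ex (fun ω => ⟪f i ω, f j ω⟫_ℂ)‖ ≤ b) :
    Ex (fun ω => ‖∑ i ∈ s, f i ω‖ ^ 2) ≤ n * d + n ^ 2 * b := by
  have h1 : ∀ ω, ‖∑ i ∈ s, f i ω‖ ^ 2 = ∑ i ∈ s, ∑ j ∈ s, (⟪f i ω, f j ω⟫_ℂ).re := fun ω => by
    rw [← inner_self_eq_norm_sq (𝕜 := ℂ), sum_inner]
    simp only [inner_sum, RCLike.re_to_complex, re_sum]
  have hs : (s.card : ℝ) ≤ n := by exact_mod_cast (card_le_univ s).trans (Fintype.card_fin n).le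
  rw [Ex_congr h1, Ex_sum]
  refine (sum_le_sum (g := fun _ => d + n * b) fun i hi => ?_).trans ?_
  · rw [Ex_sum, ← add_sum_erase _ _ hi]
    refine add_le_add (le_trans (le_of_eq (Ex_congr fun ω => ?_)) (hd i)) ?_
    · rw [← inner_self_eq_norm_sq (𝕜 := ℂ)]; rfl
    · refine (sum_le_sum (g := fun _ => b) fun j hj => ?_).trans ?_
      · rw [← re_Ex]
        exact (re_le_norm _).trans (hb i j (ne_of_mem_erase hj).symm)
      · rw [sum_const, nsmul_eq_mul]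
        refine mul_le_mul_of_nonneg_right (le_trans ?_ hs) hb0
        exact_mod_cast card_erase_le
  · rw [sum_const, nsmul_eq_mul]
    have := mul_le_mul_of_nonneg_right hs (show 0 ≤ d + n * b by positivity)
    nlinarith

lemma norm_Ex_inner_add_le {Ω : Type*} [Fintype Ω] [Nonempty Ω] (f g e e' : Ω → K) {c δ : ℝ}
    (hf : ∀ ω, ‖f ω‖ ≤ c) (hg : ∀ ω, ‖g ω‖ ≤ c) (he : ∀ ω, ‖e ω‖ ≤ δ) (he' : ∀ ω, ‖e' ω‖ ≤ δ) :
    ‖Ex (fun ω => ⟪f ω + e ω, g ω + e' ω⟫_ℂ)‖ ≤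
      ‖Ex (fun ω => ⟪f ω, g ω⟫_ℂ)‖ + (2 * c * δ + δ ^ 2) := by
  have h : ∀ ω, ⟪f ω + e ω, g ω + e' ω⟫_ℂ =
      ⟪f ω, g ω⟫_ℂ + (⟪f ω, e' ω⟫_ℂ + ⟪e ω, g ω⟫_ℂ + ⟪e ω, e' ω⟫_ℂ) := fun ω => by
    rw [inner_add_left, inner_add_right, inner_add_right]; ring
  rw [Ex_congr h, Ex_add]
  refine (norm_add_le _ _).trans (add_le_add le_rfl (norm_Ex_le_const fun ω => ?_))
  have hc : 0 ≤ c := (norm_nonneg _).trans (hf ω)
  have hδ : 0 ≤ δ := (norm_nonneg _).trans (he ω)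
  have h1 := (norm_inner_le_norm (𝕜 := ℂ) (f ω) (e' ω)).trans
    (mul_le_mul (hf ω) (he' ω) (norm_nonneg _) hc)
  have h2 := (norm_inner_le_norm (𝕜 := ℂ) (e ω) (g ω)).trans
    (mul_le_mul (he ω) (hg ω) (norm_nonneg _) hδ)
  have h3 := (norm_inner_le_norm (𝕜 := ℂ) (e ω) (e' ω)).trans
    (mul_le_mul (he ω) (he' ω) (norm_nonneg _) hδ)
  refine norm_add₃_le.trans ?_
  nlinarith

/-- an invariant function is orthogonal to the odd part of any function -/
lemma Ex_inner_odd {Ω : Type*} [Fintype Ω] (e : Ω ≃ Ω) (f g : Ω → K) (hf : ∀ ω, f (e ω) = f ω) :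
    Ex (fun ω => ⟪f ω, g ω - g (e ω)⟫_ℂ) = 0 := by
  simp only [inner_sub_right]
  rw [Ex_sub, ← Ex_equiv e (fun ω => ⟪f ω, g ω⟫_ℂ)]
  simp only [hf, sub_self]

lemma Ex_inner_odd' {Ω : Type*} [Fintype Ω] (e : Ω ≃ Ω) (f g : Ω → K) (hf : ∀ ω, f (e ω) = f ω) :
    Ex (fun ω => ⟪g ω - g (e ω), f ω⟫_ℂ) = 0 := by
  simp only [inner_sub_left]
  rw [Ex_sub, ← Ex_equiv e (fun ω => ⟪g ω, f ω⟫_ℂ)]
  simp only [hf, sub_self]

/-- drift bound for a Cayley transform -/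
lemma re_τ_avg_cay (T : TrModel A K) {J : Type} [Fintype J] [Nonempty J] {z : J → A}
    (hz : ∀ b, z b ∈ unitary A) {S : A} (hS : IsSelfAdjoint S) {G : A} (hG : G ∈ unitary A) :
    (T.τ G).re - (2 * ‖T.ι S‖ ^ 2 + 2 * ‖T.ι (Ex fun b => star (z b) * S * z b)‖) ≤
      (T.τ (Ex (fun b => star (z b) * cay S * z b) * G)).re := by
  have h1 : cay S = 1 + (2 * I) • S + (-2 : ℂ) • (S * (S * res S)) := by
    rw [← cay_sub_one_sub hS]; abel
  have h2 : Ex (fun b => star (z b) * cay S * z b) = 1 + (2 * I) • Ex (fun b => star (z b) * S * z b)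
      + (-2 : ℂ) • Ex (fun b => star (z b) * (S * (S * res S)) * z b) := by
    rw [← Ex_smul, ← Ex_smul]
    conv_rhs => rw [← Ex_const (Ω := J) (1 : A), ← Ex_add, ← Ex_add]
    refine Ex_congr fun b => ?_
    rw [h1]
    simp only [mul_add, add_mul, mul_one, (hz b).1, mul_smul_comm, smul_mul_assoc]
  have h3 : ‖T.τ (Ex (fun b => star (z b) * S * z b) * G)‖ ≤
      ‖T.ι (Ex fun b => star (z b) * S * z b)‖ := by
    simpa [T.norm_unitary hG] using T.norm_τ_mul_le (Ex (fun b => star (z b) * S * z b)) G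
  have h4 : ‖T.τ (Ex (fun b => star (z b) * (S * (S * res S)) * z b) * G)‖ ≤ ‖T.ι S‖ ^ 2 := by
    rw [Ex_mul, Ex_clm]
    refine norm_Ex_le_const fun b => ?_
    rw [show star (z b) * (S * (S * res S)) * z b * G = (star (z b) * S) * (S * (res S * z b * G))
      by simp only [mul_assoc], sq]
    refine (T.norm_τ_mul_le _ _).trans (mul_le_mul ?_ ?_ (norm_nonneg _) (norm_nonneg _))
    · exact (T.norm_unitary_mul (Unitary.star_mem (hz b)) S).le
    · exact T.norm_mul_le_of_right _ (norm_mul_le_one (norm_mul_le_one (norm_res_le hS)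
        (norm_unitary_le (hz b))) (norm_unitary_le hG))
  rw [h2, add_mul, add_mul, one_mul, smul_mul_assoc, smul_mul_assoc, map_add, map_add, map_smul,
    map_smul, add_re, add_re]
  have h5 := (abs_re_le_norm ((2 * I) • T.τ (Ex (fun b => star (z b) * S * z b) * G)))
  have h6 := (abs_re_le_norm
    ((-2 : ℂ) • T.τ (Ex (fun b => star (z b) * (S * (S * res S)) * z b) * G)))
  rw [norm_smul] at h5 h6
  simp only [norm_mul, Complex.norm_ofNat, norm_I, mul_one, norm_neg] at h5 h6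
  have h7 := (abs_le.1 h5).1
  have h8 := (abs_le.1 h6).1
  linarith

section sys

variable {P : StarSubalgebra ℂ A} {k n : ℕ} (B : Fin n → Blk P k) (u x : A) (θ : ℝ)

/-- the global sample space -/
abbrev GΩ : Type := ∀ i : Fin n, (B i).Ω

/-- perturbation of the block `i` -/
noncomputable def gH (i : Fin n) (ω : GΩ B) : A := HH u x k ((B i).Z (ω i))

/-- sum of the perturbations of the blocks in `s` -/
noncomputable def gS (s : Finset (Fin n)) (ω : GΩ B) : A := (θ : ℂ) • ∑ j ∈ s, gH B u x j ω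

/-- the word of the block `i` -/
noncomputable def gY (i : Fin n) (ω : GΩ B) : A :=
  yy u k ((B i).Z (ω i)) (cay (gS B u x θ univ ω))

/-- sign flip in the block `i` -/
def gρ (i : Fin n) : GΩ B ≃ GΩ B := updEquiv i (B i).fl

variable {B u x θ}

lemma gS_selfAdjoint (s : Finset (Fin n)) (ω : GΩ B) : IsSelfAdjoint (gS B u x θ s ω) := by
  refine IsSelfAdjoint.smul (by simp [IsSelfAdjoint]) ?_
  exact isSelfAdjoint_sum _ fun j _ => HH_selfAdjoint

lemma gS_update {s : Finset (Fin n)} {i : Fin n} (hi : i ∉ s) (ω : GΩ B) (ζ : (B i).Ω) :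
    gS B u x θ s (Function.update ω i ζ) = gS B u x θ s ω := by
  unfold gS
  congr 1
  refine sum_congr rfl fun j hj => ?_
  rw [gH, gH, Function.update_of_ne (by rintro rfl; exact hi hj)]

lemma gρ_self (i : Fin n) (ω : GΩ B) : gρ B i ω i = (B i).fl (ω i) := by
  rw [gρ, updEquiv_apply, Function.update_self]

lemma gρ_ne {i j : Fin n} (h : j ≠ i) (ω : GΩ B) : gρ B i ω j = ω j := by
  rw [gρ, updEquiv_apply, Function.update_of_ne h]

lemma gS_ρ {s : Finset (Fin n)} {i : Fin n} (hi : i ∉ s) (ω : GΩ B) :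
    gS B u x θ s (gρ B i ω) = gS B u x θ s ω := by
  rw [gρ, updEquiv_apply, gS_update hi]

lemma gH_ρ_self (i : Fin n) (ω : GΩ B) : gH B u x i (gρ B i ω) = -gH B u x i ω := by
  rw [gH, gρ_self, Blk.Z_fl, HH_neg, gH]

lemma gH_ρ_ne {i j : Fin n} (h : j ≠ i) (ω : GΩ B) : gH B u x j (gρ B i ω) = gH B u x j ω := by
  rw [gH, gρ_ne h, gH]

lemma Ex_coord {E : Type*} [AddCommGroup E] [Module ℝ E] (i : Fin n) (f : (B i).Ω → E) :
    Ex (fun ω : GΩ B => f (ω i)) = Ex f := by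
  rw [Ex_update i]
  simp

variable {T : TrModel A K} {η : ℝ} (hu : u ∈ unitary A) (hx : ‖x‖ ≤ 1) (hη : 0 ≤ η) (hθ : 0 ≤ θ)
  (hG : ∀ i, (B i).Good T u η) (hC : ∀ i j, i ≠ j → (B i).Cross (B j) T u η)
include hu hx hη hG

lemma Ex_norm_gS_sq (s : Finset (Fin n)) :
    Ex (fun ω => ‖T.ι (gS B u x θ s ω)‖ ^ 2) ≤ θ ^ 2 * (n * (4 * (k + k ^ 2 * η))) := by
  simp only [gS, map_smul, norm_smul, mul_pow, norm_real, Real.norm_eq_abs, sq_abs, map_sum]
  rw [Ex_const_mul]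
  refine mul_le_mul_of_nonneg_left ?_ (sq_nonneg _)
  have := Ex_norm_sum_sq_le s (fun i ω => T.ι (gH B u x i ω)) (d := 4 * (k + k ^ 2 * η)) (b := 0)
    (by positivity) le_rfl (fun i => ?_) (fun i j hij => ?_)
  · simpa using this
  · exact (Ex_coord i (fun ζ => ‖T.ι (HH u x k ((B i).Z ζ))‖ ^ 2)).le.trans
      ((B i).Ex_norm_HH_sq hu hx (hG i) hη)
  · rw [Ex_eq_zero_of_equiv (gρ B i), norm_zero]
    intro ω
    rw [gH_ρ_self, gH_ρ_ne hij.symm, map_neg, inner_neg_left]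

include hθ hC

omit hG in
lemma Ex_avg_gS {s : Finset (Fin n)} {i : Fin n} (hi : i ∉ s) {c : ℕ} (hc : c ≤ k) :
    Ex (fun ω => ‖T.ι (Ex fun b => star ((B i).z c b) * gS B u x θ s ω * (B i).z c b)‖) ≤
      θ * (n * (2 * (k * η))) := by
  simp only [gS, mul_smul_comm, smul_mul_assoc, Ex_smul, map_smul, norm_smul, norm_real,
    Real.norm_eq_abs, abs_of_nonneg hθ, mul_sum, sum_mul, Ex_sum, map_sum]
  rw [Ex_const_mul]
  refine mul_le_mul_of_nonneg_left ((Ex_mono fun ω => norm_sum_le _ _).trans ?_) hθ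
  rw [Ex_sum]
  refine (sum_le_sum (g := fun _ => 2 * (k * η)) fun j hj => ?_).trans ?_
  · exact (Ex_coord j (fun ζ => ‖T.ι (Ex fun b => star ((B i).z c b) * HH u x k ((B j).Z ζ) *
      (B i).z c b)‖)).le.trans
      ((B i).avg_HH (B j) hu hx (hC i j (by rintro rfl; exact hi hj)) hc)
  · rw [sum_const, nsmul_eq_mul]
    refine mul_le_mul_of_nonneg_right ?_ (by positivity)
    exact_mod_cast (card_le_univ s).trans (Fintype.card_fin n).le

omit hη hG hC in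
lemma norm_gS_sub_le (s t : Finset (Fin n)) (h : s ⊆ t) (ω : GΩ B) :
    ‖gS B u x θ t ω - gS B u x θ s ω‖ ≤ θ * ((t \ s).card * (2 * k)) := by
  rw [gS, gS, ← smul_sub, ← sum_sdiff h, add_sub_cancel_right, norm_smul, norm_real,
    Real.norm_eq_abs, abs_of_nonneg hθ]
  refine mul_le_mul_of_nonneg_left ((norm_sum_le _ _).trans ?_) hθ
  refine (sum_le_sum fun j _ => norm_HH_le hu ((B j).Z_uni _) hx).trans ?_
  simp

/-- the mean of the word of one block -/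
lemma mean_gY (i : Fin n) {M β : ℝ} (hM : θ ^ 2 * (n * (4 * (k + k ^ 2 * η))) ≤ M ^ 2)
    (hM0 : 0 ≤ M) (hβ0 : 0 ≤ β)
    (hβ : 2 * k * (2 * M ^ 2 + 2 * ((k + 1) * (θ * (n * (2 * (k * η)))))) ≤ β ^ 2) :
    ‖T.ι (Ex (gY B u x θ i) - (2 * I * θ * k) • x)‖ ≤
      24 * k ^ 4 * θ ^ 2 + 2 * θ * (k * (2 * M + 2 * β) + k ^ 2 * η) := by
  have hi : i ∉ univ.erase i := notMem_erase i univ
  set s := univ.erase i with hs
  have hS := fun ω => gS_selfAdjoint (B := B) (u := u) (x := x) (θ := θ) s ω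
  have e0 : ∀ ω, gS B u x θ univ ω - gS B u x θ s ω = (θ : ℂ) • gH B u x i ω := fun ω => by
    rw [gS, gS, ← smul_sub, ← add_sum_erase _ _ (mem_univ i), add_sub_cancel_right]
  have h1 : ∀ ω, ‖gY B u x θ i ω - yy u k ((B i).Z (ω i)) (cay (gS B u x θ s ω)) -
      (2 * I * θ) • Dy u k ((B i).Z (ω i)) (cay (gS B u x θ s ω))
        (res (gS B u x θ s ω) * gH B u x i ω * res (gS B u x θ s ω))‖ ≤ 24 * k ^ 4 * θ ^ 2 := by
    intro ω
    have := norm_yy_expansion (k := k) hu ((B i).Z_uni (ω i)) (hS ω)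
      (gS_selfAdjoint (B := B) (u := u) (x := x) (θ := θ) univ ω)
    rw [e0, mul_smul_comm, smul_mul_assoc, Dy_smul, smul_smul] at this
    refine this.trans ?_
    have h2 : ‖(θ : ℂ) • gH B u x i ω‖ ≤ θ * (2 * k) := by
      rw [norm_smul, norm_real, Real.norm_eq_abs, abs_of_nonneg hθ]
      exact mul_le_mul_of_nonneg_left (norm_HH_le hu ((B i).Z_uni _) hx) hθ
    calc 6 * (k : ℝ) ^ 2 * ‖(θ : ℂ) • gH B u x i ω‖ ^ 2 ≤ 6 * (k : ℝ) ^ 2 * (θ * (2 * k)) ^ 2 := by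
          gcongr
      _ = _ := by ring
  have h2 : Ex (fun ω => yy u k ((B i).Z (ω i)) (cay (gS B u x θ s ω))) = 0 := by
    refine Ex_eq_zero_of_equiv (gρ B i) _ fun ω => ?_
    rw [gS_ρ hi, gρ_self, Blk.Z_fl, yy_phase, neg_one_smul]
  -- the drift parameter
  let b : GΩ B → ℝ := fun ω => 2 * ‖T.ι (gS B u x θ s ω)‖ ^ 2 + 2 * ∑ c ∈ range (k + 1),
    ‖T.ι (Ex fun a => star ((B i).z c a) * gS B u x θ s ω * (B i).z c a)‖
  have hb0 : ∀ ω, 0 ≤ b ω := fun ω => by positivity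
  have hSM := (Ex_norm_gS_sq (θ := θ) hu hx hη hG s).trans hM
  have hbE : Ex b ≤ 2 * M ^ 2 + 2 * ((k + 1) * (θ * (n * (2 * (k * η))))) := by
    simp only [b]
    rw [Ex_add, Ex_const_mul, Ex_const_mul, Ex_sum]
    refine add_le_add (by linarith) (mul_le_mul_of_nonneg_left ?_ two_pos.le)
    refine (sum_le_sum fun c hc =>
      Ex_avg_gS hu hx hη hθ hC hi (Nat.lt_succ_iff.1 (mem_range.1 hc))).trans ?_
    simp
  have h3 : ‖T.ι (Ex (fun ω => Dy u k ((B i).Z (ω i)) (cay (gS B u x θ s ω))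
      (res (gS B u x θ s ω) * gH B u x i ω * res (gS B u x θ s ω))) - k • x)‖ ≤
      k * (2 * M + 2 * β) + k ^ 2 * η := by
    rw [Ex_update i]
    simp only [gS_update hi, gH, Function.update_self]
    conv_lhs => rw [← Ex_const (Ω := GΩ B) (k • x), ← Ex_sub, Ex_clm]
    refine (norm_Ex_le _).trans ((Ex_mono fun ω => (B i).mean_Dy hu hx (hG i) hη
      (cay_mem_unitary (hS ω)) (norm_res_le (hS ω)) (hb0 ω) (fun c hc G hG' => ?_)).trans ?_)
    · refine le_trans ?_ (re_τ_avg_cay T ((B i).uni c) (hS ω) hG')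
      have := single_le_sum (f := fun c =>
        ‖T.ι (Ex fun a => star ((B i).z c a) * gS B u x θ s ω * (B i).z c a)‖)
        (fun c _ => norm_nonneg _) (mem_range.2 (Nat.lt_succ_of_le hc))
      simp only [b]
      linarith
    · rw [Ex_add, Ex_const, Ex_const_mul, Ex_add, Ex_const_mul, Ex_const_mul]
      have h4 : Ex (fun ω => ‖T.ι (res (gS B u x θ s ω) - 1)‖) ≤ M :=
        (Ex_mono fun ω => T.norm_res_sub_one_le (hS ω)).trans (Ex_le_of_sq hM0 hSM)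
      have h5 : Ex (fun ω => Real.sqrt (2 * k * b ω)) ≤ β := by
        refine Ex_le_of_sq hβ0 ?_
        rw [Ex_congr fun ω => Real.sq_sqrt (by have := hb0 ω; positivity), Ex_const_mul]
        exact (mul_le_mul_of_nonneg_left hbE (by positivity)).trans hβ
      gcongr
  have e1 : Ex (gY B u x θ i) - (2 * I * θ * k) • x =
      Ex (fun ω => gY B u x θ i ω - yy u k ((B i).Z (ω i)) (cay (gS B u x θ s ω)) -
        (2 * I * θ) • Dy u k ((B i).Z (ω i)) (cay (gS B u x θ s ω))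
          (res (gS B u x θ s ω) * gH B u x i ω * res (gS B u x θ s ω))) +
      (2 * I * θ) • (Ex (fun ω => Dy u k ((B i).Z (ω i)) (cay (gS B u x θ s ω))
        (res (gS B u x θ s ω) * gH B u x i ω * res (gS B u x θ s ω))) - k • x) := by
    rw [Ex_sub, Ex_sub, h2, Ex_smul, smul_sub, mul_smul (2 * I * θ), Nat.cast_smul_eq_nsmul]
    abel
  rw [e1, map_add, map_smul]
  refine (norm_add_le _ _).trans (add_le_add ((T.norm_le _).trans (norm_Ex_le_const h1)) ?_)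
  rw [norm_smul]
  simp only [norm_mul, Complex.norm_ofNat, norm_I, mul_one, norm_real, Real.norm_eq_abs,
    abs_of_nonneg hθ]
  exact mul_le_mul_of_nonneg_left h3 (by positivity)

omit hη hG hC in
/-- expansion of a word in the perturbations of two blocks -/
lemma expansion_two {i j : Fin n} (hij : i ≠ j) {s : Finset (Fin n)} (hi : i ∉ s) (hj : j ∉ s)
    (hs : univ = insert i (insert j s)) (ω : GΩ B) :
    ‖gY B u x θ i ω - yy u k ((B i).Z (ω i)) (cay (gS B u x θ s ω)) -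
      (2 * I * θ) • Dy u k ((B i).Z (ω i)) (cay (gS B u x θ s ω))
        (res (gS B u x θ s ω) * gH B u x i ω * res (gS B u x θ s ω)) -
      (2 * I * θ) • Dy u k ((B i).Z (ω i)) (cay (gS B u x θ s ω))
        (res (gS B u x θ s ω) * gH B u x j ω * res (gS B u x θ s ω))‖ ≤ 96 * k ^ 4 * θ ^ 2 := by
  have e0 : gS B u x θ univ ω - gS B u x θ s ω = (θ : ℂ) • (gH B u x i ω + gH B u x j ω) := by
    rw [gS, gS, ← smul_sub, hs, sum_insert (by simp [hij, hi]), sum_insert hj]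
    congr 1; abel
  have := norm_yy_expansion (k := k) hu ((B i).Z_uni (ω i))
    (gS_selfAdjoint (B := B) (u := u) (x := x) (θ := θ) s ω)
    (gS_selfAdjoint (B := B) (u := u) (x := x) (θ := θ) univ ω)
  rw [e0, mul_smul_comm, smul_mul_assoc, Dy_smul, smul_smul, mul_add, add_mul, Dy_add, smul_add,
    ← sub_sub] at this
  refine this.trans ?_
  have h2 : ‖(θ : ℂ) • (gH B u x i ω + gH B u x j ω)‖ ≤ θ * (4 * k) := by
    rw [norm_smul, norm_real, Real.norm_eq_abs, abs_of_nonneg hθ]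
    refine mul_le_mul_of_nonneg_left ((norm_add_le _ _).trans ?_) hθ
    have h1 := norm_HH_le (k := k) hu ((B i).Z_uni (ω i)) hx
    have h2 := norm_HH_le (k := k) hu ((B j).Z_uni (ω j)) hx
    simp only [gH]
    linarith
  calc 6 * (k : ℝ) ^ 2 * ‖(θ : ℂ) • (gH B u x i ω + gH B u x j ω)‖ ^ 2
      ≤ 6 * (k : ℝ) ^ 2 * (θ * (4 * k)) ^ 2 := by gcongr
    _ = _ := by ring

end sys

end Crest.Agent.R95
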