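import Crest.Agent.R95.Global

/-! The second moment of the sum of the words. -/

set_option autoImplicit false

namespace Crest.Agent.R95

open scoped InnerProductSpace ComplexConjugate Pointwise
open Complex Finset

variable {A : Type*} [CStarAlgebra A] {K : Type*} [NormedAddCommGroup K] [InnerProductSpace ℂ K]

section sys

variable {P : StarSubalgebra ℂ A} {k n : ℕ} (B : Fin n → Blk P k) (u x : A) (θ : ℝ)

/-- zeroth order term -/
noncomputable def gA (s : Finset (Fin n)) (i : Fin n) (ω : GΩ B) : A :=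
  yy u k ((B i).Z (ω i)) (cay (gS B u x θ s ω))

/-- first order term of the word `i` in the perturbation `j` -/
noncomputable def gX (s : Finset (Fin n)) (i j : Fin n) (ω : GΩ B) : A :=
  Dy u k ((B i).Z (ω i)) (cay (gS B u x θ s ω))
    (res (gS B u x θ s ω) * gH B u x j ω * res (gS B u x θ s ω))

variable {B u x θ}

lemma gA_ρ_self {s : Finset (Fin n)} {i : Fin n} (hi : i ∉ s) (ω : GΩ B) :
    gA B u x θ s i (gρ B i ω) = -gA B u x θ s i ω := by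
  rw [gA, gS_ρ hi, gρ_self, Blk.Z_fl, yy_phase, neg_one_smul, gA]

lemma gA_ρ_ne {s : Finset (Fin n)} {i j : Fin n} (hj : j ∉ s) (hij : i ≠ j) (ω : GΩ B) :
    gA B u x θ s i (gρ B j ω) = gA B u x θ s i ω := by
  rw [gA, gS_ρ hj, gρ_ne hij, gA]

lemma gX_ρ_own {s : Finset (Fin n)} {i : Fin n} (hi : i ∉ s) (ω : GΩ B) :
    gX B u x θ s i i (gρ B i ω) = gX B u x θ s i i ω := by
  rw [gX, gS_ρ hi, gH_ρ_self, gρ_self, Blk.Z_fl, Dy_phase, ← neg_one_smul ℂ (gH B u x i ω),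
    mul_smul_comm, smul_mul_assoc, Dy_smul, smul_smul, gX]
  simp

lemma gX_ρ_cross {s : Finset (Fin n)} {i j : Fin n} (hi : i ∉ s) (hij : i ≠ j) (ω : GΩ B) :
    gX B u x θ s i j (gρ B i ω) = -gX B u x θ s i j ω := by
  rw [gX, gS_ρ hi, gH_ρ_ne hij.symm, gρ_self, Blk.Z_fl, Dy_phase, neg_one_smul, gX]

variable {T : TrModel A K} {η : ℝ} (hu : u ∈ unitary A) (hx : ‖x‖ ≤ 1) (hη : 0 ≤ η) (hθ : 0 ≤ θ)
  (hG : ∀ i, (B i).Good T u η) (hC : ∀ i j, i ≠ j → (B i).Cross (B j) T u η)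

include hu hx in
lemma norm_gX_le (s : Finset (Fin n)) (i j : Fin n) (ω : GΩ B) :
    ‖gX B u x θ s i j ω‖ ≤ 2 * k ^ 2 := by
  have hS := gS_selfAdjoint (B := B) (u := u) (x := x) (θ := θ) s ω
  refine (norm_Dy_le hu ((B i).Z_uni _) (cay_mem_unitary hS) _).trans ?_
  have h1 := norm_res_le hS
  have h2 : ‖gH B u x j ω‖ ≤ 2 * k := norm_HH_le hu ((B j).Z_uni _) hx
  calc (k : ℝ) * ‖res (gS B u x θ s ω) * gH B u x j ω * res (gS B u x θ s ω)‖
      ≤ k * (1 * (2 * k) * 1) :=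
        mul_le_mul_of_nonneg_left (norm_mul₃_le.trans (by gcongr)) (Nat.cast_nonneg k)
    _ = _ := by ring

include hu hx hθ in
lemma norm_ι_smul_gX_le (s : Finset (Fin n)) (i j : Fin n) (ω : GΩ B) :
    ‖T.ι ((2 * I * θ) • gX B u x θ s i j ω)‖ ≤ 4 * θ * k ^ 2 := by
  refine (T.norm_le _).trans ?_
  rw [norm_smul]
  simp only [norm_mul, Complex.norm_ofNat, norm_I, mul_one, norm_real, Real.norm_eq_abs,
    abs_of_nonneg hθ]
  have := mul_le_mul_of_nonneg_left (norm_gX_le (θ := θ) hu hx s i j ω)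
    (show 0 ≤ 2 * θ by positivity)
  linarith

include hθ in
lemma norm_Ex_inner_smul {Ω : Type*} [Fintype Ω] (f g : Ω → A) :
    ‖Ex (fun ω => ⟪T.ι ((2 * I * θ) • f ω), T.ι ((2 * I * θ) • g ω)⟫_ℂ)‖ =
      4 * θ ^ 2 * ‖Ex (fun ω => ⟪T.ι (f ω), T.ι (g ω)⟫_ℂ)‖ := by
  have h : ∀ ω, ⟪T.ι ((2 * I * θ) • f ω), T.ι ((2 * I * θ) • g ω)⟫_ℂ =
      (conj (2 * I * θ) * (2 * I * θ) : ℂ) • ⟪T.ι (f ω), T.ι (g ω)⟫_ℂ := fun ω => by
    rw [map_smul, map_smul, inner_smul_left, inner_smul_right, smul_eq_mul, ← mul_assoc]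
  rw [Ex_congr h, Ex_smul, norm_smul, norm_mul, RCLike.norm_conj]
  simp only [norm_mul, Complex.norm_ofNat, norm_I, mul_one, norm_real,
    Real.norm_eq_abs, abs_of_nonneg hθ]
  ring

lemma Ex_two {E : Type*} [AddCommGroup E] [Module ℝ E] {i j : Fin n} (hij : i ≠ j)
    {s : Finset (Fin n)} (hi : i ∉ s) (hj : j ∉ s) (f : A → (B i).Ω → (B j).Ω → E) :
    Ex (fun ω : GΩ B => f (gS B u x θ s ω) (ω i) (ω j)) =
      Ex (fun ω : GΩ B => Ex fun ζ => Ex fun ζ' => f (gS B u x θ s ω) ζ ζ') := by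
  rw [Ex_update j]
  simp only [gS_update hj, Function.update_self, Function.update_of_ne hij]
  rw [Ex_update i]
  simp only [gS_update hi, Function.update_self]

include hu hx hη hθ hG in
/-- correlation of the even parts -/
lemma even_corr {i j : Fin n} (hij : i ≠ j) :
    ‖Ex (fun ω => ⟪T.ι ((2 : ℂ)⁻¹ • (gY B u x θ i ω + gY B u x θ i (gρ B i ω))),
      T.ι ((2 : ℂ)⁻¹ • (gY B u x θ j ω + gY B u x θ j (gρ B j ω)))⟫_ℂ)‖ ≤
      4 * θ ^ 2 * (k + k ^ 2 * η) ^ 2 +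
        (2 * (4 * θ * k ^ 2) * (96 * k ^ 4 * θ ^ 2) + (96 * k ^ 4 * θ ^ 2) ^ 2) := by
  set s := (univ.erase i).erase j with hs
  have hi : i ∉ s := by simp [hs]
  have hj : j ∉ s := by simp [hs]
  have hs1 : univ = insert i (insert j s) := by
    rw [hs, insert_erase (by simp [hij.symm]), insert_erase (mem_univ i)]
  have hs2 : univ = insert j (insert i s) := by rw [insert_comm, ← hs1]
  have main : ∀ {i j : Fin n}, i ≠ j → i ∉ s → j ∉ s → univ = insert i (insert j s) →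
      ∃ e : GΩ B → K, (∀ ω, ‖e ω‖ ≤ 96 * k ^ 4 * θ ^ 2) ∧ ∀ ω,
        T.ι ((2 : ℂ)⁻¹ • (gY B u x θ i ω + gY B u x θ i (gρ B i ω))) =
          T.ι ((2 * I * θ) • gX B u x θ s i i ω) + e ω := by
    intro i j hij hi hj hs
    let e : GΩ B → A := fun ω => gY B u x θ i ω - gA B u x θ s i ω -
      (2 * I * θ) • gX B u x θ s i i ω - (2 * I * θ) • gX B u x θ s i j ω
    have he : ∀ ω, ‖e ω‖ ≤ 96 * k ^ 4 * θ ^ 2 := expansion_two hu hx hθ hij hi hj hs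
    refine ⟨fun ω => T.ι ((2 : ℂ)⁻¹ • (e ω + e (gρ B i ω))), fun ω => ?_, fun ω => ?_⟩
    · refine (T.norm_le _).trans ?_
      rw [norm_smul, norm_inv, Complex.norm_ofNat]
      linarith [norm_add_le (e ω) (e (gρ B i ω)), he ω, he (gρ B i ω)]
    · rw [← map_add]
      congr 1
      simp only [e, gA_ρ_self hi, gX_ρ_own hi, gX_ρ_cross hi hij]
      module
  obtain ⟨e, he, he'⟩ := main hij hi hj hs1
  obtain ⟨e₂, he₂, he₂'⟩ := main hij.symm hj hi hs2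
  simp only [he', he₂']
  refine (norm_Ex_inner_add_le _ _ _ _ (norm_ι_smul_gX_le hu hx hθ s i i)
    (norm_ι_smul_gX_le hu hx hθ s j j) he he₂).trans (add_le_add ?_ le_rfl)
  rw [norm_Ex_inner_smul hθ]
  refine mul_le_mul_of_nonneg_left ?_ (by positivity)
  simp only [gX, gH]
  rw [Ex_two hij hi hj (fun S ζ ζ' =>
    ⟪T.ι (Dy u k ((B i).Z ζ) (cay S) (res S * HH u x k ((B i).Z ζ) * res S)),
      T.ι (Dy u k ((B j).Z ζ') (cay S) (res S * HH u x k ((B j).Z ζ') * res S))⟫_ℂ)]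
  exact norm_Ex_le_const fun ω => (B i).pair_own (B j) hu hx (hG i) (hG j) hη
    (cay_mem_unitary (gS_selfAdjoint s ω)) (norm_res_le (gS_selfAdjoint s ω))

include hu hx hθ hC in
/-- correlation of the odd parts -/
lemma odd_corr {i j : Fin n} (hij : i ≠ j) :
    ‖Ex (fun ω => ⟪T.ι ((2 : ℂ)⁻¹ • (gY B u x θ i ω - gY B u x θ i (gρ B i ω))),
      T.ι ((2 : ℂ)⁻¹ • (gY B u x θ j ω - gY B u x θ j (gρ B j ω)))⟫_ℂ)‖ ≤
      4 * θ ^ 2 * (k ^ 4 * η) +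
        (2 * (4 * θ * k ^ 2) * (96 * k ^ 4 * θ ^ 2) + (96 * k ^ 4 * θ ^ 2) ^ 2) := by
  set s := (univ.erase i).erase j with hs
  have hi : i ∉ s := by simp [hs]
  have hj : j ∉ s := by simp [hs]
  have hs1 : univ = insert i (insert j s) := by
    rw [hs, insert_erase (by simp [hij.symm]), insert_erase (mem_univ i)]
  have hs2 : univ = insert j (insert i s) := by rw [insert_comm, ← hs1]
  have main : ∀ {i j : Fin n}, i ≠ j → i ∉ s → j ∉ s → univ = insert i (insert j s) →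
      ∃ e : GΩ B → K, (∀ ω, ‖e ω‖ ≤ 96 * k ^ 4 * θ ^ 2) ∧ ∀ ω,
        T.ι ((2 : ℂ)⁻¹ • (gY B u x θ i ω - gY B u x θ i (gρ B i ω))) =
          T.ι (gA B u x θ s i ω) + (T.ι ((2 * I * θ) • gX B u x θ s i j ω) + e ω) := by
    intro i j hij hi hj hs
    let e : GΩ B → A := fun ω => gY B u x θ i ω - gA B u x θ s i ω -
      (2 * I * θ) • gX B u x θ s i i ω - (2 * I * θ) • gX B u x θ s i j ω
    have he : ∀ ω, ‖e ω‖ ≤ 96 * k ^ 4 * θ ^ 2 := expansion_two hu hx hθ hij hi hj hs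
    refine ⟨fun ω => T.ι ((2 : ℂ)⁻¹ • (e ω - e (gρ B i ω))), fun ω => ?_, fun ω => ?_⟩
    · refine (T.norm_le _).trans ?_
      rw [norm_smul, norm_inv, Complex.norm_ofNat]
      linarith [norm_sub_le (e ω) (e (gρ B i ω)), he ω, he (gρ B i ω)]
    · rw [← map_add, ← map_add]
      congr 1
      simp only [e, gA_ρ_self hi, gX_ρ_own hi, gX_ρ_cross hi hij]
      module
  obtain ⟨e, he, he'⟩ := main hij hi hj hs1
  obtain ⟨e₂, he₂, he₂'⟩ := main hij.symm hj hi hs2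
  have z1 : Ex (fun ω => ⟪T.ι (gA B u x θ s i ω),
      T.ι ((2 : ℂ)⁻¹ • (gY B u x θ j ω - gY B u x θ j (gρ B j ω)))⟫_ℂ) = 0 := by
    have := Ex_inner_odd (gρ B j) (fun ω => T.ι (gA B u x θ s i ω))
      (fun ω => T.ι ((2 : ℂ)⁻¹ • gY B u x θ j ω)) (fun ω => by rw [gA_ρ_ne hj hij])
    simpa only [smul_sub, map_sub] using this
  have z2 : Ex (fun ω => ⟪T.ι ((2 : ℂ)⁻¹ • (gY B u x θ i ω - gY B u x θ i (gρ B i ω))),
      T.ι (gA B u x θ s j ω)⟫_ℂ) = 0 := by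
    have := Ex_inner_odd' (gρ B i) (fun ω => T.ι (gA B u x θ s j ω))
      (fun ω => T.ι ((2 : ℂ)⁻¹ • gY B u x θ i ω)) (fun ω => by rw [gA_ρ_ne hi hij.symm])
    simpa only [smul_sub, map_sub] using this
  have z3 : Ex (fun ω => ⟪T.ι (gA B u x θ s i ω), T.ι (gA B u x θ s j ω)⟫_ℂ) = 0 := by
    refine Ex_eq_zero_of_equiv (gρ B i) _ fun ω => ?_
    rw [gA_ρ_self hi, gA_ρ_ne hi hij.symm, map_neg, inner_neg_left]
  have e1 : Ex (fun ω => ⟪T.ι ((2 : ℂ)⁻¹ • (gY B u x θ i ω - gY B u x θ i (gρ B i ω))),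
      T.ι ((2 : ℂ)⁻¹ • (gY B u x θ j ω - gY B u x θ j (gρ B j ω)))⟫_ℂ) =
      Ex (fun ω => ⟪T.ι ((2 * I * θ) • gX B u x θ s i j ω) + e ω,
        T.ι ((2 * I * θ) • gX B u x θ s j i ω) + e₂ ω⟫_ℂ) := by
    rw [← add_zero (Ex (fun ω => ⟪T.ι ((2 * I * θ) • gX B u x θ s i j ω) + e ω,
        T.ι ((2 * I * θ) • gX B u x θ s j i ω) + e₂ ω⟫_ℂ)),
      show (0 : ℂ) = 0 + 0 - 0 by simp]
    nth_rewrite 1 [← z1]
    nth_rewrite 1 [← z2]
    rw [← z3, ← Ex_add, ← Ex_sub, ← Ex_add]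
    refine Ex_congr fun ω => ?_
    simp only [he', he₂', inner_add_left, inner_add_right]
    ring
  rw [e1]
  refine (norm_Ex_inner_add_le _ _ _ _ (norm_ι_smul_gX_le hu hx hθ s i j)
    (norm_ι_smul_gX_le hu hx hθ s j i) he he₂).trans (add_le_add ?_ le_rfl)
  rw [norm_Ex_inner_smul hθ]
  refine mul_le_mul_of_nonneg_left ?_ (by positivity)
  simp only [gX, gH]
  rw [Ex_two hij hi hj (fun S ζ ζ' =>
    ⟪T.ι (Dy u k ((B i).Z ζ) (cay S) (res S * HH u x k ((B j).Z ζ') * res S)),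
      T.ι (Dy u k ((B j).Z ζ') (cay S) (res S * HH u x k ((B i).Z ζ) * res S))⟫_ℂ)]
  exact norm_Ex_le_const fun ω => (B i).pair_cross (B j) hu hx (hC i j hij)
    (cay_mem_unitary (gS_selfAdjoint s ω)) (norm_res_le (gS_selfAdjoint s ω))

include hu in
lemma gY_mem (i : Fin n) (ω : GΩ B) : gY B u x θ i ω ∈ unitary A :=
  yy_mem hu ((B i).Z_uni _) (cay_mem_unitary (gS_selfAdjoint _ _))

include hu hx hη hθ hG hC in
/-- second moment of the sum of the words -/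
lemma Ex_norm_sum_gY_sq :
    Ex (fun ω => ‖T.ι (∑ i, gY B u x θ i ω)‖ ^ 2) ≤
      4 * n + 2 * n ^ 2 * (4 * θ ^ 2 * (k + k ^ 2 * η) ^ 2 + 4 * θ ^ 2 * (k ^ 4 * η) +
        2 * (2 * (4 * θ * k ^ 2) * (96 * k ^ 4 * θ ^ 2) + (96 * k ^ 4 * θ ^ 2) ^ 2)) := by
  have h1 := Ex_norm_sum_sq_le univ
    (fun i ω => T.ι ((2 : ℂ)⁻¹ • (gY B u x θ i ω + gY B u x θ i (gρ B i ω)))) zero_le_one
    (by positivity) (fun i => Ex_le_const fun ω => ?_) (fun i j => even_corr hu hx hη hθ hG)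
  have h2 := Ex_norm_sum_sq_le univ
    (fun i ω => T.ι ((2 : ℂ)⁻¹ • (gY B u x θ i ω - gY B u x θ i (gρ B i ω)))) zero_le_one
    (by positivity) (fun i => Ex_le_const fun ω => ?_) (fun i j => odd_corr hu hx hθ hC)
  · have h3 : ∀ ω, ‖T.ι (∑ i, gY B u x θ i ω)‖ ^ 2 ≤
        2 * ‖∑ i, T.ι ((2 : ℂ)⁻¹ • (gY B u x θ i ω + gY B u x θ i (gρ B i ω)))‖ ^ 2 +
        2 * ‖∑ i, T.ι ((2 : ℂ)⁻¹ • (gY B u x θ i ω - gY B u x θ i (gρ B i ω)))‖ ^ 2 := by
      intro ω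
      have : T.ι (∑ i, gY B u x θ i ω) =
          ∑ i, T.ι ((2 : ℂ)⁻¹ • (gY B u x θ i ω + gY B u x θ i (gρ B i ω))) +
          ∑ i, T.ι ((2 : ℂ)⁻¹ • (gY B u x θ i ω - gY B u x θ i (gρ B i ω))) := by
        rw [← sum_add_distrib, map_sum]
        refine sum_congr rfl fun i _ => ?_
        rw [← map_add]
        congr 1
        module
      rw [this]
      have h := norm_add_le
        (∑ i, T.ι ((2 : ℂ)⁻¹ • (gY B u x θ i ω + gY B u x θ i (gρ B i ω))))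
        (∑ i, T.ι ((2 : ℂ)⁻¹ • (gY B u x θ i ω - gY B u x θ i (gρ B i ω))))
      refine (pow_le_pow_left₀ (norm_nonneg _) h 2).trans ?_
      nlinarith [sq_nonneg
        (‖∑ i, T.ι ((2 : ℂ)⁻¹ • (gY B u x θ i ω + gY B u x θ i (gρ B i ω)))‖ -
        ‖∑ i, T.ι ((2 : ℂ)⁻¹ • (gY B u x θ i ω - gY B u x θ i (gρ B i ω)))‖)]
    refine (Ex_mono h3).trans ?_
    rw [Ex_add, Ex_const_mul, Ex_const_mul]
    linarith
  · refine pow_le_one₀ (norm_nonneg _) ((T.norm_le _).trans ?_)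
    rw [norm_smul, norm_inv, Complex.norm_ofNat]
    linarith [norm_sub_le (gY B u x θ i ω) (gY B u x θ i (gρ B i ω)),
      norm_unitary_le (gY_mem (x := x) (θ := θ) hu i ω),
      norm_unitary_le (gY_mem (x := x) (θ := θ) hu i (gρ B i ω))]
  · refine pow_le_one₀ (norm_nonneg _) ((T.norm_le _).trans ?_)
    rw [norm_smul, norm_inv, Complex.norm_ofNat]
    linarith [norm_add_le (gY B u x θ i ω) (gY B u x θ i (gρ B i ω)),
      norm_unitary_le (gY_mem (x := x) (θ := θ) hu i ω),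
      norm_unitary_le (gY_mem (x := x) (θ := θ) hu i (gρ B i ω))]

end sys

end Crest.Agent.R95
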