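import Crest.Agent.R95.Dixmier

/-! Halving of projections in an infinite-dimensional finite factor.  Author: helper25. -/

set_option autoImplicit false

namespace Crest.Agent.R95

open scoped InnerProductSpace ComplexConjugate Topology
open Filter Complex

variable {A : Type*} [CStarAlgebra A] {K : Type*} [NormedAddCommGroup K] [InnerProductSpace ℂ K]

theorem halving_factor (T : TrModel A K) (hf : IsFactorAlg A) {a b : A} (hb : b ≠ 0)
    (h : ∀ v : A, a * v * b = 0) : a = 0 := by
  have hτ : T.τ (b * star b) ≠ 0 := by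
    have h1 := T.τ_star_mul_self (star b)
    rw [star_star] at h1
    rw [h1]
    have h2 : ‖T.ι (star b)‖ ≠ 0 := fun h0 => hb (star_eq_zero.1 (T.eq_zero_of_norm h0))
    exact_mod_cast pow_ne_zero 2 h2
  have h3 : T.τ (b * star b) • a = 0 := by
    refine T.eq_zero_of_forall_norm_le fun ε hε => ?_
    obtain ⟨f, hf⟩ := dixmier T hf.irr {b * star b} (Set.finite_singleton _)
      (η := ε / (‖a‖ + 1)) (by positivity)
    have h4 := hf _ (Set.mem_singleton _)
    have h5 : a * Ex (fun j => f.z j * (b * star b) * star (f.z j)) = 0 := by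
      rw [mul_Ex, Ex_congr (g := fun _ => 0), Ex_zero]
      intro j
      rw [show a * (f.z j * (b * star b) * star (f.z j)) =
        (a * f.z j * b) * (star b * star (f.z j)) by noncomm_ring, h, zero_mul]
    have h6 : T.τ (b * star b) • a =
        -(a * (Ex (fun j => f.z j * (b * star b) * star (f.z j)) - T.τ (b * star b) • (1 : A))) := by
      rw [mul_sub, h5, mul_smul_comm, mul_one]; simp
    rw [h6, map_neg, norm_neg]
    refine (T.norm_mul_le _ _).trans ?_
    rw [le_div_iff₀ (by positivity)] at h4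
    nlinarith [norm_nonneg a, norm_nonneg (T.ι (Ex (fun j => f.z j * (b * star b) *
      star (f.z j)) - T.τ (b * star b) • (1 : A)))]
  exact (smul_eq_zero.1 h3).resolve_left hτ

theorem halving_τ_proj (T : TrModel A K) {e : A} (h1 : star e = e) (h2 : e * e = e) :
    T.τ e = ((‖T.ι e‖ ^ 2 : ℝ) : ℂ) := by
  rw [← T.τ_star_mul_self, h1, h2]

theorem halving_finite_of_minimal (T : TrModel A K) (hf : IsFactorAlg A) {r : A}
    (hr : IsStarProjection r) (hr0 : r ≠ 0) (hmin : ∀ x : A, ∃ c : ℂ, r * x * r = c • r) :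
    FiniteDimensional ℂ A := by
  have hrs : star r = r := hr.isSelfAdjoint.star_eq
  have hrr : r * r = r := hr.isIdempotentElem.eq
  set t : ℝ := ‖T.ι r‖ ^ 2 with ht
  have ht0 : 0 < t := by
    have : ‖T.ι r‖ ≠ 0 := fun h0 => hr0 (T.eq_zero_of_norm h0)
    positivity
  have hτr : T.τ r = (t : ℂ) := halving_τ_proj T hrs hrr
  have htc : (t : ℂ) ≠ 0 := by exact_mod_cast ht0.ne'
  let V : Submodule ℂ A := LinearMap.range (LinearMap.mulRight ℂ r)
  have hV : ∀ x ∈ V, x * r = x := by
    rintro _ ⟨y, rfl⟩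
    simp [mul_assoc, hrr]
  have hW : FiniteDimensional ℂ (V.map T.ι) := by
    by_contra hW
    obtain ⟨m, hm⟩ := exists_nat_gt (1 / t)
    have h1 : (m : Cardinal) ≤ Module.rank ℂ (V.map T.ι) := by
      have h2 : ¬ Module.rank ℂ (V.map T.ι) < Cardinal.aleph0 := fun h =>
        hW (Module.rank_lt_aleph0_iff.1 h)
      exact (Cardinal.natCast_lt_aleph0).le.trans (not_lt.1 h2)
    obtain ⟨g, hg⟩ := exists_linearIndependent_of_le_rank h1
    have ho := InnerProductSpace.gramSchmidtNormed_orthonormal hg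
    set e := InnerProductSpace.gramSchmidtNormed ℂ g with he
    have hx : ∀ i, ∃ x ∈ V, T.ι x = (e i : K) := fun i => (e i).2
    choose x hxV hxe using hx
    have hin : ∀ i j, T.τ (star (x i) * x j) = if i = j then 1 else 0 := by
      intro i j
      rw [← T.inner_eq, hxe, hxe, ← orthonormal_iff_ite.1 ho i j]
      rfl
    have hxx : ∀ i j, star (x i) * x j = (if i = j then (t : ℂ)⁻¹ else 0) • r := by
      intro i j
      obtain ⟨c, hc⟩ := hmin (star (x i) * x j)
      have h1 : r * star (x i) = star (x i) := by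
        rw [← hrs, ← star_mul, hV _ (hxV i)]
      rw [← mul_assoc, h1, mul_assoc, hV _ (hxV j)] at hc
      have h2 := hin i j
      rw [hc, map_smul, hτr, smul_eq_mul] at h2
      rw [hc]
      congr 1
      split_ifs at h2 ⊢
      · exact eq_inv_of_mul_eq_one_left h2
      · exact (mul_eq_zero.1 h2).resolve_right htc
    set E : A := (t : ℂ) • ∑ i, x i * star (x i) with hE
    have hEs : star E = E := by
      simp [hE, star_sum]
    have hEE : E * E = E := by
      rw [hE, smul_mul_smul_comm, Finset.sum_mul_sum, mul_smul]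
      congr 1
      rw [Finset.smul_sum]
      refine Finset.sum_congr rfl fun i _ => ?_
      have h1 : ∀ j, x i * star (x i) * (x j * star (x j)) =
          if i = j then (t : ℂ)⁻¹ • (x i * star (x i)) else 0 := by
        intro j
        rw [show x i * star (x i) * (x j * star (x j)) = x i * (star (x i) * x j) * star (x j) by
          noncomm_ring, hxx]
        split_ifs with h
        · subst h
          rw [mul_smul_comm, hV _ (hxV i), smul_mul_assoc]
        · simp
      simp only [h1, Finset.sum_ite_eq, Finset.mem_univ, if_true, smul_smul, mul_inv_cancel₀ htc,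
        one_smul]
    have hτE : T.τ E = (t : ℂ) * m := by
      rw [hE, map_smul, map_sum, smul_eq_mul]
      congr 1
      rw [Finset.sum_congr rfl (g := fun _ => 1)]
      · simp
      · intro i _
        rw [T.τ_comm, hin, if_pos rfl]
    have h3 := halving_τ_proj T (e := 1 - E) (by rw [star_sub, star_one, hEs])
      (by rw [sub_mul, mul_sub, mul_sub, hEE]; simp)
    rw [map_sub, T.τ_one, hτE] at h3
    have h4 : 1 - t * m = ‖T.ι (1 - E)‖ ^ 2 := by exact_mod_cast h3
    rw [div_lt_iff₀ ht0] at hm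
    nlinarith [sq_nonneg ‖T.ι (1 - E)‖]
  have hVf : FiniteDimensional ℂ V :=
    (Submodule.equivMapOfInjective T.ι T.inj V).symm.finiteDimensional
  let L : A →ₗ[ℂ] (V →ₗ[ℂ] V) :=
    { toFun := fun a => (LinearMap.mulLeft ℂ a).restrict (p := V) (q := V) (by
        rintro _ ⟨y, rfl⟩
        exact ⟨a * y, by simp [mul_assoc]⟩)
      map_add' := fun a b => by
        ext v; simp [add_mul]
      map_smul' := fun c a => by
        ext v; simp }
  refine Module.Finite.of_injective L ?_
  rw [injective_iff_map_eq_zero]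
  intro a ha
  refine halving_factor T hf hr0 fun v => ?_
  have h1 := congrArg Subtype.val (LinearMap.congr_fun ha ⟨v * r, v, rfl⟩)
  rw [mul_assoc]
  exact h1

theorem halving_cfc_nonneg (a : A) {g : ℝ → ℝ} (hg : Continuous g)
    (h0 : ∀ t ∈ spectrum ℝ a, 0 ≤ g t) :
    ∃ s : A, cfc g a = star s * s := by
  refine ⟨cfc (fun t => √(g t)) a, ?_⟩
  have hs : IsSelfAdjoint (cfc (fun t => √(g t)) a) := cfc_predicate _ a
  rw [hs.star_eq, ← cfc_mul _ _ a hg.sqrt.continuousOn hg.sqrt.continuousOn]
  exact cfc_congr fun t ht => (Real.mul_self_sqrt (h0 t ht)).symm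

theorem halving_sa_parts (T : TrModel A K) {h : A} (hs : IsSelfAdjoint h) (hτ : T.τ h = 0)
    (h0 : h ≠ 0) : ∃ a b : A, a ≠ 0 ∧ b ≠ 0 ∧ b * a = 0 ∧ (∃ c, a = h * c) ∧ ∃ c, b = c * h := by
  have hcp : Continuous fun t : ℝ => max t 0 := by fun_prop
  have hcn : Continuous fun t : ℝ => max (-t) 0 := by fun_prop
  set P : A := cfc (fun t : ℝ => max t 0) h with hP
  set N : A := cfc (fun t : ℝ => max (-t) 0) h with hN
  have hPN : P - N = h := by
    rw [hP, hN, ← cfc_sub _ _ h hcp.continuousOn hcn.continuousOn]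
    conv_rhs => rw [← cfc_id' ℝ h]
    refine cfc_congr fun t _ => ?_
    rcases le_total t 0 with ht | ht
    · simp [ht]
    · simp [ht]
  have hz : ∀ t : ℝ, max (-t) 0 * max t 0 = 0 := by
    intro t
    rcases le_total t 0 with ht | ht
    · simp [ht]
    · simp [ht]
  have hNP : N * P = 0 := by
    rw [hP, hN, ← cfc_mul _ _ h hcn.continuousOn hcp.continuousOn]
    simp [hz]
  have hPs : star P = P := (cfc_predicate _ h : IsSelfAdjoint _).star_eq
  have hNs : star N = N := (cfc_predicate _ h : IsSelfAdjoint _).star_eq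
  obtain ⟨s, hs1⟩ := halving_cfc_nonneg h hcp fun t _ => le_max_right _ _
  obtain ⟨s', hs2⟩ := halving_cfc_nonneg h hcn fun t _ => le_max_right _ _
  rw [← hP] at hs1
  rw [← hN] at hs2
  have hτPN : T.τ P = T.τ N := by
    rw [← sub_eq_zero, ← map_sub, hPN, hτ]
  have key : ∀ u : A, T.τ (star u * u) = 0 → star u * u = 0 := by
    intro u hu
    rw [T.τ_star_mul_self] at hu
    have : ‖T.ι u‖ ^ 2 = 0 := by exact_mod_cast hu
    rw [T.eq_zero_of_norm (pow_eq_zero_iff two_ne_zero |>.1 this), mul_zero]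
  have hP0 : P ≠ 0 := by
    intro h1
    have h2 : N = 0 := by
      rw [hs2]; apply key; rw [← hs2, ← hτPN, h1, map_zero]
    exact h0 (by rw [← hPN, h1, h2, sub_zero])
  have hN0 : N ≠ 0 := by
    intro h1
    have h2 : P = 0 := by
      rw [hs1]; apply key; rw [← hs1, hτPN, h1, map_zero]
    exact hP0 h2
  refine ⟨P * P, N * N, ?_, ?_, ?_, ⟨P, ?_⟩, ⟨-N, ?_⟩⟩
  · intro h1
    exact hP0 ((CStarRing.star_mul_self_eq_zero_iff P).1 (by rw [hPs, h1]))
  · intro h1
    exact hN0 ((CStarRing.star_mul_self_eq_zero_iff N).1 (by rw [hNs, h1]))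
  · rw [show N * N * (P * P) = N * (N * P) * P by noncomm_ring, hNP]; simp
  · rw [← hPN, sub_mul, hNP, sub_zero]
  · rw [← hPN, mul_sub, neg_mul, hNP]; simp

theorem halving_exists_nilp (T : TrModel A K) (hf : IsFactorAlg A)
    (hinf : ¬ FiniteDimensional ℂ A) {r : A} (hr : IsStarProjection r) (hr0 : r ≠ 0) :
    ∃ z : A, z ≠ 0 ∧ z * z = 0 ∧ r * z = z ∧ z * r = z := by
  have hrs : star r = r := hr.isSelfAdjoint.star_eq
  have hrr : r * r = r := hr.isIdempotentElem.eq
  set t : ℝ := ‖T.ι r‖ ^ 2 with ht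
  have ht0 : 0 < t := by
    have : ‖T.ι r‖ ≠ 0 := fun h0 => hr0 (T.eq_zero_of_norm h0)
    positivity
  have hτr : T.τ r = (t : ℂ) := halving_τ_proj T hrs hrr
  have htc : (t : ℂ) ≠ 0 := by exact_mod_cast ht0.ne'
  have h1 : ∃ y : A, IsSelfAdjoint y ∧ ∀ c : ℂ, r * y * r ≠ c • r := by
    by_contra hcon
    push Not at hcon
    refine hinf (halving_finite_of_minimal T hf hr hr0 fun x => ?_)
    obtain ⟨c1, hc1⟩ := hcon (x + star x) (by rw [IsSelfAdjoint, star_add, star_star, add_comm])
    obtain ⟨c2, hc2⟩ := hcon (I • (x - star x)) (by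
      rw [IsSelfAdjoint, star_smul, star_sub, star_star, ← neg_sub x (star x), smul_neg,
        ← neg_smul]
      simp)
    have h5 : x = (2 : ℂ)⁻¹ • ((x + star x) - I • (I • (x - star x))) := by
      rw [smul_smul, I_mul_I]
      module
    refine ⟨(2 : ℂ)⁻¹ * (c1 - I * c2), ?_⟩
    rw [h5, mul_smul_comm, smul_mul_assoc, mul_sub, sub_mul, hc1, mul_smul_comm, smul_mul_assoc,
      hc2]
    module
  obtain ⟨y, hy, hyc⟩ := h1
  have hys : star (r * y * r) = r * y * r := by
    rw [star_mul, star_mul, hrs, hy.star_eq, mul_assoc]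
  set c : ℂ := T.τ (r * y * r) / t with hc
  have hcs : star c = c := by
    rw [hc, star_div₀, Complex.star_def, ← T.τ_star, hys, Complex.conj_ofReal]
  set h : A := r * y * r - c • r with hh
  have hhs : IsSelfAdjoint h := by
    rw [IsSelfAdjoint, hh, star_sub, hys, star_smul, hcs, hrs]
  have hτh : T.τ h = 0 := by
    rw [hh, map_sub, map_smul, hτr, smul_eq_mul, hc, div_mul_cancel₀ _ htc, sub_self]
  have hh0 : h ≠ 0 := fun h0 => hyc c (sub_eq_zero.1 h0)
  have hrh : r * h = h := by
    rw [hh, mul_sub, mul_smul_comm, ← mul_assoc, ← mul_assoc, hrr]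
  have hhr : h * r = h := by
    rw [hh, sub_mul, smul_mul_assoc, mul_assoc _ r r, hrr]
  obtain ⟨a, b, ha, hb, hba, ⟨c1, hc1⟩, ⟨c2, hc2⟩⟩ := halving_sa_parts T hhs hτh hh0
  have h2 : ∃ v, a * v * b ≠ 0 := by
    by_contra hcon
    push Not at hcon
    exact ha (halving_factor T hf hb hcon)
  obtain ⟨v, hv⟩ := h2
  refine ⟨a * v * b, hv, ?_, ?_, ?_⟩
  · rw [show a * v * b * (a * v * b) = a * v * (b * a) * (v * b) by noncomm_ring, hba]; simp
  · rw [← mul_assoc, ← mul_assoc, hc1, ← mul_assoc r, hrh]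
  · rw [mul_assoc, hc2, mul_assoc c2, hhr]

omit [InnerProductSpace ℂ K] in
theorem halving_cauchy {x : ℕ → K} (hb : ∀ n, ‖x n‖ ≤ 1)
    (h : ∀ m l, m ≤ l → ‖x l - x m‖ ^ 2 ≤ ‖x l‖ ^ 2 - ‖x m‖ ^ 2) : CauchySeq x := by
  have hmono : Monotone fun n => ‖x n‖ ^ 2 := fun m l hml => by
    have := h m l hml
    nlinarith [sq_nonneg ‖x l - x m‖]
  have hbdd : BddAbove (Set.range fun n => ‖x n‖ ^ 2) :=
    ⟨1, by rintro _ ⟨n, rfl⟩; nlinarith [hb n, norm_nonneg (x n)]⟩
  have hc := (tendsto_atTop_ciSup hmono hbdd).cauchySeq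
  rw [Metric.cauchySeq_iff'] at hc ⊢
  intro ε hε
  obtain ⟨N, hN⟩ := hc (ε ^ 2) (by positivity)
  refine ⟨N, fun n hn => ?_⟩
  have h1 := hN n hn
  rw [Real.dist_eq] at h1
  rw [dist_eq_norm]
  exact lt_of_pow_lt_pow_left₀ 2 hε.le ((h N n hn).trans_lt ((le_abs_self _).trans_lt h1))

/-- the regularised function `t ↦ (|t| + δ) ^ (-3/2)` -/
noncomputable def halvingH (δ t : ℝ) : ℝ := (√(|t| + δ) ^ 3)⁻¹

theorem halvingH_cont {δ : ℝ} (hδ : 0 < δ) : Continuous (halvingH δ) := by
  unfold halvingH
  refine Continuous.inv₀ (by fun_prop) fun t => ?_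
  have : 0 < √(|t| + δ) := Real.sqrt_pos.2 (by positivity)
  positivity

theorem halvingH_pos {δ : ℝ} (hδ : 0 < δ) (t : ℝ) : 0 < halvingH δ t := by
  have : 0 < √(|t| + δ) := Real.sqrt_pos.2 (by positivity)
  unfold halvingH
  positivity

theorem halvingH_anti {δ ε : ℝ} (hε : 0 < ε) (h : ε ≤ δ) (t : ℝ) : halvingH δ t ≤ halvingH ε t := by
  have : 0 < √(|t| + ε) := Real.sqrt_pos.2 (by positivity)
  unfold halvingH
  gcongr

theorem halvingH_sq {δ t : ℝ} (hδ : 0 < δ) (ht : 0 ≤ t) :
    halvingH δ t * t * t * (halvingH δ t * t) = (t / (t + δ)) ^ 3 := by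
  have h1 : √(|t| + δ) ^ 2 = t + δ := by
    rw [Real.sq_sqrt (by positivity), abs_of_nonneg ht]
  have h2 : halvingH δ t * halvingH δ t = ((t + δ) ^ 3)⁻¹ := by
    unfold halvingH
    rw [← mul_inv, ← h1]
    congr 1
    ring
  calc halvingH δ t * t * t * (halvingH δ t * t) = (halvingH δ t * halvingH δ t) * t ^ 3 := by ring
    _ = _ := by rw [h2, div_pow]; ring

theorem halving_polar (T : TrModel A K) {z : A} (hz0 : z ≠ 0) (hzz : z * z = 0) {r : A}
    (hrz : r * z = z) (hzr : z * r = z) :
    ∃ w : A, w ≠ 0 ∧ w * w = 0 ∧ w * star w * w = w ∧ r * w = w ∧ w * r = w := by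
  set a : A := star z * z with ha
  have has : IsSelfAdjoint a := IsSelfAdjoint.star_mul_self z
  have hsp : ∀ t ∈ spectrum ℝ a, 0 ≤ t := spectrum_star_mul_self_nonneg
  let δ : ℕ → ℝ := fun m => 1 / ((m : ℝ) + 1)
  have hδ : ∀ m, 0 < δ m := fun m => by positivity
  let φ : ℕ → ℝ → ℝ := fun m t => halvingH (δ m) t * t
  have hφc : ∀ m, Continuous (φ m) := fun m => (halvingH_cont (hδ m)).mul continuous_id
  have hF : ∀ m, cfc (φ m) a = cfc (halvingH (δ m)) a * a := by
    intro m
    conv_rhs => enter [2]; rw [← cfc_id' ℝ a]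
    exact cfc_mul _ _ a (halvingH_cont (hδ m)).continuousOn continuous_id.continuousOn
  let w : ℕ → A := fun m => z * cfc (φ m) a
  have hgen : ∀ f g : ℝ → ℝ, Continuous f → Continuous g →
      star (z * cfc f a) * (z * cfc g a) = cfc (fun t => f t * t * g t) a := by
    intro f g hf hg
    have h1 : IsSelfAdjoint (cfc f a) := cfc_predicate _ a
    rw [cfc_mul (fun t => f t * t) g a (hf.mul continuous_id).continuousOn hg.continuousOn,
      cfc_mul f (fun t => t) a hf.continuousOn continuous_id.continuousOn, cfc_id' ℝ a,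
      star_mul, h1.star_eq, ha]
    noncomm_ring
  have hG : ∀ m, ∀ t ∈ spectrum ℝ a, φ m t * t * φ m t = (t / (t + δ m)) ^ 3 :=
    fun m t ht => halvingH_sq (hδ m) (hsp t ht)
  have hwn : ∀ m, ‖w m‖ ≤ 1 := by
    intro m
    have h1 : ‖star (w m) * w m‖ ≤ 1 := by
      rw [hgen _ _ (hφc m) (hφc m)]
      refine norm_cfc_le zero_le_one fun t ht => ?_
      have h0 := hsp t ht
      have h2 := hδ m
      rw [hG m t ht, Real.norm_of_nonneg (by positivity)]
      exact pow_le_one₀ (by positivity) ((div_le_one (by positivity)).2 (by linarith))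
    rw [CStarRing.norm_star_mul_self] at h1
    nlinarith [norm_nonneg (w m)]
  have hcau : CauchySeq fun m => T.ι (w m) := by
    refine halving_cauchy (fun m => (T.norm_le _).trans (hwn m)) fun m l hml => ?_
    have h1 : w l - w m = z * cfc (fun t => φ l t - φ m t) a := by
      rw [cfc_sub _ _ a (hφc l).continuousOn (hφc m).continuousOn, mul_sub]
    have hc1 : Continuous fun t => φ l t * t * φ l t := ((hφc l).mul continuous_id).mul (hφc l)
    have hc2 : Continuous fun t => φ m t * t * φ m t := ((hφc m).mul continuous_id).mul (hφc m)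
    have hc3 : Continuous fun t => (φ l t - φ m t) * t * (φ l t - φ m t) :=
      (((hφc l).sub (hφc m)).mul continuous_id).mul ((hφc l).sub (hφc m))
    have hc12 : Continuous fun t => φ l t * t * φ l t - φ m t * t * φ m t := hc1.sub hc2
    have hlm : Continuous fun t => φ l t - φ m t := (hφc l).sub (hφc m)
    obtain ⟨s, hs⟩ := halving_cfc_nonneg a
      (g := fun t => (φ l t * t * φ l t - φ m t * t * φ m t) -
        (φ l t - φ m t) * t * (φ l t - φ m t)) (hc12.sub hc3) (fun t ht => by
      have h0 := hsp t ht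
      have h2 : 0 ≤ φ m t := mul_nonneg (halvingH_pos (hδ m) t).le h0
      have h3 : φ m t ≤ φ l t := mul_le_mul_of_nonneg_right
        (halvingH_anti (hδ l) (Nat.one_div_le_one_div hml) t) h0
      have h4 : 0 ≤ t * (φ m t * (φ l t - φ m t)) :=
        mul_nonneg h0 (mul_nonneg h2 (sub_nonneg.2 h3))
      nlinarith)
    rw [cfc_sub _ _ a hc12.continuousOn hc3.continuousOn,
      cfc_sub _ _ a hc1.continuousOn hc2.continuousOn, ← hgen _ _ (hφc l) (hφc l),
      ← hgen _ _ (hφc m) (hφc m), ← hgen _ _ hlm hlm, ← h1] at hs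
    have h2 := congrArg (fun y => (T.τ y).re) hs
    simp only [map_sub, sub_re, ← T.norm_sq_eq] at h2
    rw [← map_sub]
    have h3 := sq_nonneg ‖T.ι s‖
    rw [map_sub]
    linarith
  obtain ⟨W, -, hW⟩ := T.complete w 1 hwn hcau
  have hwz : ∀ m, w m = z * cfc (halvingH (δ m)) a * star z * z := by
    intro m
    change z * cfc (φ m) a = _
    rw [hF, ha]
    noncomm_ring
  have hWs := T.tendsto_star hW
  have hae : a * (star W * W) = a := by
    have h1 := T.tendsto_mul (x := fun _ => a) (fun _ => le_rfl) tendsto_const_nhds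
      (T.tendsto_mul (fun m => (norm_star (w m)).le.trans (hwn m)) hWs hW)
    refine T.tendsto_unique h1 ?_
    rw [tendsto_iff_norm_sub_tendsto_zero]
    have h2 : Tendsto (fun m => 3 * δ m) atTop (𝓝 0) := by
      have := tendsto_one_div_add_atTop_nhds_zero_nat.const_mul (3 : ℝ)
      rw [mul_zero] at this
      exact this
    refine squeeze_zero (fun _ => norm_nonneg _) (fun m => ?_) h2
    rw [← map_sub]
    refine (T.norm_le _).trans ?_
    have hc1 : Continuous fun t => φ m t * t * φ m t := ((hφc m).mul continuous_id).mul (hφc m)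
    have h3 : a * (star (w m) * w m) - a = cfc (fun t => t * (φ m t * t * φ m t) - t) a := by
      rw [cfc_sub (fun t => t * (φ m t * t * φ m t)) (fun t => t) a
        (continuous_id.mul hc1).continuousOn continuous_id.continuousOn,
        cfc_mul (fun t => t) _ a continuous_id.continuousOn hc1.continuousOn, cfc_id' ℝ a,
        hgen _ _ (hφc m) (hφc m)]
    rw [h3]
    refine norm_cfc_le (by have := hδ m; positivity) fun t ht => ?_
    have h0 := hsp t ht
    have hd := hδ m
    rw [hG m t ht]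
    have h4 : t * (t / (t + δ m)) ^ 3 - t =
        -(δ m * (t / (t + δ m) + (t / (t + δ m)) ^ 2 + (t / (t + δ m)) ^ 3)) := by
      field_simp
      ring
    have h5 : 0 ≤ t / (t + δ m) := by positivity
    have h6 : t / (t + δ m) ≤ 1 := (div_le_one (by positivity)).2 (by linarith)
    have h7 : (t / (t + δ m)) ^ 2 ≤ 1 := pow_le_one₀ h5 h6
    have h8 : (t / (t + δ m)) ^ 3 ≤ 1 := pow_le_one₀ h5 h6
    rw [h4, norm_neg, Real.norm_of_nonneg (by positivity)]
    nlinarith
  refine ⟨W, ?_, ?_, ?_, ?_, ?_⟩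
  · intro h0
    rw [h0, mul_zero, mul_zero] at hae
    exact hz0 ((CStarRing.star_mul_self_eq_zero_iff z).1 hae.symm)
  · have h1 := T.tendsto_mul hwn hW hW
    have h2 : ∀ m, w m * w m = 0 := by
      intro m
      nth_rewrite 1 [hwz m]
      change _ * (z * cfc (φ m) a) = 0
      rw [mul_assoc _ z, ← mul_assoc z z, hzz]; simp
    simp only [h2] at h1
    exact T.tendsto_unique h1 tendsto_const_nhds
  · have h1 := T.tendsto_mul (y := fun _ => star W * W) hwn hW tendsto_const_nhds
    have h2 : ∀ m, w m * (star W * W) = w m := by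
      intro m
      change z * cfc (φ m) a * _ = z * cfc (φ m) a
      rw [hF, mul_assoc, mul_assoc, hae]
    simp only [h2] at h1
    rw [mul_assoc]
    exact T.tendsto_unique h1 hW
  · have h1 := T.tendsto_mul (x := fun _ => r) (fun _ => le_rfl) tendsto_const_nhds hW
    have h2 : ∀ m, r * w m = w m := by
      intro m
      change r * (z * cfc (φ m) a) = z * cfc (φ m) a
      rw [← mul_assoc, hrz]
    simp only [h2] at h1
    exact T.tendsto_unique h1 hW
  · have h1 := T.tendsto_mul (y := fun _ => r) hwn hW tendsto_const_nhds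
    have h2 : ∀ m, w m * r = w m := by
      intro m
      rw [hwz m, mul_assoc _ z, hzr]
    simp only [h2] at h1
    exact T.tendsto_unique h1 hW

/-- the Brezis--Browder ordering principle -/
theorem halving_brezis_browder {X : Type*} (R : X → X → Prop) (φ : X → ℝ) (x₀ : X)
    (hrefl : ∀ x, R x x) (htrans : ∀ x y z, R x y → R y z → R x z)
    (hmono : ∀ x y, R x y → φ x ≤ φ y) (hbdd : ∀ x, φ x ≤ 1)
    (hub : ∀ u : ℕ → X, (∀ n, R (u n) (u (n + 1))) → ∃ y, ∀ n, R (u n) y) :
    ∃ x, ∀ y, R x y → φ y ≤ φ x := by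
  have h1 : ∀ (n : ℕ) (x : X), ∃ y, R x y ∧ ∀ y', R x y' → φ y' ≤ φ y + 1 / ((n : ℝ) + 1) := by
    intro n x
    have hne : (φ '' {y | R x y}).Nonempty := ⟨φ x, x, hrefl x, rfl⟩
    have hb : BddAbove (φ '' {y | R x y}) := ⟨1, by rintro _ ⟨y, -, rfl⟩; exact hbdd y⟩
    have hpos : (0 : ℝ) < 1 / ((n : ℝ) + 1) := by positivity
    obtain ⟨_, ⟨y, hy, rfl⟩, hlt⟩ := exists_lt_of_lt_csSup hne
      (show sSup (φ '' {y | R x y}) - 1 / ((n : ℝ) + 1) < sSup (φ '' {y | R x y}) by linarith)
    refine ⟨y, hy, fun y' hy' => ?_⟩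
    have := le_csSup hb ⟨y', hy', rfl⟩
    linarith
  choose f hf1 hf2 using h1
  let u : ℕ → X := fun n => Nat.rec x₀ (fun k x => f k x) n
  obtain ⟨y, hy⟩ := hub u fun n => hf1 n (u n)
  refine ⟨y, fun y' hy' => ?_⟩
  refine le_of_forall_pos_le_add fun ε hε => ?_
  obtain ⟨n, hn⟩ := exists_nat_one_div_lt hε
  have h2 := hf2 n (u n) y' (htrans _ _ _ (hy n) hy')
  have h3 : φ (f n (u n)) ≤ φ y := hmono _ _ (hy (n + 1))
  linarith

theorem halving_norm_le_one {w : A} (h : w * star w * w = w) : ‖w‖ ≤ 1 := by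
  have h1 : star w * w * (star w * w) = star w * w := by
    rw [show star w * w * (star w * w) = star w * (w * star w * w) by noncomm_ring, h]
  have h2 := CStarRing.norm_star_mul_self (x := star w * w)
  rw [star_mul, star_star, h1, CStarRing.norm_star_mul_self] at h2
  by_contra h3
  push Not at h3
  have h4 : 1 < ‖w‖ * ‖w‖ := by nlinarith
  nlinarith

theorem halving_ext_norm (T : TrModel A K) {w w' : A} (h : w * star w * w = w)
    (hR : w' * (star w * w) = w) : ‖T.ι w' - T.ι w‖ ^ 2 = ‖T.ι w'‖ ^ 2 - ‖T.ι w‖ ^ 2 := by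
  have hs : star w * w * star w = star w := by
    have := congrArg star h
    rwa [star_mul, star_mul, star_star, ← mul_assoc] at this
  have h1 : ⟪T.ι w, T.ι w'⟫_ℂ = ((‖T.ι w‖ ^ 2 : ℝ) : ℂ) := by
    rw [T.inner_eq, ← T.τ_star_mul_self]
    conv_lhs => rw [← hs, mul_assoc, T.τ_comm, mul_assoc, hR]
  rw [norm_sub_rev, @norm_sub_sq ℂ, h1]
  simp only [RCLike.re_to_complex, ofReal_re]
  ring

theorem halving_ext_trans {w w' w'' : A} (h : w * star w * w = w) (h' : w' * star w' * w' = w')
    (hR : w' * (star w * w) = w) (hR' : w'' * (star w' * w') = w') :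
    w'' * (star w * w) = w := by
  set e := star w * w with he
  set e' := star w' * w' with he'
  have hes : star e = e := by rw [he, star_mul, star_star]
  have hes' : star e' = e' := by rw [he', star_mul, star_star]
  have hee : e * e = e := by
    rw [he, show star w * w * (star w * w) = star w * (w * star w * w) by noncomm_ring, h]
  have hee' : e' * e' = e' := by
    rw [he', show star w' * w' * (star w' * w') = star w' * (w' * star w' * w') by noncomm_ring, h']
  have h1 : e * e' * e = e := by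
    have h2 : star (w' * e) * (w' * e) = e := by rw [hR]
    rw [star_mul, hes] at h2
    calc e * e' * e = e * star w' * (w' * e) := by rw [he']; noncomm_ring
      _ = e := h2
  have h2 : (1 - e') * e = 0 := by
    rw [← CStarRing.star_mul_self_eq_zero_iff, star_mul, star_sub, star_one, hes, hes',
      show e * (1 - e') * ((1 - e') * e) = e * e - 2 • (e * e' * e) + e * (e' * e') * e by
        noncomm_ring, hee', h1, hee]
    abel
  have h3 : e' * e = e := by
    rw [sub_mul, one_mul, sub_eq_zero] at h2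
    exact h2.symm
  rw [← h3, ← mul_assoc, hR', hR]

theorem exists_halving (T : TrModel A K) (hf : IsFactorAlg A) (hinf : ¬ FiniteDimensional ℂ A)
    {p : A} (hp : IsStarProjection p) :
    ∃ w : A, w * w = 0 ∧ w * star w * w = w ∧ star w * w + w * star w = p := by
  have hps : star p = p := hp.isSelfAdjoint.star_eq
  have hpp : p * p = p := hp.isIdempotentElem.eq
  let X := {w : A // w * w = 0 ∧ w * star w * w = w ∧ p * w = w ∧ w * p = w}
  have htrans : ∀ x y z : X, y.1 * (star x.1 * x.1) = x.1 → z.1 * (star y.1 * y.1) = y.1 →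
      z.1 * (star x.1 * x.1) = x.1 := fun x y z h1 h2 => halving_ext_trans x.2.2.1 y.2.2.1 h1 h2
  have hrefl : ∀ x : X, x.1 * (star x.1 * x.1) = x.1 := fun x => by
    rw [← mul_assoc]; exact x.2.2.1
  obtain ⟨⟨w, hww, hw, hpw, hwp⟩, hmax⟩ := halving_brezis_browder (X := X)
    (fun x y => y.1 * (star x.1 * x.1) = x.1) (fun x => ‖T.ι x.1‖ ^ 2) ⟨0, by simp⟩ hrefl htrans
    (fun x y h => by
      have := halving_ext_norm T x.2.2.1 h
      nlinarith [sq_nonneg ‖T.ι y.1 - T.ι x.1‖])
    (fun x => by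
      have := (T.norm_le x.1).trans (halving_norm_le_one x.2.2.1)
      nlinarith [norm_nonneg (T.ι x.1)])
    (fun u hu => by
      have h1 : ∀ m l, m ≤ l → (u l).1 * (star (u m).1 * (u m).1) = (u m).1 := by
        intro m l hml
        induction l, hml using Nat.le_induction with
        | base => exact hrefl _
        | succ l _ ih => exact htrans _ _ _ ih (hu l)
      have hn : ∀ n, ‖(u n).1‖ ≤ 1 := fun n => halving_norm_le_one (u n).2.2.1
      have hcau : CauchySeq fun n => T.ι (u n).1 :=
        halving_cauchy (fun n => (T.norm_le _).trans (hn n)) fun m l hml =>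
          (halving_ext_norm T (u m).2.2.1 (h1 m l hml)).le
      obtain ⟨W, -, hW⟩ := T.complete (fun n => (u n).1) 1 hn hcau
      refine ⟨⟨W, ?_, ?_, ?_, ?_⟩, fun n => ?_⟩
      · have h2 := T.tendsto_mul hn hW hW
        simp only [(u _).2.1] at h2
        exact T.tendsto_unique h2 tendsto_const_nhds
      · have h2 := T.tendsto_mul (C := 1)
          (fun n => norm_mul_le_one (hn n) ((norm_star _).le.trans (hn n)))
          (T.tendsto_mul hn hW (T.tendsto_star hW)) hW
        simp only [(u _).2.2.1] at h2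
        exact T.tendsto_unique h2 hW
      · have h2 := T.tendsto_mul (x := fun _ => p) (fun _ => le_rfl) tendsto_const_nhds hW
        simp only [(u _).2.2.2.1] at h2
        exact T.tendsto_unique h2 hW
      · have h2 := T.tendsto_mul (y := fun _ => p) hn hW tendsto_const_nhds
        simp only [(u _).2.2.2.2] at h2
        exact T.tendsto_unique h2 hW
      · have h2 := T.tendsto_mul (y := fun _ => star (u n).1 * (u n).1) hn hW tendsto_const_nhds
        refine T.tendsto_unique h2 (tendsto_const_nhds.congr' ?_)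
        filter_upwards [eventually_ge_atTop n] with l hl
        rw [h1 n l hl])
  refine ⟨w, hww, hw, ?_⟩
  by_contra hne
  set r : A := p - (star w * w + w * star w) with hr
  have hr0 : r ≠ 0 := fun h => hne (sub_eq_zero.1 h).symm
  have hrs : star r = r := by
    rw [hr, star_sub, star_add, star_mul, star_mul, star_star, hps]
  have hrw : r * w = 0 := by
    rw [hr, sub_mul, add_mul, hpw, mul_assoc (star w), hww, hw]; simp
  have hwr : w * r = 0 := by
    rw [hr, mul_sub, mul_add, hwp, ← mul_assoc, ← mul_assoc, hww, hw]; simp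
  have hrw' : r * star w = 0 := by
    rw [← hrs, ← star_mul, hwr, star_zero]
  have hwr' : star w * r = 0 := by
    rw [← hrs, ← star_mul, hrw, star_zero]
  have hpw' : p * star w = star w := by rw [← hps, ← star_mul, hwp]
  have hpr : p * r = r := by
    rw [hr, mul_sub, mul_add, hpp, ← mul_assoc, ← mul_assoc, hpw', hpw]
  have hrp : r * p = r := by
    rw [← hps, ← hrs, ← star_mul, hpr]
  have hrr : r * r = r := by
    conv_lhs => enter [2]; rw [hr]
    rw [mul_sub, mul_add, ← mul_assoc, ← mul_assoc, hrw, hrw', hrp]; simp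
  obtain ⟨z, hz0, hzz, hrz, hzr⟩ := halving_exists_nilp T hf hinf ⟨hrr, hrs⟩ hr0
  obtain ⟨v, hv0, hvv, hv, hrv, hvr⟩ := halving_polar T hz0 hzz hrz hzr
  have h1 : w * v = 0 := by rw [← hrv, ← mul_assoc, hwr, zero_mul]
  have h2 : v * w = 0 := by rw [← hvr, mul_assoc, hrw, mul_zero]
  have h3 : star w * v = 0 := by rw [← hrv, ← mul_assoc, hwr', zero_mul]
  have h4 : v * star w = 0 := by rw [← hvr, mul_assoc, hrw', mul_zero]
  have h5 : w * star v = 0 := by
    have := congrArg star h4
    rwa [star_mul, star_star, star_zero] at this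
  have h6 : star v * w = 0 := by
    have := congrArg star h3
    rwa [star_mul, star_star, star_zero] at this
  have hR : (w + v) * (star w * w) = w := by
    rw [add_mul, ← mul_assoc, ← mul_assoc, hw, h4, zero_mul, add_zero]
  have hle := hmax ⟨w + v, by rw [add_mul, mul_add, mul_add, hww, h1, h2, hvv]; simp,
    by
      rw [star_add, show (w + v) * (star w + star v) * (w + v) =
        w * star w * w + v * star v * v + w * (star w * v) + v * (star v * w) +
          w * star v * (w + v) + v * star w * (w + v) by noncomm_ring, hw, hv, h3, h4, h5, h6]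
      simp,
    by rw [mul_add, hpw, ← hrv, ← mul_assoc, hpr],
    by rw [add_mul, hwp, ← hvr, mul_assoc, hrp]⟩ hR
  have h7 := halving_ext_norm T hw hR
  rw [← map_sub, add_sub_cancel_left] at h7
  have h8 : ‖T.ι v‖ ^ 2 ≤ 0 := by
    simp only at hle
    linarith
  exact hv0 (T.eq_zero_of_norm (pow_eq_zero_iff two_ne_zero |>.1 (le_antisymm h8 (sq_nonneg _))))

end Crest.Agent.R95
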