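import Crest.Agent.R95.Gram

/-! The key perturbation lemma. -/

set_option autoImplicit false

namespace Crest.Agent.R95

open scoped InnerProductSpace ComplexConjugate Pointwise
open Complex Finset

variable {A : Type*} [CStarAlgebra A] {K : Type*} [NormedAddCommGroup K] [InnerProductSpace ℂ K]

lemma exists_blocks (T : TrModel A K) {P : StarSubalgebra ℂ A} (hirr : Irr P) (hsp : T.Spread P)
    {u : A} (hu : u ∈ unitary A) (k n : ℕ) {η : ℝ} (hη : 0 < η) :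
    ∃ B : Fin n → Blk P k, (∀ i, (B i).Good T u η) ∧
      ∀ i j, i ≠ j → (B i).Cross (B j) T u η := by
  obtain ⟨f, L, hL, hfL, hπ, hcr⟩ := exists_hier T hirr hsp hu (2 * k + 1) hη
  choose π hπ using hπ
  let B : Fin n → Blk P k := fun i =>
    { J := fun c => (f (i * (k + 1) + c)).J
      z := fun c => (f (i * (k + 1) + c)).z
      mem := fun c => (f _).mem
      uni := fun c => (f _).uni
      π := π _
      hπ := hπ _ }
  have hZ : ∀ i (ζ : (B i).Ω) c m, c ≤ k → i * (k + 1) + c < m →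
      (B i).Z ζ c * u ∈ L m ^ 2 ∧ star ((B i).Z ζ c * u) ∈ L m ^ 2 := by
    intro i ζ c m hc hm
    obtain ⟨a, ha⟩ := (B i).Z_val ζ hc
    rw [ha, star_mul, sq]
    exact ⟨Set.mul_mem_mul (hfL _ _ hm a).1 (hL m).2.1,
      Set.mul_mem_mul (hL m).2.2 (hfL _ _ hm a).2⟩
  have hpow : ∀ m a, a ≤ 2 * k + 1 → L m ^ a ⊆ L m ^ (2 * k + 1) := fun m a ha =>
    Set.pow_subset_pow_right (hL m).1 ha
  have hne : ∀ (i j : Fin n) (c c' : ℕ), i ≠ j → c ≤ k → c' ≤ k →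
      (i : ℕ) * (k + 1) + c ≠ j * (k + 1) + c' := by
    intro i j c c' hij hc hc' h
    have h1 := congrArg (· / (k + 1)) h
    simp only [Nat.mul_comm _ (k + 1), Nat.mul_add_div (Nat.succ_pos k),
      Nat.div_eq_of_lt (Nat.lt_succ_of_le hc), Nat.div_eq_of_lt (Nat.lt_succ_of_le hc')] at h1
    exact hij (Fin.ext (by omega))
  refine ⟨B, fun i => ⟨fun s h1 h2 ζ => ?_, fun s h1 h2 ζ => ?_⟩,
    fun i j hij => ⟨fun c hc a ha ζ' => ?_, ?_⟩⟩
  · refine (hcr (i * (k + 1) + s) (i * (k + 1) + k) (by omega) _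
      (hpow _ (2 * (k - s - 1) + 1) (by omega) ?_)).2.2.2
    rw [pow_succ]
    exact Set.mul_mem_mul (star_seg_mem_pow fun c h3 h4 => (hZ i ζ c _ (by omega) (by omega)).2)
      (hL _).2.2
  · refine (hcr (i * (k + 1) + s) (i * (k + 1) + 0) (by omega) _
      (hpow _ (2 * (s - 1) + 1) (by omega) ?_)).1
    rw [pow_succ']
    exact Set.mul_mem_mul (hL _).2.1
      (seg_mem_pow fun c h3 h4 => (hZ i ζ c _ (by omega) (by omega)).1)
  · refine (hcr (j * (k + 1) + k) (i * (k + 1) + c) (hne j i k c hij.symm le_rfl hc) _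
      (hpow _ (2 * (k - a - 1)) (by omega) ?_)).2.2.1
    exact seg_mem_pow fun c h3 h4 => (hZ j ζ' c _ (by omega) (by omega)).1
  · refine (hcr (i * (k + 1) + k) (j * (k + 1) + k) (hne i j k k hij le_rfl le_rfl) _
      (hpow _ 0 (by omega) (by simp))).2.1

theorem key (T : TrModel A K) {P : StarSubalgebra ℂ A} (hirr : Irr P) (hsp : T.Spread P)
    {x : A} (hx : ‖x‖ ≤ 1) : T.KeyProp (unitary A) (P : Set A) x := by
  refine ⟨3000, fun u hu κ hκ hκ1 ε hε => ?_⟩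
  obtain ⟨k, hk⟩ := exists_nat_ge (max 1 (8 / ε))
  have hk1 : (1 : ℝ) ≤ k := (le_max_left _ _).trans hk
  have hkε : 8 / ε ≤ k := (le_max_right _ _).trans hk
  have hk0 : (0 : ℝ) < k := by linarith
  set η : ℝ := κ / (4 * k ^ 5) with hηdef
  set θ : ℝ := κ / (2 * k ^ 4) with hθdef
  have hη : 0 < η := by positivity
  have hθ : 0 < θ := by positivity
  obtain ⟨B, hG, hC⟩ := exists_blocks T hirr hsp hu k (k ^ 6) hη
  have hk4 : (1 : ℝ) ≤ k ^ 4 := one_le_pow₀ hk1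
  have hkη : k * η ≤ κ := by
    rw [show k * η = κ / (4 * k ^ 4) by rw [hηdef]; field_simp]
    exact div_le_self hκ.le (by linarith)
  have hkη2 : k ^ 2 * η ≤ 1 := by
    rw [show k ^ 2 * η = κ / (4 * k ^ 3) by rw [hηdef]; field_simp]
    exact (div_le_self hκ.le (by linarith [one_le_pow₀ (n := 3) hk1])).trans hκ1
  have hκ2 : κ ^ 2 ≤ 1 := pow_le_one₀ hκ.le hκ1
  have hM : θ ^ 2 * (((k ^ 6 : ℕ) : ℝ) * (4 * (k + k ^ 2 * η))) ≤ 2 * κ ^ 2 / k := by
    rw [show θ ^ 2 * (((k ^ 6 : ℕ) : ℝ) * (4 * (k + k ^ 2 * η))) = (1 + k * η) * κ ^ 2 / k by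
      rw [hθdef]; push_cast; field_simp; ring]
    gcongr
    linarith
  refine ⟨GΩ B, inferInstance, inferInstance, fun ω => u * cay (gS B u x θ univ ω),
    fun ω => (-I / k ^ 3 : ℂ) • ∑ i, gY B u x θ i ω,
    fun ω => mul_mem hu (cay_mem_unitary (gS_selfAdjoint _ _)), fun ω => ?_, ?_, ?_, ?_⟩
  · refine SMulMemClass.smul_mem _ (sum_mem fun i _ => mul_mem (seg_mem (fun c => ?_) _ _) ?_)
    · rw [mul_assoc]
      exact mul_mem (StarAlgebra.subset_adjoin _ _ (Or.inl ((B i).Z_mem _ _)))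
        (StarAlgebra.subset_adjoin _ _ (Or.inr rfl))
    · exact StarAlgebra.subset_adjoin _ _ (Or.inl ((B i).Z_mem _ _))
  · have hkc : (k : ℂ) ≠ 0 := by exact_mod_cast hk0.ne'
    have e1 : Ex (fun ω => (-I / k ^ 3 : ℂ) • ∑ i, gY B u x θ i ω) - (κ : ℂ) • x =
        (-I / k ^ 3 : ℂ) • ∑ i, (Ex (gY B u x θ i) - (2 * I * θ * k) • x) := by
      rw [Ex_smul, Ex_sum, sum_sub_distrib, smul_sub, sum_const, card_univ, Fintype.card_fin,
        ← Nat.cast_smul_eq_nsmul ℂ, smul_smul, smul_smul]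
      congr 2
      rw [hθdef]
      push_cast
      field_simp
      simp
    have hs : Real.sqrt (2 * κ ^ 2 / k) ^ 2 = 2 * κ ^ 2 / k := Real.sq_sqrt (by positivity)
    have hs2 : Real.sqrt (2 * κ ^ 2 / k) ≤ 2 * κ := by
      refine Real.sqrt_le_iff.2 ⟨by positivity, (div_le_self (by positivity) hk1).trans ?_⟩
      nlinarith
    have h1 : ∀ i, ‖T.ι (Ex (gY B u x θ i) - (2 * I * θ * k) • x)‖ ≤ 19 * κ ^ 2 / k ^ 3 := by
      intro i
      refine (mean_gY hu hx hη.le hθ.le hG hC i (M := Real.sqrt (2 * κ ^ 2 / k)) (β := 4 * κ)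
        (hM.trans hs.ge) (Real.sqrt_nonneg _) (by positivity) ?_).trans ?_
      · rw [hs, show 2 * k * (2 * (2 * κ ^ 2 / k) +
          2 * ((k + 1) * (θ * (((k ^ 6 : ℕ) : ℝ) * (2 * (k * η)))))) =
          8 * κ ^ 2 + κ ^ 2 * ((k + 1) / k) by rw [hθdef, hηdef]; push_cast; field_simp; ring]
        have : ((k : ℝ) + 1) / k ≤ 2 := by rw [div_le_iff₀ hk0]; linarith
        nlinarith [sq_nonneg κ]
      · have h2 : 24 * (k : ℝ) ^ 4 * θ ^ 2 ≤ 6 * κ ^ 2 / k ^ 3 := by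
          rw [show 24 * (k : ℝ) ^ 4 * θ ^ 2 = 6 * κ ^ 2 / k ^ 3 / k by
            rw [hθdef]; field_simp; ring]
          exact div_le_self (by positivity) hk1
        have h3 : 2 * θ * (k * (2 * Real.sqrt (2 * κ ^ 2 / k) + 2 * (4 * κ)) + k ^ 2 * η) ≤
            13 * κ ^ 2 / k ^ 3 := by
          rw [show 2 * θ * (k * (2 * Real.sqrt (2 * κ ^ 2 / k) + 2 * (4 * κ)) + k ^ 2 * η) =
            κ * (2 * Real.sqrt (2 * κ ^ 2 / k) + 2 * (4 * κ) + k * η) / k ^ 3 by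
              rw [hθdef]; field_simp]
          refine div_le_div_of_nonneg_right ?_ (by positivity)
          nlinarith
        calc _ ≤ 6 * κ ^ 2 / k ^ 3 + 13 * κ ^ 2 / k ^ 3 := add_le_add h2 h3
          _ = _ := by ring
    rw [e1, map_smul, map_sum, norm_smul]
    have h2 := (norm_sum_le univ _).trans (sum_le_sum fun i _ => h1 i)
    rw [sum_const, card_univ, Fintype.card_fin, nsmul_eq_mul] at h2
    simp only [norm_div, norm_neg, norm_I, norm_pow, Complex.norm_natCast]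
    calc _ ≤ 1 / (k : ℝ) ^ 3 * (((k ^ 6 : ℕ) : ℝ) * (19 * κ ^ 2 / k ^ 3)) := by gcongr
      _ = 19 * κ ^ 2 := by push_cast; field_simp
      _ ≤ _ := by nlinarith [sq_nonneg κ]
  · simp only [map_smul, norm_smul, mul_pow, norm_div, norm_neg, norm_I, norm_pow,
      Complex.norm_natCast]
    rw [Ex_const_mul]
    refine (mul_le_mul_of_nonneg_left (Ex_norm_sum_gY_sq hu hx hη.le hθ.le hG hC)
      (by positivity)).trans ?_
    rw [show (1 / (k : ℝ) ^ 3) ^ 2 * (4 * ((k ^ 6 : ℕ) : ℝ) + 2 * ((k ^ 6 : ℕ) : ℝ) ^ 2 *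
      (4 * θ ^ 2 * (k + k ^ 2 * η) ^ 2 + 4 * θ ^ 2 * (k ^ 4 * η) +
        2 * (2 * (4 * θ * k ^ 2) * (96 * k ^ 4 * θ ^ 2) + (96 * k ^ 4 * θ ^ 2) ^ 2))) =
      4 + 2 * (κ ^ 2 * (1 + k * η) ^ 2 + κ ^ 2 * (k ^ 2 * η) +
        2 * (96 * κ ^ 3 + 576 * κ ^ 4 / k ^ 2)) by rw [hθdef]; push_cast; field_simp; ring]
    have h1 : κ ^ 2 * (1 + k * η) ^ 2 ≤ 1 * 2 ^ 2 := by gcongr; linarith
    have h2 : κ ^ 2 * (k ^ 2 * η) ≤ 1 * 1 := by gcongr
    have h3 : κ ^ 3 ≤ 1 := pow_le_one₀ hκ.le hκ1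
    have h4 : κ ^ 4 ≤ 1 := pow_le_one₀ hκ.le hκ1
    have h5 : 576 * κ ^ 4 / k ^ 2 ≤ 576 * κ ^ 4 :=
      div_le_self (by positivity) (one_le_pow₀ hk1)
    linarith
  · have h1 : ∀ ω, ‖T.ι (u * cay (gS B u x θ univ ω) - u)‖ ^ 2 ≤
        4 * ‖T.ι (gS B u x θ univ ω)‖ ^ 2 := fun ω => by
      rw [← mul_sub_one, T.norm_unitary_mul hu]
      refine (pow_le_pow_left₀ (norm_nonneg _)
        (T.norm_cay_sub_one_le (gS_selfAdjoint univ ω)) 2).trans (le_of_eq (by ring))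
    refine (Ex_mono h1).trans ?_
    rw [Ex_const_mul]
    have h2 := (Ex_norm_gS_sq (θ := θ) hu hx hη.le hG univ).trans hM
    have h3 : 2 * κ ^ 2 / k ≤ 2 / k := by gcongr; linarith
    have h4 : 8 / (k : ℝ) ≤ ε := by
      rw [div_le_iff₀ hε] at hkε
      rw [div_le_iff₀ hk0]
      linarith
    have h5 : 4 * (2 / (k : ℝ)) = 8 / k := by ring
    linarith

end Crest.Agent.R95
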