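import Crest.Agent.R95.Block

/-! Two independent blocks. -/

set_option autoImplicit false

namespace Crest.Agent.R95

open scoped InnerProductSpace ComplexConjugate Pointwise
open Complex Finset

variable {A : Type*} [CStarAlgebra A] {K : Type*} [NormedAddCommGroup K] [InnerProductSpace ℂ K]

namespace Blk

variable {P : StarSubalgebra ℂ A} {k : ℕ} (B B' : Blk P k) (T : TrModel A K) {u x : A} {η : ℝ}

/-- crossing hypotheses between two blocks -/
structure Cross (u : A) (η : ℝ) : Prop where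
  h3 : ∀ c ≤ k, ∀ a < k, ∀ ζ' : B'.Ω, T.Cr η (B'.z k) (fun b => star (B.z c b))
    (pV u (B'.Z ζ') (a + 1) (k - a - 1))
  h4 : T.Cr η (fun a => star (B.z k a)) (B'.z k) 1

variable {T}
variable (hu : u ∈ unitary A) (hx : ‖x‖ ≤ 1)
include hu hx

/-- averaging with a variable of one block nearly kills the perturbation of another block -/
lemma avg_HH (h : B.Cross B' T u η) {c : ℕ} (hc : c ≤ k) :
    Ex (fun ζ' => ‖T.ι (Ex fun b => star (B.z c b) * HH u x k (B'.Z ζ') * B.z c b)‖) ≤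
      2 * (k * η) := by
  have h1 : ∀ a < k,
      Ex (fun ζ' => ‖T.ι (Ex fun b => star (B.z c b) * gg u x k (B'.Z ζ') a * B.z c b)‖) ≤ η := by
    intro a ha
    rw [B'.Ex_resample le_rfl
      (fun Z => ‖T.ι (Ex fun b => star (B.z c b) * gg u x k Z a * B.z c b)‖)]
    refine Ex_le_const fun ζ' => ?_
    have := (h.h3 c hc a ha ζ').adj (star (pV u (B'.Z ζ') 0 (a + 1)) * x)
      (norm_mul_le_one (norm_unitary_le (Unitary.star_mem (pV_mem hu (B'.Z_uni ζ') _ _))) hx)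
    simpa only [gg_update_last ha, star_star] using this
  have h2 : Ex (fun ζ' => ‖T.ι (Ex fun b => star (B.z c b) * GG u x k (B'.Z ζ') * B.z c b)‖) ≤
      k * η := by
    simp only [GG, mul_sum, sum_mul, Ex_sum, map_sum]
    refine (Ex_mono fun ζ' => norm_sum_le _ _).trans ?_
    rw [Ex_sum]
    refine (sum_le_sum fun a ha => h1 a (mem_range.1 ha)).trans ?_
    simp
  have h3 : ∀ ζ', ‖T.ι (Ex fun b => star (B.z c b) * HH u x k (B'.Z ζ') * B.z c b)‖ ≤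
      2 * ‖T.ι (Ex fun b => star (B.z c b) * GG u x k (B'.Z ζ') * B.z c b)‖ := by
    intro ζ'
    simp only [HH, mul_add, add_mul, Ex_add, map_add]
    refine (norm_add_le _ _).trans ?_
    have : ‖T.ι (Ex fun b => star (B.z c b) * star (GG u x k (B'.Z ζ')) * B.z c b)‖ =
        ‖T.ι (Ex fun b => star (B.z c b) * GG u x k (B'.Z ζ') * B.z c b)‖ := by
      rw [← T.norm_star, star_Ex]
      simp only [star_mul, star_star, mul_assoc]
    linarith
  refine (Ex_mono h3).trans ?_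
  rw [Ex_const_mul]
  linarith

/-- correlation of the own first order terms of two blocks -/
lemma pair_own (hB : B.Good T u η) (hB' : B'.Good T u η) (hη : 0 ≤ η) {W R : A}
    (hW : W ∈ unitary A) (hR : ‖R‖ ≤ 1) :
    ‖Ex (fun ζ => Ex fun ζ' => ⟪T.ι (Dy u k (B.Z ζ) W (R * HH u x k (B.Z ζ) * R)),
      T.ι (Dy u k (B'.Z ζ') W (R * HH u x k (B'.Z ζ') * R))⟫_ℂ)‖ ≤ (k + k ^ 2 * η) ^ 2 := by
  simp only [← inner_Ex_right, ← inner_Ex_left, ← Ex_clm]
  refine (norm_inner_le_norm _ _).trans ?_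
  rw [sq]
  exact mul_le_mul (B.mean_Dy_le hu hx hB hη hW hR) (B'.mean_Dy_le hu hx hB' hη hW hR)
    (norm_nonneg _) (by positivity)

lemma pair_term (h : B.Cross B' T u η) {W R : A} (hW : W ∈ unitary A) (hR : ‖R‖ ≤ 1)
    {a a' b b' : ℕ} (ha : a < k) (ha' : a' < k) (hb : b < k) (hb' : b' < k) :
    ‖Ex (fun ζ => Ex fun ζ' => ⟪T.ι (tm u k (B.Z ζ) W (R * star (gg u x k (B'.Z ζ') a') * R) a),
      T.ι (tm u k (B'.Z ζ') W (R * star (gg u x k (B.Z ζ) b') * R) b)⟫_ℂ)‖ ≤ η := by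
  rw [B.Ex_resample le_rfl (fun Z => Ex fun ζ' =>
    ⟪T.ι (tm u k Z W (R * star (gg u x k (B'.Z ζ') a') * R) a),
      T.ι (tm u k (B'.Z ζ') W (R * star (gg u x k Z b') * R) b)⟫_ℂ)]
  refine norm_Ex_le_const fun ζ => ?_
  rw [Ex_comm, B'.Ex_resample le_rfl (fun Z' => Ex fun α : B.J k =>
    ⟪T.ι (tm u k (Function.update (B.Z ζ) k (B.z k α)) W (R * star (gg u x k Z' a') * R) a),
      T.ι (tm u k Z' W
        (R * star (gg u x k (Function.update (B.Z ζ) k (B.z k α)) b') * R) b)⟫_ℂ)]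
  refine norm_Ex_le_const fun ζ' => ?_
  rw [Ex_comm]
  have hZ := B.Z_uni ζ
  have hZ' := B'.Z_uni ζ'
  have nR' : ‖star R‖ ≤ 1 := by rwa [norm_star]
  have nx' : ‖star x‖ ≤ 1 := by rwa [norm_star]
  have h1 := h.h4 (star (pW u (B.Z ζ) W (a + 1) (k - a - 1)) * star R *
    star (pV u (B'.Z ζ') 0 (a' + 1)) * x)
    (norm_mul_le_one (norm_mul_le_one (norm_mul_le_one
      (norm_unitary_le (Unitary.star_mem (pW_mem hu hZ hW _ _))) nR')
      (norm_unitary_le (Unitary.star_mem (pV_mem hu hZ' _ _)))) hx)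
  have h2 := norm_Ex_Ex_le T _ h1 (fun _ => 1)
    (fun α => star (pV u (B'.Z ζ') (a' + 1) (k - a' - 1)) * star R *
      star (pW u (B.Z ζ) W 0 a * (B.Z ζ a * u)) * (pW u (B'.Z ζ') W 0 b * (B'.Z ζ' b * u)) * R *
      pV u (B.Z ζ) (b' + 1) (k - b' - 1) * B.z k α * star x * pV u (B.Z ζ) 0 (b' + 1) * R *
      pW u (B'.Z ζ') W (b + 1) (k - b - 1)) (fun _ => norm_one_le') (fun α => ?_)
  · refine le_trans (le_of_eq ?_) ((T.norm_τ_le _).trans h2)
    rw [Ex_clm]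
    congr 1
    refine Ex_congr fun α => ?_
    rw [Ex_clm]
    refine Ex_congr fun β => ?_
    rw [T.inner_eq, tm_update_last _ _ ha, tm_update_last _ _ hb, gg_update_last ha',
      gg_update_last hb', ← mul_assoc, T.τ_comm _ (B'.z k β)]
    simp only [star_mul, star_star, mul_assoc, one_mul]
  · refine norm_mul_le_one (norm_mul_le_one (norm_mul_le_one (norm_mul_le_one (norm_mul_le_one
      (norm_mul_le_one (norm_mul_le_one (norm_mul_le_one (norm_mul_le_one (norm_mul_le_one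
      ?_ nR') ?_) ?_) hR) ?_) ?_) nx') ?_) hR) ?_ <;> apply norm_unitary_le
    · exact Unitary.star_mem (pV_mem hu hZ' _ _)
    · exact Unitary.star_mem (mul_mem (pW_mem hu hZ hW _ _) (mul_mem (hZ _) hu))
    · exact mul_mem (pW_mem hu hZ' hW _ _) (mul_mem (hZ' _) hu)
    · exact pV_mem hu hZ _ _
    · exact B.uni _ _
    · exact pV_mem hu hZ _ _
    · exact pW_mem hu hZ' hW _ _

/-- correlation of the crossed first order terms of two blocks -/
lemma pair_cross (h : B.Cross B' T u η) {W R : A} (hW : W ∈ unitary A) (hR : ‖R‖ ≤ 1) :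
    ‖Ex (fun ζ => Ex fun ζ' => ⟪T.ι (Dy u k (B.Z ζ) W (R * HH u x k (B'.Z ζ') * R)),
      T.ι (Dy u k (B'.Z ζ') W (R * HH u x k (B.Z ζ) * R))⟫_ℂ)‖ ≤ k ^ 4 * η := by
  have e1 : Ex (fun ζ => Ex fun ζ' => ⟪T.ι (Dy u k (B.Z ζ) W (R * HH u x k (B'.Z ζ') * R)),
      T.ι (Dy u k (B'.Z ζ') W (R * GG u x k (B.Z ζ) * R))⟫_ℂ) = 0 := by
    refine Ex_eq_zero_of_equiv B.ph _ fun ζ => ?_
    rw [← Ex_neg]
    refine Ex_congr fun ζ' => ?_
    rw [B.Z_ph, Dy_phase, GG_phase, mul_smul_comm, smul_mul_assoc, Dy_smul, map_smul, map_smul,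
      inner_smul_left, inner_smul_right, ← mul_assoc]
    simp
  have e2 : Ex (fun ζ => Ex fun ζ' => ⟪T.ι (Dy u k (B.Z ζ) W (R * GG u x k (B'.Z ζ') * R)),
      T.ι (Dy u k (B'.Z ζ') W (R * star (GG u x k (B.Z ζ)) * R))⟫_ℂ) = 0 := by
    rw [Ex_comm]
    refine Ex_eq_zero_of_equiv B'.ph _ fun ζ' => ?_
    rw [← Ex_neg]
    refine Ex_congr fun ζ => ?_
    rw [B'.Z_ph, Dy_phase, GG_phase, mul_smul_comm, smul_mul_assoc, Dy_smul, map_smul, map_smul,
      inner_smul_left, inner_smul_right, ← mul_assoc]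
    simp
  have e3 : Ex (fun ζ => Ex fun ζ' => ⟪T.ι (Dy u k (B.Z ζ) W (R * HH u x k (B'.Z ζ') * R)),
      T.ι (Dy u k (B'.Z ζ') W (R * HH u x k (B.Z ζ) * R))⟫_ℂ) =
      Ex (fun ζ => Ex fun ζ' => ⟪T.ι (Dy u k (B.Z ζ) W (R * HH u x k (B'.Z ζ') * R)),
        T.ι (Dy u k (B'.Z ζ') W (R * GG u x k (B.Z ζ) * R))⟫_ℂ) +
      (Ex (fun ζ => Ex fun ζ' => ⟪T.ι (Dy u k (B.Z ζ) W (R * GG u x k (B'.Z ζ') * R)),
        T.ι (Dy u k (B'.Z ζ') W (R * star (GG u x k (B.Z ζ)) * R))⟫_ℂ) +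
      Ex (fun ζ => Ex fun ζ' => ⟪T.ι (Dy u k (B.Z ζ) W (R * star (GG u x k (B'.Z ζ')) * R)),
        T.ι (Dy u k (B'.Z ζ') W (R * star (GG u x k (B.Z ζ)) * R))⟫_ℂ)) := by
    simp only [← Ex_add]
    refine Ex_congr fun ζ => Ex_congr fun ζ' => ?_
    rw [← inner_add_left, ← map_add, ← Dy_add, ← add_mul, ← mul_add, ← HH, ← inner_add_right,
      ← map_add, ← Dy_add, ← add_mul, ← mul_add, ← HH]
  rw [e3, e1, e2, zero_add, zero_add]
  simp only [Dy, GG, star_sum, mul_sum, sum_mul, tm_sum, map_sum, sum_inner, inner_sum, Ex_sum]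
  have hs : ∀ (f : ℕ → ℂ) (c : ℝ), (∀ a < k, ‖f a‖ ≤ c) → ‖∑ a ∈ range k, f a‖ ≤ k * c := by
    intro f c hf
    refine (norm_sum_le _ _).trans ((sum_le_sum fun a ha => hf a (mem_range.1 ha)).trans ?_)
    simp
  rw [show (k : ℝ) ^ 4 * η = k * (k * (k * (k * η))) by ring]
  exact hs _ _ fun b hb => hs _ _ fun b' hb' => hs _ _ fun a ha => hs _ _ fun a' ha' =>
    B.pair_term B' hu hx h hW hR ha ha' hb hb'

end Blk

end Crest.Agent.R95
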