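import Crest.Agent.R95.Basic

/-! Ordered products of segments of a sequence, first order expansion, and the words used in the
key lemma. -/

set_option autoImplicit false

namespace Crest.Agent.R95

open scoped InnerProductSpace ComplexConjugate Pointwise
open Complex Finset

variable {A : Type*} [CStarAlgebra A] {K : Type*} [NormedAddCommGroup K] [InnerProductSpace ℂ K]

/-- `f a * f (a + 1) * ⋯ * f (a + m - 1)` -/
def seg (f : ℕ → A) (a : ℕ) : ℕ → A
  | 0 => 1
  | m + 1 => seg f a m * f (a + m)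

@[simp] lemma seg_zero (f : ℕ → A) (a : ℕ) : seg f a 0 = 1 := rfl

lemma seg_succ (f : ℕ → A) (a m : ℕ) : seg f a (m + 1) = seg f a m * f (a + m) := rfl

lemma seg_add (f : ℕ → A) (a m m' : ℕ) : seg f a (m + m') = seg f a m * seg f (a + m) m' := by
  induction m' with
  | zero => simp
  | succ m' ih => rw [← add_assoc, seg_succ, ih, seg_succ, mul_assoc, add_assoc]

lemma seg_succ' (f : ℕ → A) (a m : ℕ) : seg f a (m + 1) = f a * seg f (a + 1) m := by
  rw [add_comm m 1, seg_add]; simp [seg_succ]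

lemma seg_congr {f f' : ℕ → A} {a m : ℕ} (h : ∀ c, a ≤ c → c < a + m → f c = f' c) :
    seg f a m = seg f' a m := by
  induction m with
  | zero => rfl
  | succ m ih =>
    rw [seg_succ, seg_succ, ih fun c h1 h2 => h c h1 (by omega), h _ (by omega) (by omega)]

lemma norm_seg_le {f : ℕ → A} (h : ∀ c, ‖f c‖ ≤ 1) (a m : ℕ) : ‖seg f a m‖ ≤ 1 := by
  induction m with
  | zero => exact norm_one_le'
  | succ m ih => exact norm_mul_le_one ih (h _)

lemma seg_mem {S : Type*} [SetLike S A] [SubmonoidClass S A] {s : S} {f : ℕ → A}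
    (h : ∀ c, f c ∈ s) (a m : ℕ) : seg f a m ∈ s := by
  induction m with
  | zero => exact one_mem _
  | succ m ih => exact mul_mem ih (h _)

lemma seg_mem_pow {L : Set A} {f : ℕ → A} {a m : ℕ}
    (h : ∀ c, a ≤ c → c < a + m → f c ∈ L ^ 2) : seg f a m ∈ L ^ (2 * m) := by
  induction m with
  | zero => simp
  | succ m ih =>
    rw [seg_succ, mul_add, pow_add, mul_one]
    exact Set.mul_mem_mul (ih fun c h1 h2 => h c h1 (by omega)) (h _ (by omega) (by omega))

lemma star_seg_mem_pow {L : Set A} {f : ℕ → A} {a m : ℕ}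
    (h : ∀ c, a ≤ c → c < a + m → star (f c) ∈ L ^ 2) : star (seg f a m) ∈ L ^ (2 * m) := by
  induction m with
  | zero => simp
  | succ m ih =>
    rw [seg_succ, star_mul, mul_add, add_comm, pow_add, mul_one]
    exact Set.mul_mem_mul (h _ (by omega) (by omega)) (ih fun c h1 h2 => h c h1 (by omega))

lemma seg_shift (f : ℕ → A) (W : A) (a m : ℕ) :
    seg (fun c => f c * W) a m * f (a + m) = f a * seg (fun c => W * f c) (a + 1) m := by
  induction m with
  | zero => simp
  | succ m ih =>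
    rw [seg_succ, seg_succ, ← mul_assoc, ← mul_assoc, ih, show a + 1 + m = a + (m + 1) by omega]
    simp only [mul_assoc]

/-- first order variation of `seg f 0 k` in the direction `d` -/
def dseg (f d : ℕ → A) (k : ℕ) : A :=
  ∑ a ∈ range k, seg f 0 a * d a * seg f (a + 1) (k - a - 1)

lemma dseg_succ (f d : ℕ → A) (k : ℕ) :
    dseg f d (k + 1) = dseg f d k * f k + seg f 0 k * d k := by
  rw [dseg, sum_range_succ, dseg, sum_mul]
  congr 1
  · refine sum_congr rfl fun a ha => ?_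
    have ha := mem_range.1 ha
    rw [show k + 1 - a - 1 = (k - a - 1) + 1 by omega, seg_succ,
      show a + 1 + (k - a - 1) = k by omega]
    simp only [mul_assoc]
  · simp

lemma norm_seg_sub_le {f f' : ℕ → A} {δ : ℝ} (hf : ∀ c, ‖f c‖ ≤ 1) (hf' : ∀ c, ‖f' c‖ ≤ 1)
    (hδ : ∀ c, ‖f' c - f c‖ ≤ δ) (k : ℕ) : ‖seg f' 0 k - seg f 0 k‖ ≤ k * δ := by
  induction k with
  | zero => simp
  | succ k ih =>
    rw [seg_succ, seg_succ, zero_add, show seg f' 0 k * f' k - seg f 0 k * f k =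
      (seg f' 0 k - seg f 0 k) * f k + seg f' 0 k * (f' k - f k) by noncomm_ring]
    refine (norm_add_le _ _).trans ?_
    have h1 : ‖(seg f' 0 k - seg f 0 k) * f k‖ ≤ k * δ :=
      (norm_mul_le _ _).trans ((mul_le_of_le_one_right (norm_nonneg _) (hf k)).trans ih)
    have h2 : ‖seg f' 0 k * (f' k - f k)‖ ≤ δ :=
      (norm_mul_le _ _).trans
        ((mul_le_of_le_one_left (norm_nonneg _) (norm_seg_le hf' 0 k)).trans (hδ k))
    push_cast
    linarith

lemma norm_seg_taylor {f f' : ℕ → A} {δ : ℝ} (hf : ∀ c, ‖f c‖ ≤ 1) (hf' : ∀ c, ‖f' c‖ ≤ 1)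
    (hδ : ∀ c, ‖f' c - f c‖ ≤ δ) (k : ℕ) :
    ‖seg f' 0 k - seg f 0 k - dseg f (fun c => f' c - f c) k‖ ≤ k ^ 2 * δ ^ 2 := by
  have hδ0 : 0 ≤ δ := (norm_nonneg _).trans (hδ 0)
  induction k with
  | zero => simp [dseg]
  | succ k ih =>
    rw [seg_succ, seg_succ, zero_add, dseg_succ, show seg f' 0 k * f' k - seg f 0 k * f k -
      (dseg f (fun c => f' c - f c) k * f k + seg f 0 k * (f' k - f k)) =
      (seg f' 0 k - seg f 0 k - dseg f (fun c => f' c - f c) k) * f k +
        (seg f' 0 k - seg f 0 k) * (f' k - f k) by noncomm_ring]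
    refine (norm_add_le _ _).trans ?_
    have h1 : ‖(seg f' 0 k - seg f 0 k - dseg f (fun c => f' c - f c) k) * f k‖ ≤ k ^ 2 * δ ^ 2 :=
      (norm_mul_le _ _).trans ((mul_le_of_le_one_right (norm_nonneg _) (hf k)).trans ih)
    have h2 : ‖(seg f' 0 k - seg f 0 k) * (f' k - f k)‖ ≤ k * δ * δ :=
      (norm_mul_le _ _).trans (mul_le_mul (norm_seg_sub_le hf hf' hδ k) (hδ k) (norm_nonneg _)
        (by positivity))
    push_cast
    nlinarith [sq_nonneg δ, mul_nonneg (Nat.cast_nonneg (α := ℝ) k) (sq_nonneg δ)]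

section words

variable (u x : A) (k : ℕ) (Z : ℕ → A)

/-- `Z a u W ⋯ Z (a+m-1) u W` -/
def pW (W : A) (a m : ℕ) : A := seg (fun c => Z c * u * W) a m

/-- `Z a u ⋯ Z (a+m-1) u` -/
def pV (a m : ℕ) : A := seg (fun c => Z c * u) a m

/-- the word `Z 0 u W Z 1 u W ⋯ Z (k-1) u W Z k` -/
def yy (W : A) : A := pW u Z W 0 k * Z k

/-- the word with the `a`-th letter `W` replaced by `Δ` -/
def tm (W Δ : A) (a : ℕ) : A :=
  pW u Z W 0 a * (Z a * u * Δ) * pW u Z W (a + 1) (k - a - 1) * Z k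

/-- derivative of the word at `W` in the direction `Δ` -/
def Dy (W Δ : A) : A := ∑ a ∈ range k, tm u k Z W Δ a

/-- the `a`-th component of the perturbation -/
def gg (a : ℕ) : A := star (pV u Z 0 (a + 1)) * x * star (Z k) * star (pV u Z (a + 1) (k - a - 1))

/-- sum of the components -/
def GG : A := ∑ a ∈ range k, gg u x k Z a

/-- the self-adjoint perturbation of a block -/
def HH : A := GG u x k Z + star (GG u x k Z)

variable {u x k Z}

lemma pW_one (a m : ℕ) : pW u Z 1 a m = pV u Z a m := by simp [pW, pV]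

lemma HH_selfAdjoint : IsSelfAdjoint (HH u x k Z) := IsSelfAdjoint.add_star_self _

lemma tm_add (W Δ Δ' : A) (a : ℕ) : tm u k Z W (Δ + Δ') a = tm u k Z W Δ a + tm u k Z W Δ' a := by
  simp only [tm, mul_add, add_mul]

lemma tm_smul (W Δ : A) (c : ℂ) (a : ℕ) : tm u k Z W (c • Δ) a = c • tm u k Z W Δ a := by
  simp only [tm, mul_smul_comm, smul_mul_assoc]

lemma tm_sum {ι : Type*} (s : Finset ι) (W : A) (Δ : ι → A) (a : ℕ) :
    tm u k Z W (∑ i ∈ s, Δ i) a = ∑ i ∈ s, tm u k Z W (Δ i) a := by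
  simp only [tm, mul_sum, sum_mul]

lemma Dy_add (W Δ Δ' : A) : Dy u k Z W (Δ + Δ') = Dy u k Z W Δ + Dy u k Z W Δ' := by
  simp only [Dy, tm_add, sum_add_distrib]

lemma Dy_smul (W Δ : A) (c : ℂ) : Dy u k Z W (c • Δ) = c • Dy u k Z W Δ := by
  simp only [Dy, tm_smul, smul_sum]

lemma Dy_sub (W Δ Δ' : A) : Dy u k Z W (Δ - Δ') = Dy u k Z W Δ - Dy u k Z W Δ' := by
  rw [sub_eq_add_neg, Dy_add, ← neg_one_smul ℂ Δ', Dy_smul, neg_one_smul, sub_eq_add_neg]

section norms
variable (hu : u ∈ unitary A) (hZ : ∀ c, Z c ∈ unitary A)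
include hu hZ

lemma pV_mem (a m : ℕ) : pV u Z a m ∈ unitary A := seg_mem (fun c => mul_mem (hZ c) hu) a m

lemma pW_mem {W : A} (hW : W ∈ unitary A) (a m : ℕ) : pW u Z W a m ∈ unitary A :=
  seg_mem (fun c => mul_mem (mul_mem (hZ c) hu) hW) a m

lemma yy_mem {W : A} (hW : W ∈ unitary A) : yy u k Z W ∈ unitary A :=
  mul_mem (pW_mem hu hZ hW _ _) (hZ k)

lemma norm_tm_le {W : A} (hW : W ∈ unitary A) (Δ : A) (a : ℕ) : ‖tm u k Z W Δ a‖ ≤ ‖Δ‖ := by
  have h1 := norm_unitary_le (mul_mem (pW_mem hu hZ hW 0 a) (mul_mem (hZ a) hu))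
  have h2 := norm_unitary_le (mul_mem (pW_mem hu hZ hW (a + 1) (k - a - 1)) (hZ k))
  have : tm u k Z W Δ a = (pW u Z W 0 a * (Z a * u)) * Δ *
      (pW u Z W (a + 1) (k - a - 1) * Z k) := by simp only [tm, mul_assoc]
  rw [this]
  calc _ ≤ 1 * ‖Δ‖ * 1 := norm_mul₃_le.trans (by gcongr)
    _ = _ := by ring

lemma norm_ι_tm_le (T : TrModel A K) {W : A} (hW : W ∈ unitary A) (Δ : A) (a : ℕ) :
    ‖T.ι (tm u k Z W Δ a)‖ = ‖T.ι Δ‖ := by
  have : tm u k Z W Δ a = (pW u Z W 0 a * (Z a * u)) * Δ *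
      (pW u Z W (a + 1) (k - a - 1) * Z k) := by simp only [tm, mul_assoc]
  rw [this, T.norm_mul_unitary _ (mul_mem (pW_mem hu hZ hW (a + 1) (k - a - 1)) (hZ k)),
    T.norm_unitary_mul (mul_mem (pW_mem hu hZ hW 0 a) (mul_mem (hZ a) hu))]

lemma norm_Dy_le {W : A} (hW : W ∈ unitary A) (Δ : A) : ‖Dy u k Z W Δ‖ ≤ k * ‖Δ‖ := by
  refine (norm_sum_le _ _).trans ?_
  refine (sum_le_sum fun a _ => norm_tm_le hu hZ hW Δ a).trans ?_
  simp

lemma norm_gg_le (hx : ‖x‖ ≤ 1) (a : ℕ) : ‖gg u x k Z a‖ ≤ 1 :=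
  norm_mul_le_one (norm_mul_le_one (norm_mul_le_one
    (norm_unitary_le (Unitary.star_mem (pV_mem hu hZ _ _))) hx)
    (norm_unitary_le (Unitary.star_mem (hZ k))))
    (norm_unitary_le (Unitary.star_mem (pV_mem hu hZ _ _)))

lemma norm_GG_le (hx : ‖x‖ ≤ 1) : ‖GG u x k Z‖ ≤ k := by
  refine (norm_sum_le _ _).trans ?_
  refine (sum_le_sum fun a _ => norm_gg_le hu hZ hx a).trans ?_
  simp

lemma norm_HH_le (hx : ‖x‖ ≤ 1) : ‖HH u x k Z‖ ≤ 2 * k := by
  refine (norm_add_le _ _).trans ?_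
  rw [norm_star]
  linarith [norm_GG_le (k := k) hu hZ hx]

/-- first order expansion of the word along a Cayley perturbation -/
lemma norm_yy_expansion {S S' : A} (hS : IsSelfAdjoint S) (hS' : IsSelfAdjoint S') :
    ‖yy u k Z (cay S') - yy u k Z (cay S) -
      (2 * I) • Dy u k Z (cay S) (res S * (S' - S) * res S)‖ ≤ 6 * k ^ 2 * ‖S' - S‖ ^ 2 := by
  have hW := cay_mem_unitary hS
  have hU := cay_mem_unitary hS'
  have h1 := norm_seg_taylor (f := fun c => Z c * u * cay S) (f' := fun c => Z c * u * cay S')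
    (δ := 2 * ‖S' - S‖)
    (fun c => norm_unitary_le (mul_mem (mul_mem (hZ c) hu) hW))
    (fun c => norm_unitary_le (mul_mem (mul_mem (hZ c) hu) hU))
    (fun c => by
      rw [← mul_sub]
      exact (norm_mul_le _ _).trans ((mul_le_of_le_one_left (norm_nonneg _)
        (norm_unitary_le (mul_mem (hZ c) hu))).trans (norm_cay_sub_cay_le hS hS'))) k
  have h2 : Dy u k Z (cay S) (cay S' - cay S) =
      dseg (fun c => Z c * u * cay S) (fun c => Z c * u * cay S' - Z c * u * cay S) k * Z k := by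
    simp only [Dy, tm, dseg, sum_mul, pW, mul_sub]
  have h3 : yy u k Z (cay S') - yy u k Z (cay S) -
      (2 * I) • Dy u k Z (cay S) (res S * (S' - S) * res S) =
      (seg (fun c => Z c * u * cay S') 0 k - seg (fun c => Z c * u * cay S) 0 k -
        dseg (fun c => Z c * u * cay S) (fun c => Z c * u * cay S' - Z c * u * cay S) k) * Z k +
      Dy u k Z (cay S) (cay S' - cay S - (2 * I) • (res S * (S' - S) * res S)) := by
    rw [Dy_sub _ (cay S' - cay S), Dy_smul, h2, yy, yy, pW, pW]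
    noncomm_ring
  rw [h3]
  refine (norm_add_le _ _).trans ?_
  have h4 := (norm_mul_le _ (Z k)).trans
    ((mul_le_of_le_one_right (norm_nonneg _) (norm_unitary_le (hZ k))).trans h1)
  have h5 := (norm_Dy_le (k := k) hu hZ hW _).trans
    (mul_le_mul_of_nonneg_left (norm_cay_expansion hS hS') (Nat.cast_nonneg k))
  have h6 : (k : ℝ) ≤ k ^ 2 := by exact_mod_cast Nat.le_self_pow two_ne_zero k
  nlinarith [sq_nonneg ‖S' - S‖]

end norms

section update
variable {t : ℕ} {w : A}

lemma pW_update {W : A} {a m : ℕ} (h : t < a ∨ a + m ≤ t) :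
    pW u (Function.update Z t w) W a m = pW u Z W a m :=
  seg_congr fun c h1 h2 => by rw [Function.update_of_ne (by omega)]

lemma pV_update {a m : ℕ} (h : t < a ∨ a + m ≤ t) :
    pV u (Function.update Z t w) a m = pV u Z a m :=
  seg_congr fun c h1 h2 => by rw [Function.update_of_ne (by omega)]

lemma yy_update_last (W : A) : yy u k (Function.update Z k w) W = pW u Z W 0 k * w := by
  rw [yy, pW_update (by omega), Function.update_self]

lemma tm_update_last (W Δ : A) {a : ℕ} (ha : a < k) :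
    tm u k (Function.update Z k w) W Δ a =
      pW u Z W 0 a * (Z a * u * Δ) * pW u Z W (a + 1) (k - a - 1) * w := by
  rw [tm, pW_update (by omega), pW_update (by omega), Function.update_self,
    Function.update_of_ne (by omega)]

lemma gg_update_last {a : ℕ} (ha : a < k) :
    gg u x k (Function.update Z k w) a =
      star (pV u Z 0 (a + 1)) * x * star w * star (pV u Z (a + 1) (k - a - 1)) := by
  rw [gg, pV_update (by omega), pV_update (by omega), Function.update_self]

lemma yy_phase (c : ℂ) (W : A) : yy u k (Function.update Z k (c • Z k)) W = c • yy u k Z W := by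
  rw [yy_update_last, yy, mul_smul_comm]

lemma Dy_phase (c : ℂ) (W Δ : A) :
    Dy u k (Function.update Z k (c • Z k)) W Δ = c • Dy u k Z W Δ := by
  rw [Dy, Dy, smul_sum]
  refine sum_congr rfl fun a ha => ?_
  rw [tm_update_last _ _ (mem_range.1 ha), tm, mul_smul_comm]

lemma GG_phase (c : ℂ) : GG u x k (Function.update Z k (c • Z k)) = conj c • GG u x k Z := by
  rw [GG, GG, smul_sum]
  refine sum_congr rfl fun a ha => ?_
  rw [gg_update_last (mem_range.1 ha), gg, star_smul, mul_smul_comm, smul_mul_assoc]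
  rfl

lemma HH_neg : HH u x k (Function.update Z k ((-1 : ℂ) • Z k)) = -HH u x k Z := by
  rw [HH, HH, GG_phase]
  simp [add_comm]

end update

end words

end Crest.Agent.R95
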